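import Mathlib

/-!
(part G-INVOL) Two fixed point free involutions on a finite type: `q` and `c q` are never in the
same orbit of the product `c ∘ ℓ`.
-/

namespace Vale.Agent.Lib.P333G

variable {Y : Type} [Fintype Y] [DecidableEq Y]

/-- The product of two involutions. -/
def prodPerm (c l : Y → Y) (hc : Function.Involutive c) (hl : Function.Involutive l) :
    Equiv.Perm Y :=
  (Function.Involutive.toPerm l hl).trans (Function.Involutive.toPerm c hc)

@[simp] theorem prodPerm_apply (c l : Y → Y) (hc : Function.Involutive c)
    (hl : Function.Involutive l) (y : Y) : prodPerm c l hc hl y = c (l y) := rfl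

theorem pow_ne_c {c l : Y → Y} (hc : Function.Involutive c) (hl : Function.Involutive l)
    (hc1 : ∀ y, c y ≠ y) (hl1 : ∀ y, l y ≠ y) (k : ℕ) (q : Y) :
    ((prodPerm c l hc hl) ^ k) q ≠ c q := by
  induction k using Nat.twoStepInduction generalizing q with
  | zero => exact fun h => hc1 q (by simpa using h.symm)
  | one =>
    intro h
    simp only [pow_one, prodPerm_apply] at h
    exact hl1 q (hc.injective h)
  | more k ih _ =>
    intro h
    have e : ((prodPerm c l hc hl) ^ (k + 2)) q =
        prodPerm c l hc hl (((prodPerm c l hc hl) ^ k) (prodPerm c l hc hl q)) := by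
      rw [pow_succ' _ (k + 1), pow_succ _ k]
      rfl
    rw [e, prodPerm_apply] at h
    have h1 := hc.injective h
    have h2 : ((prodPerm c l hc hl) ^ k) (prodPerm c l hc hl q) = l q :=
      (hl _).symm.trans (congrArg l h1)
    apply ih (prodPerm c l hc hl q)
    rw [h2, prodPerm_apply, hc]

end Vale.Agent.Lib.P333G
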