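import Vale.Agent.Lib.P333G.Flip
import Vale.Agent.Lib.P333G.Invol

/-!
(part G-WINDOW) A locally optimal state is within a factor `(R - 5) / (R + 1)` of every comparator:
sliding windows along the orbits of the product of two involutions on the positions.
-/

namespace Vale.Agent.Lib.P333G

variable {X : Type} [Fintype X] [DecidableEq X]
variable {bar s t : X → X} {h : X → X → ℕ} {RT : X → Prop}

/-- A fixed point free involution on a type with an even number of elements. -/
private theorem exists_fpf_of_even {Y : Type} [Fintype Y] (hY : Even (Fintype.card Y)) :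
    ∃ f : Y → Y, (∀ y, f (f y) = y) ∧ (∀ y, f y ≠ y) := by
  classical
  obtain ⟨k, hk⟩ := hY
  have hc : Fintype.card Y = Fintype.card (Fin k × Bool) := by
    simp [Fintype.card_prod, hk]; ring
  let e := Fintype.equivOfCardEq hc
  refine ⟨fun y => e.symm ((e y).1, !(e y).2), ?_, ?_⟩
  · intro y; simp
  · intro y hy
    have := congrArg e hy
    simp only [Equiv.apply_symm_apply] at this
    have h2 := congrArg Prod.snd this
    simp at h2

/-- The number of points moved by an involution is even. -/
private theorem even_moved (f : X → X) (hf : ∀ x, f (f x) = x) :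
    Even (Finset.univ.filter (fun x => f x ≠ x)).card := by
  have h0 : ∑ x ∈ Finset.univ.filter (fun x => f x ≠ x), (1 : ZMod 2) = 0 := by
    refine Finset.sum_involution (fun x _ => f x) ?_ ?_ ?_ ?_
    · intro a _; decide
    · intro a ha _
      exact (Finset.mem_filter.mp ha).2
    · intro a ha
      simp only [Finset.mem_filter, Finset.mem_univ, true_and] at ha ⊢
      intro h1; rw [hf] at h1; exact ha h1.symm
    · intro a _; exact hf a
  simp only [Finset.sum_const, nsmul_eq_mul, mul_one] at h0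
  exact (ZMod.natCast_eq_zero_iff_even).mp h0

/-- Free slots can be paired up: `s` extends to a fixed point free involution. -/
theorem exists_perfect (hb : ∀ x, bar (bar x) = x) (hb1 : ∀ x, bar x ≠ x) (hs : ∀ x, s (s x) = x) :
    ∃ s1 : X → X, (∀ x, s1 (s1 x) = x) ∧ (∀ x, s1 x ≠ x) ∧ (∀ x, s x ≠ x → s1 x = s x) := by
  classical
  have h1 : Even (Finset.univ.filter (fun x => bar x ≠ x)).card := even_moved bar hb
  have h1' : (Finset.univ.filter (fun x => bar x ≠ x)) = Finset.univ := by
    ext x; simp [hb1 x]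
  rw [h1', Finset.card_univ] at h1
  have h2 := even_moved s hs
  have hcard : Fintype.card {x // s x = x} + (Finset.univ.filter (fun x => s x ≠ x)).card
      = Fintype.card X := by
    rw [Fintype.card_subtype]
    exact Finset.card_filter_add_card_filter_not _
  have h3 : Even (Fintype.card {x // s x = x}) := by
    rw [← hcard] at h1
    exact (Nat.even_add.mp h1).mpr h2
  obtain ⟨f, hf1, hf2⟩ := exists_fpf_of_even h3
  refine ⟨fun x => if hx : s x = x then (f ⟨x, hx⟩ : X) else s x, ?_, ?_, ?_⟩
  · intro x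
    by_cases hx : s x = x
    · have hfx := (f ⟨x, hx⟩).2
      simp only [hx, dif_pos, hfx]
      simp only [Subtype.coe_eta, hf1]
    · have hsx : s (s x) ≠ s x := by rw [hs]; exact fun h => hx h.symm
      have hx' : ¬ x = s x := fun h => hx h.symm
      simp only [dif_neg hx, hs, dif_neg hx']
  · intro x
    by_cases hx : s x = x
    · simp only [hx, dif_pos]
      intro h
      exact hf2 ⟨x, hx⟩ (Subtype.ext h)
    · simp only [dif_neg hx]; exact hx
  · intro x hx
    simp [hx]

/-! ### Positions and the two involutions -/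

/-- Change the type of a position. -/
def cc (p : X × Bool) : X × Bool := (p.1, !p.2)

theorem cc_inv : Function.Involutive (cc : X × Bool → X × Bool) := by
  intro p; simp [cc]

theorem cc_ne (p : X × Bool) : cc p ≠ p := by
  intro h
  have := congrArg Prod.snd h
  simp [cc] at this

open Classical in
/-- The second involution on positions. -/
noncomputable def ll (bar s t : X → X) (RT : X → Prop) (s1 : X → X) (p : X × Bool) : X × Bool :=
  match p with
  | (x, false) => if MxS bar s t RT x then (bar x, true) else (s1 x, false)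
  | (x, true) => if MxS bar s t RT (bar x) then (bar x, false) else (t x, true)

open Classical in
theorem ll_false {s1 : X → X} (x : X) : ll bar s t RT s1 (x, false) =
    if MxS bar s t RT x then (bar x, true) else (s1 x, false) := rfl

open Classical in
theorem ll_true {s1 : X → X} (x : X) : ll bar s t RT s1 (x, true) =
    if MxS bar s t RT (bar x) then (bar x, false) else (t x, true) := rfl

theorem mxs_s (hs : ValidS bar s) (ht : CompS bar t RT) {x : X} (hx : MxS bar s t RT x) :
    MxS bar s t RT (s x) := by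
  obtain ⟨h1, h2, h3⟩ := hx
  refine ⟨?_, ?_, ?_⟩
  · rw [hs.inv]; exact fun h => h1 h.symm
  · rw [← h3]; exact (ht.rt _).mpr h2
  · rw [← h3, ht.inv, hs.inv]

theorem mxs_t (hb : ∀ x, bar (bar x) = x) (hs : ValidS bar s) (ht : CompS bar t RT) {x : X}
    (hx : MxS bar s t RT (bar x)) : MxS bar s t RT (bar (t x)) := by
  obtain ⟨h1, h2, h3⟩ := hx
  rw [hb] at h2 h3
  refine ⟨?_, ?_, ?_⟩
  · rw [h3, hb, hs.inv]; exact fun h => h1 h.symm
  · rw [hb]; exact (ht.rt _).mpr h2
  · rw [hb, ht.inv, h3, hb, hs.inv, hb]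

theorem ll_invol (hb : ∀ x, bar (bar x) = x) (hs : ValidS bar s) (ht : CompS bar t RT)
    {s1 : X → X} (h1 : ∀ x, s1 (s1 x) = x) (h3 : ∀ x, s x ≠ x → s1 x = s x) :
    Function.Involutive (ll bar s t RT s1) := by
  rintro ⟨x, b⟩
  cases b with
  | false =>
    by_cases hm : MxS bar s t RT x
    · rw [ll_false, if_pos hm, ll_true, hb, if_pos hm]
    · rw [ll_false, if_neg hm, ll_false]
      have hm' : ¬ MxS bar s t RT (s1 x) := by
        intro hc
        by_cases hx : s x = x
        · -- the partner is free as well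
          by_cases hy : s (s1 x) = s1 x
          · exact hc.1 hy
          · have e : s (s1 x) = x := by rw [← h3 _ hy, h1]
            have e2 : s1 x = s x := by
              have := congrArg s e
              rwa [hs.inv] at this
            apply hy
            rw [e2, hx, hx]
        · rw [h3 x hx] at hc
          have := mxs_s hs ht hc
          rw [hs.inv] at this
          exact hm this
      rw [if_neg hm', h1]
  | true =>
    by_cases hm : MxS bar s t RT (bar x)
    · rw [ll_true, if_pos hm, ll_false, if_pos hm, hb]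
    · rw [ll_true, if_neg hm, ll_true]
      have hm' : ¬ MxS bar s t RT (bar (t x)) := by
        intro hc
        have := mxs_t hb hs ht hc
        rw [ht.inv] at this
        exact hm this
      rw [if_neg hm', ht.inv]

theorem ll_ne (ht : CompS bar t RT) {s1 : X → X} (h2 : ∀ x, s1 x ≠ x) (p : X × Bool) :
    ll bar s t RT s1 p ≠ p := by
  obtain ⟨x, b⟩ := p
  cases b with
  | false =>
    rw [ll_false]
    split_ifs
    · simp
    · simp [h2 x]
  | true =>
    rw [ll_true]
    split_ifs
    · simp
    · simp [ht.ne x]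

/-! ### Closed sets of positions give flips -/

theorem closed_bound (hb : SlotSys bar h) (hs : ValidS bar s) (ht : CompS bar t RT) {s1 : X → X}
    (hs1 : ∀ x, s x ≠ x → s1 x = s x) (R : ℕ)
    (hopt : ∀ s', ValidS bar s' → (Finset.univ.filter (fun x => s' x ≠ s x)).card ≤ 2 * R + 2 →
      valS h s' ≤ valS h s)
    (W : Finset (X × Bool)) (hW : ∀ p, p ∈ W ↔ ll bar s t RT s1 p ∈ W)
    (hsub : ∀ x, (x, true) ∈ W → (x, false) ∈ W)
    (hcard : (Finset.univ.filter (fun x => (x, false) ∈ W)).card ≤ R + 1) :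
    ∑ x ∈ Finset.univ.filter (fun x => (x, true) ∈ W), tv h t RT x ≤
      ∑ x ∈ Finset.univ.filter (fun x => (x, false) ∈ W), sv h s x := by
  set D := Finset.univ.filter (fun x => (x, false) ∈ W) with hD
  set A := Finset.univ.filter (fun x => (x, true) ∈ W) with hA
  have hf : FlipOK bar s t RT D A := by
    refine ⟨?_, ?_, ?_, ?_⟩
    · intro x hx
      simp only [hA, hD, Finset.mem_filter, Finset.mem_univ, true_and] at hx ⊢
      exact hsub x hx
    · intro x hx hm
      simp only [hD, Finset.mem_filter, Finset.mem_univ, true_and]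
      rw [hW (x, false), ll_false, if_neg hm, hs1 x hx]
    · intro y _ hm
      simp only [hA, Finset.mem_filter, Finset.mem_univ, true_and]
      rw [hW (y, true), ll_true, if_neg hm]
    · intro x hm
      simp only [hA, hD, Finset.mem_filter, Finset.mem_univ, true_and]
      rw [hW (x, false), ll_false, if_pos hm]
  have hv := flip_value hb hs ht hf
  have hc : (Finset.univ.filter (fun x => flip bar s t RT D A x ≠ s x)).card ≤ 2 * R + 2 := by
    calc _ ≤ (D ∪ D.image s).card := Finset.card_le_card (flip_changed hs hf)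
      _ ≤ D.card + (D.image s).card := Finset.card_union_le _ _
      _ ≤ D.card + D.card := Nat.add_le_add_left (Finset.card_image_le (s := D) (f := s)) _
      _ ≤ 2 * R + 2 := by omega
  have hval := hopt _ (flip_valid hb hs ht hf) hc
  omega

/-! ### The orbits -/

section Orbit

variable {l : X × Bool → X × Bool} (hl : Function.Involutive l)

/-- The product of the two involutions on positions. -/
def gP : Equiv.Perm (X × Bool) := prodPerm (Y := X × Bool) cc l (cc_inv (X := X)) hl

theorem gP_apply (p : X × Bool) : gP hl p = cc (l p) := rfl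

theorem l_orbit (k : ℕ) (q : X × Bool) : l (((gP hl) ^ k) q) = cc (((gP hl) ^ (k + 1)) q) := by
  rw [pow_succ', Equiv.Perm.mul_apply, gP_apply, cc_inv]

theorem l_orbit' (k : ℕ) (q : X × Bool) : l (cc (((gP hl) ^ (k + 1)) q)) = ((gP hl) ^ k) q := by
  rw [← l_orbit hl k q, hl]

theorem pow_cancel {a b : ℕ} {q : X × Bool} (hab : a < b)
    (h1 : ((gP hl) ^ b) q = ((gP hl) ^ a) q) : ((gP hl) ^ (b - a)) q = q := by
  have h2 : ((gP hl) ^ b) q = ((gP hl) ^ a) (((gP hl) ^ (b - a)) q) := by
    rw [← Equiv.Perm.mul_apply, ← pow_add]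
    congr 2
    omega
  rw [h2] at h1
  exact ((gP hl) ^ a).injective h1

theorem slot_inj (hl1 : ∀ p, l p ≠ p) {q : X × Bool} {r : ℕ}
    (hrL : ∀ k, 0 < k → k ≤ r → ((gP hl) ^ k) q ≠ q) {a b : ℕ} (hab : a < b) (hb : b ≤ r) :
    (((gP hl) ^ a) q).1 ≠ (((gP hl) ^ b) q).1 := by
  intro he
  have h2 : ((gP hl) ^ b) q = ((gP hl) ^ (b - a)) (((gP hl) ^ a) q) := by
    rw [← Equiv.Perm.mul_apply, ← pow_add]
    congr 2
    omega
  by_cases hsnd : (((gP hl) ^ a) q).2 = (((gP hl) ^ b) q).2
  · have : ((gP hl) ^ b) q = ((gP hl) ^ a) q := Prod.ext he.symm hsnd.symm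
    exact hrL (b - a) (by omega) (by omega) (pow_cancel hl hab this)
  · have h3 : ((gP hl) ^ b) q = cc (((gP hl) ^ a) q) := by
      refine Prod.ext he.symm ?_
      simp only [cc]
      cases h4 : (((gP hl) ^ a) q).2 <;> cases h5 : (((gP hl) ^ b) q).2 <;> simp_all
    rw [h2] at h3
    exact pow_ne_c (cc_inv (X := X)) hl cc_ne hl1 (b - a) _ h3

end Orbit

/-! ### The window lemma -/

section Main

variable {s1 : X → X}

/-- A window from an `S` position to a `T` position on an orbit. -/
theorem window_lemma (hb : SlotSys bar h) (hs : ValidS bar s) (ht : CompS bar t RT)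
    (hs1 : ∀ x, s x ≠ x → s1 x = s x) (R : ℕ)
    (hopt : ∀ s', ValidS bar s' → (Finset.univ.filter (fun x => s' x ≠ s x)).card ≤ 2 * R + 2 →
      valS h s' ≤ valS h s)
    (hl : Function.Involutive (ll bar s t RT s1)) (hl1 : ∀ p, ll bar s t RT s1 p ≠ p)
    {q : X × Bool} {r : ℕ} (hq : q.2 = false) (hrR : r ≤ R)
    (hrL : ∀ k, 0 < k → k ≤ r → ((gP hl) ^ k) q ≠ q) (hT : (((gP hl) ^ r) q).2 = true) :
    ∑ i ∈ Finset.Ico 1 r, tv h t RT (((gP hl) ^ i) q).1 ≤
      ∑ i ∈ Finset.range (r + 1), sv h s (((gP hl) ^ i) q).1 := by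
  classical
  let W : Finset (X × Bool) := (Finset.range r).image (fun i => ((gP hl) ^ i) q) ∪
      (Finset.Ico 1 (r + 1)).image (fun i => cc (((gP hl) ^ i) q))
  have hmem : ∀ p, p ∈ W ↔ (∃ i, i < r ∧ ((gP hl) ^ i) q = p) ∨
      (∃ i, 1 ≤ i ∧ i ≤ r ∧ cc (((gP hl) ^ i) q) = p) := by
    intro p
    simp only [W, Finset.mem_union, Finset.mem_image, Finset.mem_range, Finset.mem_Ico]
    constructor
    · rintro (⟨i, hi, he⟩ | ⟨i, hi, he⟩)
      · exact Or.inl ⟨i, hi, he⟩
      · exact Or.inr ⟨i, hi.1, by omega, he⟩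
    · rintro (⟨i, hi, he⟩ | ⟨i, hi1, hi2, he⟩)
      · exact Or.inl ⟨i, hi, he⟩
      · exact Or.inr ⟨i, ⟨hi1, by omega⟩, he⟩
  have hclosed : ∀ p, p ∈ W → ll bar s t RT s1 p ∈ W := by
    intro p hp
    rcases (hmem p).mp hp with ⟨i, hi, rfl⟩ | ⟨i, hi1, hi2, rfl⟩
    · rw [hmem]
      exact Or.inr ⟨i + 1, by omega, by omega, (l_orbit hl i q).symm⟩
    · obtain ⟨j, rfl⟩ : ∃ j, i = j + 1 := ⟨i - 1, by omega⟩
      rw [hmem]
      exact Or.inl ⟨j, by omega, (l_orbit' hl j q).symm⟩
  have hW : ∀ p, p ∈ W ↔ ll bar s t RT s1 p ∈ W := fun p =>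
    ⟨hclosed p, fun hp => by simpa only [hl p] using hclosed _ hp⟩
  have hD : Finset.univ.filter (fun x => (x, false) ∈ W) =
      (Finset.range (r + 1)).image (fun i => (((gP hl) ^ i) q).1) := by
    ext x
    simp only [Finset.mem_filter, Finset.mem_univ, true_and, Finset.mem_image, Finset.mem_range]
    rw [hmem]
    constructor
    · rintro (⟨i, hi, he⟩ | ⟨i, _, hi2, he⟩)
      · exact ⟨i, by omega, congrArg Prod.fst he⟩
      · exact ⟨i, by omega, congrArg Prod.fst he⟩
    · rintro ⟨i, hi, rfl⟩
      cases hbi : (((gP hl) ^ i) q).2 with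
      | false =>
        refine Or.inl ⟨i, ?_, Prod.ext rfl hbi⟩
        rcases Nat.lt_or_ge i r with h1 | h1
        · exact h1
        · have : i = r := by omega
          subst this
          rw [hT] at hbi
          exact absurd hbi (by simp)
      | true =>
        refine Or.inr ⟨i, ?_, by omega, Prod.ext rfl (by simp [cc, hbi])⟩
        rcases Nat.eq_zero_or_pos i with h1 | h1
        · subst h1
          simp only [pow_zero, Equiv.Perm.coe_one, id_eq] at hbi
          rw [hq] at hbi
          exact absurd hbi (by simp)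
        · exact h1
  have hA : Finset.univ.filter (fun x => (x, true) ∈ W) =
      (Finset.Ico 1 r).image (fun i => (((gP hl) ^ i) q).1) := by
    ext x
    simp only [Finset.mem_filter, Finset.mem_univ, true_and, Finset.mem_image, Finset.mem_Ico]
    rw [hmem]
    constructor
    · rintro (⟨i, hi, he⟩ | ⟨i, hi1, hi2, he⟩)
      · refine ⟨i, ⟨?_, hi⟩, congrArg Prod.fst he⟩
        rcases Nat.eq_zero_or_pos i with h1 | h1
        · subst h1
          simp only [pow_zero, Equiv.Perm.coe_one, id_eq] at he
          rw [he] at hq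
          exact absurd hq (by simp)
        · exact h1
      · refine ⟨i, ⟨hi1, ?_⟩, congrArg Prod.fst he⟩
        rcases Nat.lt_or_ge i r with h1 | h1
        · exact h1
        · have : i = r := by omega
          subst this
          have h2 := congrArg Prod.snd he
          simp only [cc, hT] at h2
          exact absurd h2 (by simp)
    · rintro ⟨i, ⟨hi1, hi2⟩, rfl⟩
      cases hbi : (((gP hl) ^ i) q).2 with
      | true => exact Or.inl ⟨i, hi2, Prod.ext rfl hbi⟩
      | false => exact Or.inr ⟨i, hi1, by omega, Prod.ext rfl (by simp [cc, hbi])⟩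
  have hsub : ∀ x, (x, true) ∈ W → (x, false) ∈ W := by
    intro x hx
    have h1 : x ∈ Finset.univ.filter (fun x => (x, true) ∈ W) := by simp [hx]
    rw [hA] at h1
    have h2 : x ∈ Finset.univ.filter (fun x => (x, false) ∈ W) := by
      rw [hD]
      obtain ⟨i, hi, he⟩ := Finset.mem_image.mp h1
      have hi' := Finset.mem_Ico.mp hi
      exact Finset.mem_image.mpr ⟨i, Finset.mem_range.mpr (by omega), he⟩
    simpa using h2
  have hcard : (Finset.univ.filter (fun x => (x, false) ∈ W)).card ≤ R + 1 := by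
    rw [hD]
    refine le_trans Finset.card_image_le ?_
    simp only [Finset.card_range]
    omega
  have hinj : ∀ a b, a ≤ r → b ≤ r → (((gP hl) ^ a) q).1 = (((gP hl) ^ b) q).1 → a = b := by
    intro a b ha hb' he
    rcases Nat.lt_trichotomy a b with h1 | h1 | h1
    · exact absurd he (slot_inj hl hl1 hrL h1 hb')
    · exact h1
    · exact absurd he.symm (slot_inj hl hl1 hrL h1 ha)
  have hmain := closed_bound hb hs ht hs1 R hopt W hW hsub hcard
  rw [hA, hD, Finset.sum_image, Finset.sum_image] at hmain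
  · exact hmain
  · intro a ha b hb' he
    exact hinj a b (by simpa [Nat.lt_succ_iff] using ha) (by simpa [Nat.lt_succ_iff] using hb') he
  · intro a ha b hb' he
    have ha' := Finset.mem_Ico.mp ha
    have hb'' := Finset.mem_Ico.mp hb'
    exact hinj a b (by omega) (by omega) he

/-- A whole orbit. -/
theorem orbit_lemma (hb : SlotSys bar h) (hs : ValidS bar s) (ht : CompS bar t RT)
    (hs1 : ∀ x, s x ≠ x → s1 x = s x) (R : ℕ)
    (hopt : ∀ s', ValidS bar s' → (Finset.univ.filter (fun x => s' x ≠ s x)).card ≤ 2 * R + 2 →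
      valS h s' ≤ valS h s)
    (hl : Function.Involutive (ll bar s t RT s1)) (hl1 : ∀ p, ll bar s t RT s1 p ≠ p)
    {q : X × Bool} {L : ℕ} (hL0 : 0 < L) (hLR : L ≤ R) (hper : ((gP hl) ^ L) q = q)
    (hmin : ∀ k, 0 < k → k < L → ((gP hl) ^ k) q ≠ q) :
    ∑ i ∈ Finset.range L, tv h t RT (((gP hl) ^ i) q).1 ≤
      ∑ i ∈ Finset.range L, sv h s (((gP hl) ^ i) q).1 := by
  classical
  let W : Finset (X × Bool) := (Finset.range L).image (fun i => ((gP hl) ^ i) q) ∪
      (Finset.range L).image (fun i => cc (((gP hl) ^ i) q))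
  have hmem : ∀ p, p ∈ W ↔ (∃ i, i < L ∧ ((gP hl) ^ i) q = p) ∨
      (∃ i, i < L ∧ cc (((gP hl) ^ i) q) = p) := by
    intro p
    simp only [W, Finset.mem_union, Finset.mem_image, Finset.mem_range]
  have hclosed : ∀ p, p ∈ W → ll bar s t RT s1 p ∈ W := by
    intro p hp
    rcases (hmem p).mp hp with ⟨i, hi, rfl⟩ | ⟨i, hi, rfl⟩
    · rw [hmem, l_orbit hl i q]
      rcases Nat.lt_or_ge (i + 1) L with h1 | h1
      · exact Or.inr ⟨i + 1, h1, rfl⟩
      · have : i + 1 = L := by omega
        rw [this, hper]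
        exact Or.inr ⟨0, hL0, by simp⟩
    · rw [hmem]
      rcases Nat.eq_zero_or_pos i with h1 | h1
      · subst h1
        obtain ⟨j, rfl⟩ : ∃ j, L = j + 1 := ⟨L - 1, by omega⟩
        have h2 : cc (((gP hl) ^ 0) q) = cc (((gP hl) ^ (j + 1)) q) := by
          rw [hper]; simp
        rw [h2, l_orbit' hl j q]
        exact Or.inl ⟨j, by omega, rfl⟩
      · obtain ⟨j, rfl⟩ : ∃ j, i = j + 1 := ⟨i - 1, by omega⟩
        rw [l_orbit' hl j q]
        exact Or.inl ⟨j, by omega, rfl⟩
  have hW : ∀ p, p ∈ W ↔ ll bar s t RT s1 p ∈ W := fun p =>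
    ⟨hclosed p, fun hp => by simpa only [hl p] using hclosed _ hp⟩
  have hDA : ∀ b : Bool, Finset.univ.filter (fun x => (x, b) ∈ W) =
      (Finset.range L).image (fun i => (((gP hl) ^ i) q).1) := by
    intro b
    ext x
    simp only [Finset.mem_filter, Finset.mem_univ, true_and, Finset.mem_image, Finset.mem_range]
    rw [hmem]
    constructor
    · rintro (⟨i, hi, he⟩ | ⟨i, hi, he⟩)
      · exact ⟨i, hi, congrArg Prod.fst he⟩
      · exact ⟨i, hi, congrArg Prod.fst he⟩
    · rintro ⟨i, hi, rfl⟩
      by_cases hbi : (((gP hl) ^ i) q).2 = b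
      · exact Or.inl ⟨i, hi, Prod.ext rfl hbi⟩
      · refine Or.inr ⟨i, hi, Prod.ext rfl ?_⟩
        have hbb : ∀ a c : Bool, a ≠ c → (!a) = c := by decide
        exact hbb _ _ hbi
  have hsub : ∀ x, (x, true) ∈ W → (x, false) ∈ W := by
    intro x hx
    have h1 : x ∈ Finset.univ.filter (fun x => (x, true) ∈ W) := by simp [hx]
    rw [hDA] at h1
    have h2 : x ∈ Finset.univ.filter (fun x => (x, false) ∈ W) := by rw [hDA]; exact h1
    simpa using h2
  have hcard : (Finset.univ.filter (fun x => (x, false) ∈ W)).card ≤ R + 1 := by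
    rw [hDA]
    refine le_trans Finset.card_image_le ?_
    simp only [Finset.card_range]
    omega
  have hrL : ∀ k, 0 < k → k ≤ L - 1 → ((gP hl) ^ k) q ≠ q := fun k h1 h2 => hmin k h1 (by omega)
  have hinj : ∀ a b, a < L → b < L → (((gP hl) ^ a) q).1 = (((gP hl) ^ b) q).1 → a = b := by
    intro a b ha hb' he
    rcases Nat.lt_trichotomy a b with h1 | h1 | h1
    · exact absurd he (slot_inj hl hl1 hrL h1 (by omega))
    · exact h1
    · exact absurd he.symm (slot_inj hl hl1 hrL h1 (by omega))
  have hmain := closed_bound hb hs ht hs1 R hopt W hW hsub hcard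
  rw [hDA, hDA, Finset.sum_image, Finset.sum_image] at hmain
  · exact hmain
  · intro a ha b hb' he
    exact hinj a b (Finset.mem_range.mp ha) (Finset.mem_range.mp hb') he
  · intro a ha b hb' he
    exact hinj a b (Finset.mem_range.mp ha) (Finset.mem_range.mp hb') he

/-- Three consecutive positions of the same type on an orbit of length at most two. -/
theorem same_type (hb : ∀ x, bar (bar x) = x)
    (hl : Function.Involutive (ll bar s t RT s1)) {p : X × Bool}
    (h1 : ((gP hl) p).2 = p.2) (h2 : ((gP hl) ((gP hl) p)).2 = p.2) :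
    (gP hl) ((gP hl) p) = p := by
  obtain ⟨x, b⟩ := p
  cases b with
  | false =>
    rw [gP_apply, ll_false] at h1
    by_cases hm : MxS bar s t RT x
    · rw [gP_apply (p := (x, false)), ll_false, if_pos hm] at h2 ⊢
      simp only [cc, Bool.not_true] at h2 ⊢
      rw [gP_apply, ll_false] at h2 ⊢
      by_cases hm2 : MxS bar s t RT (bar x)
      · rw [if_pos hm2]; simp [cc, hb]
      · rw [if_neg hm2] at h2; simp [cc] at h2
    · simp [hm, cc] at h1
  | true =>
    rw [gP_apply, ll_true] at h1
    by_cases hm : MxS bar s t RT (bar x)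
    · rw [gP_apply (p := (x, true)), ll_true, if_pos hm] at h2 ⊢
      simp only [cc, Bool.not_false] at h2 ⊢
      rw [gP_apply, ll_true] at h2 ⊢
      by_cases hm2 : MxS bar s t RT (bar (bar x))
      · rw [if_pos hm2]; simp [cc, hb]
      · rw [if_neg hm2] at h2; simp [cc] at h2
    · simp [hm, cc] at h1

/-- Rotation of a sum over a period. -/
private theorem sum_rot (T : ℕ → ℕ) (L : ℕ) (hT : ∀ i, T (i + L) = T i) (a : ℕ) :
    ∑ i ∈ Finset.range L, T (a + i) = ∑ i ∈ Finset.range L, T i := by
  induction a with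
  | zero => simp
  | succ a ih =>
    have h1 := Finset.sum_range_succ (fun i => T (a + i)) L
    have h2 := Finset.sum_range_succ' (fun i => T (a + i)) L
    have h3 : T (a + L) = T a := hT a
    have h4 : T (a + 0) = T a := by simp
    have h5 : ∑ i ∈ Finset.range L, T (a + 1 + i) = ∑ i ∈ Finset.range L, T (a + (i + 1)) :=
      Finset.sum_congr rfl (fun i _ => by congr 1; omega)
    rw [h5, ← ih]
    omega

/-- The sliding claim. -/
theorem sliding (hb : SlotSys bar h) (hs : ValidS bar s) (ht : CompS bar t RT)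
    (hs1 : ∀ x, s x ≠ x → s1 x = s x) (R : ℕ)
    (hopt : ∀ s', ValidS bar s' → (Finset.univ.filter (fun x => s' x ≠ s x)).card ≤ 2 * R + 2 →
      valS h s' ≤ valS h s)
    (hl : Function.Involutive (ll bar s t RT s1)) (hl1 : ∀ p, ll bar s t RT s1 p ≠ p)
    (r : ℕ) : r ≤ R → ∀ q : X × Bool,
    ∑ i ∈ Finset.Ico 3 (r - 2), tv h t RT (((gP hl) ^ i) q).1 ≤
      ∑ i ∈ Finset.range (r + 1), sv h s (((gP hl) ^ i) q).1 := by
  classical
  induction r using Nat.strong_induction_on with
  | _ r IH =>
  intro hr q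
  by_cases h5 : r ≤ 5
  · rw [Finset.Ico_eq_empty (by omega)]
    simp
  have hex : ∃ k, 0 < k ∧ ((gP hl) ^ k) q = q :=
    ⟨orderOf (gP hl), orderOf_pos _, by rw [pow_orderOf_eq_one]; rfl⟩
  obtain ⟨hL0, hper⟩ := Nat.find_spec hex
  have hmin : ∀ k, 0 < k → k < Nat.find hex → ((gP hl) ^ k) q ≠ q := fun k h1 h2 h3 =>
    Nat.find_min hex h2 ⟨h1, h3⟩
  generalize Nat.find hex = L at hL0 hper hmin
  have hpow : ∀ (a b : ℕ) (p : X × Bool), ((gP hl) ^ (a + b)) p = ((gP hl) ^ a) (((gP hl) ^ b) p) := by
    intro a b p; rw [pow_add, Equiv.Perm.mul_apply]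
  by_cases hrL : r < L
  · -- a window inside the orbit
    have h22 : ((gP hl) ^ 2) q ≠ q := hmin 2 (by omega) (by omega)
    have hg2 : ∀ p : X × Bool, ((gP hl) ^ 2) p = (gP hl) ((gP hl) p) := by
      intro p; rw [pow_two, Equiv.Perm.mul_apply]
    have hi : ∃ i, i ≤ 2 ∧ (((gP hl) ^ i) q).2 = false := by
      by_contra hno
      have hf : ∀ i, i ≤ 2 → (((gP hl) ^ i) q).2 = true := by
        intro i hi
        cases h4 : (((gP hl) ^ i) q).2 with
        | true => rfl
        | false => exact absurd ⟨i, hi, h4⟩ hno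
      have h0 : q.2 = true := by simpa using hf 0 (by omega)
      have h1' : ((gP hl) q).2 = true := by simpa using hf 1 (by omega)
      have h2' : ((gP hl) ((gP hl) q)).2 = true := by
        rw [← hg2]; exact hf 2 (by omega)
      apply h22
      rw [hg2]
      exact same_type hb.bb hl (by rw [h1', h0]) (by rw [h2', h0])
    have hj : ∃ j, r - 2 ≤ j ∧ j ≤ r ∧ (((gP hl) ^ j) q).2 = true := by
      by_contra hno
      have hf : ∀ j, r - 2 ≤ j → j ≤ r → (((gP hl) ^ j) q).2 = false := by
        intro j h1 h2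
        cases h4 : (((gP hl) ^ j) q).2 with
        | false => rfl
        | true => exact absurd ⟨j, h1, h2, h4⟩ hno
      have h0 := hf (r - 2) (by omega) (by omega)
      have h1' := hf (r - 2 + 1) (by omega) (by omega)
      have h2' := hf (r - 2 + 1 + 1) (by omega) (by omega)
      rw [pow_succ', Equiv.Perm.mul_apply] at h1'
      rw [pow_succ', Equiv.Perm.mul_apply, pow_succ', Equiv.Perm.mul_apply] at h2'
      have hcyc := same_type hb.bb hl (p := ((gP hl) ^ (r - 2)) q) (by rw [h1', h0])
        (by rw [h2', h0])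
      have h3 : ((gP hl) ^ (r - 2 + 1 + 1)) q = ((gP hl) ^ (r - 2)) q := by
        rw [pow_succ', Equiv.Perm.mul_apply, pow_succ', Equiv.Perm.mul_apply]
        exact hcyc
      have h4 := pow_cancel hl (a := r - 2) (b := r - 2 + 1 + 1) (by omega) h3
      have h6 : r - 2 + 1 + 1 - (r - 2) = 2 := by omega
      rw [h6] at h4
      exact h22 h4
    obtain ⟨i, hi2, hiF⟩ := hi
    obtain ⟨j, hj1, hj2, hjT⟩ := hj
    have hw := window_lemma hb hs ht hs1 R hopt hl hl1 (q := ((gP hl) ^ i) q) (r := j - i) hiF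
      (by omega) (by
        intro k hk hk2 he
        rw [← hpow, add_comm, hpow] at he
        exact hmin k hk (by omega) (((gP hl) ^ i).injective he))
      (by
        rw [← hpow]
        have h6 : j - i + i = j := by omega
        rw [h6]
        exact hjT)
    simp only [← hpow] at hw
    calc ∑ a ∈ Finset.Ico 3 (r - 2), tv h t RT (((gP hl) ^ a) q).1
        ≤ ∑ a ∈ Finset.Ico (1 + i) (j - i + i), tv h t RT (((gP hl) ^ a) q).1 := by
          apply Finset.sum_le_sum_of_subset
          intro a ha
          rw [Finset.mem_Ico] at ha ⊢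
          omega
      _ = ∑ a ∈ Finset.Ico 1 (j - i), tv h t RT (((gP hl) ^ (a + i)) q).1 :=
          (Finset.sum_Ico_add' (fun a => tv h t RT (((gP hl) ^ a) q).1) 1 (j - i) i).symm
      _ ≤ ∑ a ∈ Finset.range (j - i + 1), sv h s (((gP hl) ^ (a + i)) q).1 := hw
      _ = ∑ a ∈ Finset.Ico 0 (j - i + 1), sv h s (((gP hl) ^ (a + i)) q).1 := by
          rw [Finset.range_eq_Ico]
      _ = ∑ a ∈ Finset.Ico (0 + i) (j - i + 1 + i), sv h s (((gP hl) ^ a) q).1 :=
          Finset.sum_Ico_add' (fun a => sv h s (((gP hl) ^ a) q).1) 0 (j - i + 1) i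
      _ ≤ ∑ a ∈ Finset.range (r + 1), sv h s (((gP hl) ^ a) q).1 := by
          apply Finset.sum_le_sum_of_subset
          intro a ha
          rw [Finset.mem_Ico] at ha
          rw [Finset.mem_range]
          omega
  · -- a whole period fits
    have hLr : L ≤ r := by omega
    have hper' : ∀ a, ((gP hl) ^ (a + L)) q = ((gP hl) ^ a) q := by
      intro a; rw [hpow, hper]
    have hA := orbit_lemma hb hs ht hs1 R hopt hl hl1 hL0 (by omega) hper hmin
    have hT : ∀ a, (fun a => tv h t RT (((gP hl) ^ a) q).1) (a + L) =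
        (fun a => tv h t RT (((gP hl) ^ a) q).1) a := by
      intro a; simp only [hper']
    have hrot : ∑ a ∈ Finset.range L, tv h t RT (((gP hl) ^ (3 + a)) q).1 =
        ∑ a ∈ Finset.range L, tv h t RT (((gP hl) ^ a) q).1 :=
      sum_rot (fun a => tv h t RT (((gP hl) ^ a) q).1) L hT 3
    have hright : ∑ a ∈ Finset.range (r + 1), sv h s (((gP hl) ^ a) q).1 =
        ∑ a ∈ Finset.range L, sv h s (((gP hl) ^ a) q).1 +
          ∑ a ∈ Finset.range (r - L + 1), sv h s (((gP hl) ^ a) q).1 := by
      have h6 : r + 1 = L + (r - L + 1) := by omega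
      rw [h6, Finset.sum_range_add]
      congr 1
      apply Finset.sum_congr
      · congr 1
      · intro a _
        rw [add_comm L a, hper']
    rw [hright, Finset.sum_Ico_eq_sum_range]
    by_cases hc : r - 2 - 3 ≤ L
    · calc ∑ a ∈ Finset.range (r - 2 - 3), tv h t RT (((gP hl) ^ (3 + a)) q).1
          ≤ ∑ a ∈ Finset.range L, tv h t RT (((gP hl) ^ (3 + a)) q).1 := by
            apply Finset.sum_le_sum_of_subset
            intro a ha
            rw [Finset.mem_range] at ha ⊢
            omega
        _ = ∑ a ∈ Finset.range L, tv h t RT (((gP hl) ^ a) q).1 := hrot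
        _ ≤ ∑ a ∈ Finset.range L, sv h s (((gP hl) ^ a) q).1 := hA
        _ ≤ _ := Nat.le_add_right _ _
    · have hih := IH (r - L) (by omega) (by omega) q
      rw [Finset.sum_Ico_eq_sum_range] at hih
      have h6 : r - 2 - 3 = L + (r - L - 2 - 3) := by omega
      rw [h6, Finset.sum_range_add]
      have h7 : ∑ a ∈ Finset.range (r - L - 2 - 3), tv h t RT (((gP hl) ^ (3 + (L + a))) q).1 =
          ∑ a ∈ Finset.range (r - L - 2 - 3), tv h t RT (((gP hl) ^ (3 + a)) q).1 := by
        apply Finset.sum_congr rfl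
        intro a _
        have h8 : 3 + (L + a) = 3 + a + L := by omega
        rw [h8, hper']
      rw [h7, hrot]
      exact Nat.add_le_add hA hih

/-- The sum over all positions of a function of the slot. -/
private theorem sum_positions (f : X → ℕ) : ∑ p : X × Bool, f p.1 = 2 * ∑ x, f x := by
  rw [Fintype.sum_prod_type, Finset.mul_sum]
  apply Finset.sum_congr rfl
  intro x _
  simp [two_mul]

end Main

/-- The main inequality. -/
theorem window_bound (hb : SlotSys bar h) (hs : ValidS bar s) (ht : CompS bar t RT) (R : ℕ)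
    (hopt : ∀ s', ValidS bar s' → (Finset.univ.filter (fun x => s' x ≠ s x)).card ≤ 2 * R + 2 →
      valS h s' ≤ valS h s) :
    (R - 5) * ∑ x, tv h t RT x ≤ (R + 1) * valS h s := by
  classical
  obtain ⟨s1, h1, h2, h3⟩ := exists_perfect (s := s) hb.bb hb.ne hs.inv
  have hl := ll_invol (RT := RT) hb.bb hs ht h1 h3
  have hl1 := ll_ne (s := s) (RT := RT) ht h2
  have key := fun q => sliding hb hs ht h3 R hopt hl hl1 R le_rfl q
  have hsum := Finset.sum_le_sum (s := Finset.univ) (fun q _ => key q)
  rw [Finset.sum_comm, Finset.sum_comm (s := Finset.univ) (t := Finset.range (R + 1))] at hsum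
  have hshift : ∀ (f : X → ℕ) (i : ℕ),
      ∑ q : X × Bool, f (((gP hl) ^ i) q).1 = 2 * ∑ x, f x := by
    intro f i
    rw [← sum_positions f]
    exact Equiv.sum_comp ((gP hl) ^ i) (fun p : X × Bool => f p.1)
  simp only [hshift, Finset.sum_const, Nat.card_Ico, Finset.card_range, smul_eq_mul] at hsum
  have h6 : R - 2 - 3 = R - 5 := by omega
  rw [h6] at hsum
  have h7 : 2 * ((R - 5) * ∑ x, tv h t RT x) ≤ 2 * ((R + 1) * valS h s) := by
    calc 2 * ((R - 5) * ∑ x, tv h t RT x) = (R - 5) * (2 * ∑ x, tv h t RT x) := by ring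
      _ ≤ (R + 1) * (2 * ∑ x, sv h s x) := hsum
      _ = 2 * ((R + 1) * valS h s) := by simp only [valS]; ring
  exact Nat.le_of_mul_le_mul_left h7 (by norm_num)

end Vale.Agent.Lib.P333G
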