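import Vale.Agent.Lib.P333G.LS
import Vale.Agent.Lib.P333G.Window

/-!
(part G-BRIDGE) The result of local search against a Hamiltonian path, from `window_bound`, with
`X = Fin (2 * n)` and the comparator made from the path: arcs of the path are real, the arc closing
it is virtual.
-/

namespace Vale.Agent.Lib.P333G

open List (range)
open Vale.Agent.Lib.P333F

/-! ### Slot arithmetic -/

theorem even_mod (u : ℕ) : (2 * u) % 2 = 0 := by omega
theorem odd_mod (u : ℕ) : (2 * u + 1) % 2 = 1 := by omega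
theorem even_div (u : ℕ) : (2 * u) / 2 = u := by omega
theorem odd_div (u : ℕ) : (2 * u + 1) / 2 = u := by omega

theorem bar_even (u : ℕ) : bar (2 * u) = 2 * u + 1 := by
  unfold bar; rw [if_pos (even_mod u)]

theorem bar_odd (u : ℕ) : bar (2 * u + 1) = 2 * u := by
  unfold bar; rw [if_neg (by omega)]; omega

theorem vtx_even (u : ℕ) : vtx (2 * u) = u := even_div u
theorem vtx_odd (u : ℕ) : vtx (2 * u + 1) = u := odd_div u

/-- The weight of a half-edge as a function of the nodes only. -/
def hN (w : List (List ℕ)) (x y : ℕ) : ℕ :=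
  if vtx y = vtx x then 0
  else if x % 2 = 0 then mat w (vtx x) (vtx y) else mat w (vtx y) (vtx x)

theorem hN_bar (w : List (List ℕ)) (x y : ℕ) : hN w x (bar y) = hN w x y := by
  unfold hN; rw [vtx_bar]

theorem hw_eq_hN (w : List (List ℕ)) {x y : ℕ} (hxy : y ≠ x) (hv : vtx y ≠ vtx x) :
    hw w x y = hN w x y := by
  unfold hw hN; rw [if_neg hxy, if_neg hv]

/-! ### The abstract model on `Fin (2 * n)` -/

/-- `bar` on `Fin (2 * n)`. -/
def barF (n : ℕ) (x : Fin (2 * n)) : Fin (2 * n) := ⟨bar x, bar_lt x.2⟩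

/-- The weight on `Fin (2 * n)`. -/
def hF (w : List (List ℕ)) (n : ℕ) (x y : Fin (2 * n)) : ℕ := hN w x y

theorem slotSys (w : List (List ℕ)) (n : ℕ) : SlotSys (barF n) (hF w n) where
  bb _ := Fin.ext (bar_bar _)
  ne x := fun e => bar_ne (x : ℕ) (congrArg Fin.val e)
  hb _ y := hN_bar w _ y

/-- The state on `Fin (2 * n)`. -/
def stateF {n : ℕ} {s : List ℕ} (h : ValidL n s) (x : Fin (2 * n)) : Fin (2 * n) :=
  ⟨app s x, h.lt x x.2⟩

theorem validS_of {n : ℕ} {s : List ℕ} (h : ValidL n s) : ValidS (barF n) (stateF h) where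
  inv x := Fin.ext (h.inv x x.2)
  nb x hx e := by
    have hx' : app s x ≠ x := fun e' => hx (Fin.ext e')
    have h1 := h.nb x x.2 hx'
    apply h1
    have h2 : app s x = bar x := congrArg Fin.val e
    rw [h2, vtx_bar]
  tok x hx e := by
    have hx' : app s x ≠ x := fun e' => hx (Fin.ext e')
    exact h.tok x x.2 hx' (congrArg Fin.val e)

theorem val2_eq (w : List (List ℕ)) {n : ℕ} {s : List ℕ} (h : ValidL n s)
    (F : Fin (2 * n) → Fin (2 * n)) (hF' : ∀ x, (F x : ℕ) = app s x) :
    val2 w s = valS (hF w n) F := by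
  unfold val2 valS
  rw [h.len, sum_range_map]
  refine Finset.sum_congr rfl fun x _ => ?_
  unfold sv
  by_cases hx : app s x = x
  · have e : F x = x := Fin.ext ((hF' x).trans hx)
    rw [if_pos e, hx]
    simp [hw]
  · have e : F x ≠ x := fun e' => hx ((hF' x).symm.trans (congrArg Fin.val e'))
    rw [if_neg e]
    have := hw_eq_hN w hx (h.nb x x.2 hx)
    rw [this]
    simp only [hF, hF']

/-- A function on the slots as a list. -/
def listOf {n : ℕ} (f : Fin (2 * n) → Fin (2 * n)) : List ℕ := List.ofFn (fun x => (f x : ℕ))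

theorem app_listOf {n : ℕ} (f : Fin (2 * n) → Fin (2 * n)) {x : ℕ} (hx : x < 2 * n) :
    app (listOf f) x = f ⟨x, hx⟩ := by
  simp [app, listOf, List.getD_eq_getElem?_getD, hx]

theorem validL_of {n : ℕ} {f : Fin (2 * n) → Fin (2 * n)} (hf : ValidS (barF n) f) :
    ValidL n (listOf f) where
  len := by simp [listOf]
  lt x hx := by rw [app_listOf f hx]; exact (f _).2
  inv x hx := by
    rw [app_listOf f hx, app_listOf f (f ⟨x, hx⟩).2]
    have := congrArg Fin.val (hf.inv ⟨x, hx⟩)
    simpa using this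
  nb x hx hne := by
    rw [app_listOf f hx] at hne ⊢
    have hne' : f ⟨x, hx⟩ ≠ ⟨x, hx⟩ := fun e => hne (congrArg Fin.val e)
    have h1 := hf.nb _ hne'
    intro hv
    apply h1
    apply Fin.ext
    simp only [barF]
    unfold vtx at hv
    unfold bar
    have h2 : (f ⟨x, hx⟩ : ℕ) ≠ x := hne
    split_ifs <;> omega
  tok x hx hne := by
    rw [app_listOf f hx] at hne ⊢
    rw [app_listOf f (bar_lt hx)]
    have hne' : f ⟨x, hx⟩ ≠ ⟨x, hx⟩ := fun e => hne (congrArg Fin.val e)
    have h1 := hf.tok _ hne'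
    intro e
    apply h1
    apply Fin.ext
    exact e

theorem len_filter_range (m : ℕ) (p : ℕ → Bool) :
    ((range m).filter p).length = (Finset.univ.filter (fun x : Fin m => p x = true)).card := by
  rw [← List.map_coe_finRange_eq_range, List.filter_map, List.length_map]
  rw [Finset.card_filter, ← List.countP_eq_length_filter, Fin.sum_univ_def]
  generalize List.finRange m = l
  induction l with
  | nil => simp
  | cons a l ih =>
    rw [List.countP_cons, List.map_cons, List.sum_cons, ih]
    simp only [Function.comp]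
    by_cases h : p a = true <;> simp [h, add_comm]

/-! ### Paths -/

theorem pathW_le_out {ι : Type} [DecidableEq ι] (W : ι → ι → ℕ) (F : ι → ℕ) :
    ∀ P : List ι, P.Nodup →
      (∀ (i : ℕ) (hi : i + 1 < P.length), W P[i] P[i + 1] ≤ F P[i]) →
      pathW W P ≤ ∑ x ∈ P.toFinset, F x
  | [], _, _ => by simp [pathW]
  | [x], _, _ => by simp [pathW]
  | x :: y :: l, hnd, hq => by
    have h0 : W x y ≤ F x := by simpa using hq 0 (by simp)
    have hrec := pathW_le_out W F (y :: l) hnd.of_cons (fun i hi => by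
      have := hq (i + 1) (by simpa using hi)
      simpa using this)
    have hx : x ∉ (y :: l).toFinset := by
      simpa using (List.nodup_cons.mp hnd).1
    rw [show (x :: y :: l).toFinset = insert x (y :: l).toFinset by simp]
    rw [Finset.sum_insert hx]
    simp only [pathW]
    omega

theorem pathW_le_in {ι : Type} [DecidableEq ι] (W : ι → ι → ℕ) (G : ι → ℕ) :
    ∀ P : List ι, P.Nodup →
      (∀ (i : ℕ) (hi : i + 1 < P.length), W P[i] P[i + 1] ≤ G P[i + 1]) →
      pathW W P ≤ ∑ x ∈ P.tail.toFinset, G x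
  | [], _, _ => by simp [pathW]
  | [x], _, _ => by simp [pathW]
  | x :: y :: l, hnd, hq => by
    have h0 : W x y ≤ G y := by simpa using hq 0 (by simp)
    have hrec := pathW_le_in W G (y :: l) hnd.of_cons (fun i hi => by
      have := hq (i + 1) (by simpa using hi)
      simpa using this)
    have hy : y ∉ l.toFinset := by
      simpa using (List.nodup_cons.mp hnd.of_cons).1
    simp only [List.tail_cons] at hrec ⊢
    rw [show (y :: l).toFinset = insert y l.toFinset by simp]
    rw [Finset.sum_insert hy]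
    simp only [pathW]
    omega

theorem sum_fin_two_mul (n : ℕ) (f : ℕ → ℕ) :
    ∑ x : Fin (2 * n), f x =
      ∑ u ∈ Finset.range n, f (2 * u) + ∑ u ∈ Finset.range n, f (2 * u + 1) := by
  rw [Fin.sum_univ_eq_sum_range]
  induction n with
  | zero => simp
  | succ k ih =>
    rw [show 2 * (k + 1) = 2 * k + 1 + 1 by ring, Finset.sum_range_succ, Finset.sum_range_succ, ih,
      Finset.sum_range_succ, Finset.sum_range_succ]
    ring

/-! ### The comparator of a path -/

/-- The first node of the path. -/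
def firstP (P : List ℕ) : ℕ := P.getD 0 0

/-- The last node of the path. -/
def lastP (P : List ℕ) : ℕ := P.getD (P.length - 1) 0

/-- The comparator: the out-slot of `u` is joined to the in-slot of the next node. -/
def tN (P : List ℕ) (x : ℕ) : ℕ :=
  if x % 2 = 0 then 2 * List.formPerm P (x / 2) + 1 else 2 * (List.formPerm P)⁻¹ (x / 2)

/-- The real edges of the comparator: all but the edge closing the path. -/
def RTN (P : List ℕ) (x : ℕ) : Prop :=
  (x % 2 = 0 ∧ x / 2 ≠ lastP P) ∨ (x % 2 = 1 ∧ x / 2 ≠ firstP P)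

theorem tN_even (P : List ℕ) (u : ℕ) : tN P (2 * u) = 2 * List.formPerm P u + 1 := by
  unfold tN; rw [if_pos (even_mod u), even_div]

theorem tN_odd (P : List ℕ) (u : ℕ) : tN P (2 * u + 1) = 2 * (List.formPerm P)⁻¹ u := by
  unfold tN; rw [if_neg (by omega), odd_div]

theorem RTN_even (P : List ℕ) (u : ℕ) : RTN P (2 * u) ↔ u ≠ lastP P := by
  unfold RTN; rw [even_div]; constructor
  · rintro (h | h)
    · exact h.2
    · have := h.1; omega
  · intro h; exact Or.inl ⟨even_mod u, h⟩

theorem RTN_odd (P : List ℕ) (u : ℕ) : RTN P (2 * u + 1) ↔ u ≠ firstP P := by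
  unfold RTN; rw [odd_div]; constructor
  · rintro (h | h)
    · have := h.1; omega
    · exact h.2
  · intro h; exact Or.inr ⟨odd_mod u, h⟩

section facts

variable {n : ℕ} {P : List ℕ}

theorem len_P (hP : P.Perm (range n)) : P.length = n := by simpa using hP.length_eq

theorem nodup_P (hP : P.Perm (range n)) : P.Nodup := hP.nodup_iff.mpr List.nodup_range

theorem mem_P (hP : P.Perm (range n)) {u : ℕ} : u ∈ P ↔ u < n := by
  rw [hP.mem_iff]; simp

theorem firstP_eq (hP : P.Perm (range n)) (hn : 0 < n) :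
    firstP P = P[0]'(by rw [len_P hP]; exact hn) := by
  have h : 0 < P.length := by rw [len_P hP]; exact hn
  simp [firstP, List.getD_eq_getElem?_getD, h]

theorem lastP_eq (hP : P.Perm (range n)) (hn : 0 < n) :
    lastP P = P[n - 1]'(by rw [len_P hP]; omega) := by
  have h : n - 1 < P.length := by rw [len_P hP]; omega
  have e := len_P hP
  have e2 : P.getD (n - 1) 0 = P[n - 1] := by
    rw [List.getD_eq_getElem?_getD, List.getElem?_eq_getElem h]
    rfl
  unfold lastP
  simpa only [e] using e2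

theorem sg_succ (hP : P.Perm (range n)) {i : ℕ} (hi : i + 1 < P.length) :
    List.formPerm P P[i] = P[i + 1] :=
  List.formPerm_apply_lt_getElem P (nodup_P hP) i hi

theorem sg_last (hP : P.Perm (range n)) (hn : 0 < n) :
    List.formPerm P (lastP P) = firstP P := by
  have hl : n - 1 < P.length := by rw [len_P hP]; omega
  rw [lastP_eq hP hn, firstP_eq hP hn, List.formPerm_apply_getElem P (nodup_P hP) (n - 1) hl]
  congr 1
  rw [len_P hP, Nat.sub_add_cancel hn, Nat.mod_self]

theorem sg_inv_succ (hP : P.Perm (range n)) {i : ℕ} (hi : i + 1 < P.length) :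
    (List.formPerm P)⁻¹ P[i + 1] = P[i] := by
  rw [Equiv.Perm.inv_eq_iff_eq, sg_succ hP hi]

/-- Every node is the last one or has a successor in the path. -/
theorem idx_last (hP : P.Perm (range n)) (hn : 0 < n) {u : ℕ} (hu : u < n) (hl : u ≠ lastP P) :
    ∃ (i : ℕ) (hi : i + 1 < P.length), P[i] = u := by
  obtain ⟨i, hi, e⟩ := List.getElem_of_mem ((mem_P hP).mpr hu)
  refine ⟨i, ?_, e⟩
  by_contra hc
  apply hl
  rw [lastP_eq hP hn, ← e]
  have e' := len_P hP
  congr 1
  omega

/-- Every node is the first one or has a predecessor in the path. -/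
theorem idx_first (hP : P.Perm (range n)) (hn : 0 < n) {u : ℕ} (hu : u < n) (hl : u ≠ firstP P) :
    ∃ (i : ℕ) (hi : i + 1 < P.length), P[i + 1] = u := by
  obtain ⟨i, hi, e⟩ := List.getElem_of_mem ((mem_P hP).mpr hu)
  rcases i with _ | i
  · exact absurd (by rw [firstP_eq hP hn, ← e]) hl
  · exact ⟨i, hi, e⟩

theorem sg_lt (hP : P.Perm (range n)) {u : ℕ} (hu : u < n) : List.formPerm P u < n := by
  obtain ⟨i, hi, e⟩ := List.getElem_of_mem ((mem_P hP).mpr hu)
  rw [← e, List.formPerm_apply_getElem P (nodup_P hP) i hi]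
  exact (mem_P hP).mp (List.getElem_mem _)

theorem sg_inv_lt (hP : P.Perm (range n)) (hn : 0 < n) {u : ℕ} (hu : u < n) :
    (List.formPerm P)⁻¹ u < n := by
  by_cases h : u = firstP P
  · have : (List.formPerm P)⁻¹ u = lastP P := by
      rw [Equiv.Perm.inv_eq_iff_eq, sg_last hP hn, h]
    rw [this, lastP_eq hP hn]
    exact (mem_P hP).mp (List.getElem_mem _)
  · obtain ⟨i, hi, e⟩ := idx_first hP hn hu h
    rw [← e, sg_inv_succ hP hi]
    exact (mem_P hP).mp (List.getElem_mem _)

theorem sg_eq_first (hP : P.Perm (range n)) (hn : 0 < n) (u : ℕ) :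
    List.formPerm P u = firstP P ↔ u = lastP P := by
  rw [← sg_last hP hn]
  exact (List.formPerm P).injective.eq_iff

theorem sg_ne (hP : P.Perm (range n)) (hn : 0 < n) {u : ℕ} (hu : u < n) (hl : u ≠ lastP P) :
    List.formPerm P u ≠ u := by
  obtain ⟨i, hi, e⟩ := idx_last hP hn hu hl
  rw [← e, sg_succ hP hi]
  intro e'
  have := (nodup_P hP).getElem_inj_iff.mp e'
  omega

theorem sg_inv_ne (hP : P.Perm (range n)) (hn : 0 < n) {u : ℕ} (hu : u < n) (hl : u ≠ firstP P) :
    (List.formPerm P)⁻¹ u ≠ u := by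
  obtain ⟨i, hi, e⟩ := idx_first hP hn hu hl
  rw [← e, sg_inv_succ hP hi]
  intro e'
  have := (nodup_P hP).getElem_inj_iff.mp e'
  omega

theorem sg_inv_ne_sg (hP : P.Perm (range n)) (hn : 0 < n) {u : ℕ} (hu : u < n)
    (hf : u ≠ firstP P) (hl : u ≠ lastP P) : (List.formPerm P)⁻¹ u ≠ List.formPerm P u := by
  obtain ⟨i, hi, e⟩ := idx_first hP hn hu hf
  have hu' : u ≠ lastP P := hl
  subst e
  by_cases hi2 : i + 2 < P.length
  · rw [sg_inv_succ hP hi, sg_succ hP hi2]
    intro e'
    have := (nodup_P hP).getElem_inj_iff.mp e'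
    omega
  · exfalso
    apply hu'
    rw [lastP_eq hP hn]
    have e' := len_P hP
    congr 1
    omega

end facts

/-- The comparator on `Fin (2 * n)`. -/
def tF {n : ℕ} {P : List ℕ} (hP : P.Perm (range n)) (hn : 0 < n) (x : Fin (2 * n)) : Fin (2 * n) :=
  ⟨tN P x, by
    obtain ⟨u, hu⟩ : ∃ u, (x : ℕ) = 2 * u ∨ (x : ℕ) = 2 * u + 1 := ⟨x / 2, by omega⟩
    have hx := x.2
    rcases hu with hu | hu
    · rw [hu, tN_even]
      have := sg_lt hP (u := u) (by omega)
      omega
    · rw [hu, tN_odd]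
      have := sg_inv_lt hP hn (u := u) (by omega)
      omega⟩

theorem tN_tN (P : List ℕ) (x : ℕ) : tN P (tN P x) = x := by
  obtain ⟨u, rfl | rfl⟩ : ∃ u, x = 2 * u ∨ x = 2 * u + 1 := ⟨x / 2, by omega⟩
  · rw [tN_even, tN_odd]; simp
  · rw [tN_odd, tN_even]; simp

theorem compS {n : ℕ} {P : List ℕ} (hP : P.Perm (range n)) (hn : 0 < n) :
    CompS (barF n) (tF hP hn) (fun x => RTN P x) where
  inv x := Fin.ext (tN_tN P x)
  ne x := by
    intro e
    have e' : tN P x = x := congrArg Fin.val e
    obtain ⟨u, hu | hu⟩ : ∃ u, (x : ℕ) = 2 * u ∨ (x : ℕ) = 2 * u + 1 := ⟨x / 2, by omega⟩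
    · rw [hu, tN_even] at e'; omega
    · rw [hu, tN_odd] at e'; omega
  rt x := by
    change RTN P (tN P x) ↔ RTN P x
    obtain ⟨u, hu | hu⟩ : ∃ u, (x : ℕ) = 2 * u ∨ (x : ℕ) = 2 * u + 1 := ⟨x / 2, by omega⟩
    · rw [hu, tN_even, RTN_odd, RTN_even]
      exact not_congr (sg_eq_first hP hn u)
    · rw [hu, tN_odd, RTN_even, RTN_odd]
      refine not_congr ?_
      rw [← sg_eq_first hP hn]
      simp
  nb x hx := by
    have hx2 := x.2
    change RTN P x at hx
    intro e
    have e' : tN P x = bar x := congrArg Fin.val e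
    obtain ⟨u, hu | hu⟩ : ∃ u, (x : ℕ) = 2 * u ∨ (x : ℕ) = 2 * u + 1 := ⟨x / 2, by omega⟩
    · rw [hu, tN_even, bar_even] at e'
      rw [hu, RTN_even] at hx
      exact sg_ne hP hn (u := u) (by omega) hx (by omega)
    · rw [hu, tN_odd, bar_odd] at e'
      rw [hu, RTN_odd] at hx
      exact sg_inv_ne hP hn (u := u) (by omega) hx (by omega)
  tok x hx hbx := by
    have hx2 := x.2
    change RTN P x at hx
    change RTN P (bar x) at hbx
    intro e
    have e' : tN P (bar x) = bar (tN P x) := congrArg Fin.val e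
    obtain ⟨u, hu | hu⟩ : ∃ u, (x : ℕ) = 2 * u ∨ (x : ℕ) = 2 * u + 1 := ⟨x / 2, by omega⟩
    · rw [hu, bar_even, tN_odd, tN_even, bar_odd] at e'
      rw [hu, RTN_even] at hx
      rw [hu, bar_even, RTN_odd] at hbx
      exact sg_inv_ne_sg hP hn (u := u) (by omega) hbx hx (by omega)
    · rw [hu, bar_odd, tN_even, tN_odd, bar_even] at e'
      rw [hu, RTN_odd] at hx
      rw [hu, bar_odd, RTN_even] at hbx
      exact sg_inv_ne_sg hP hn (u := u) (by omega) hx hbx (by omega)

open Classical in
/-- The weight of the comparator at a slot, on the natural numbers. -/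
noncomputable def gN (w : List (List ℕ)) (P : List ℕ) (x : ℕ) : ℕ :=
  if RTN P x then hN w x (tN P x) else 0

theorem tv_eq (w : List (List ℕ)) {n : ℕ} {P : List ℕ} (hP : P.Perm (range n)) (hn : 0 < n)
    (x : Fin (2 * n)) : tv (hF w n) (tF hP hn) (fun x => RTN P x) x = gN w P x := by
  unfold tv gN
  rfl

theorem gN_out (w : List (List ℕ)) {n : ℕ} {P : List ℕ} (hP : P.Perm (range n)) (hn : 0 < n)
    {i : ℕ} (hi : i + 1 < P.length) : gN w P (2 * P[i]) = mat w P[i] P[i + 1] := by
  have hne : P[i] ≠ lastP P := by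
    rw [lastP_eq hP hn]
    intro e'
    have := (nodup_P hP).getElem_inj_iff.mp e'
    have e'' := len_P hP
    omega
  have hne2 : P[i + 1] ≠ P[i] := by
    intro e'
    have := (nodup_P hP).getElem_inj_iff.mp e'
    omega
  unfold gN
  rw [if_pos ((RTN_even P _).mpr hne), tN_even, sg_succ hP hi]
  unfold hN
  rw [vtx_odd, vtx_even, if_neg hne2, if_pos (even_mod _)]

theorem gN_in (w : List (List ℕ)) {n : ℕ} {P : List ℕ} (hP : P.Perm (range n)) (hn : 0 < n)
    {i : ℕ} (hi : i + 1 < P.length) : gN w P (2 * P[i + 1] + 1) = mat w P[i] P[i + 1] := by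
  have hne : P[i + 1] ≠ firstP P := by
    rw [firstP_eq hP hn]
    intro e'
    have := (nodup_P hP).getElem_inj_iff.mp e'
    omega
  have hne2 : P[i] ≠ P[i + 1] := by
    intro e'
    have := (nodup_P hP).getElem_inj_iff.mp e'
    omega
  unfold gN
  rw [if_pos ((RTN_odd P _).mpr hne), tN_odd, sg_inv_succ hP hi]
  unfold hN
  rw [vtx_odd, vtx_even, if_neg hne2, if_neg (by omega)]

theorem toFinset_P {n : ℕ} {P : List ℕ} (hP : P.Perm (range n)) : P.toFinset = Finset.range n := by
  ext u; simp [mem_P hP]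

theorem two_pathW_le (w : List (List ℕ)) {n : ℕ} {P : List ℕ} (hP : P.Perm (range n)) (hn : 0 < n) :
    2 * pathW (mat w) P ≤ ∑ x, tv (hF w n) (tF hP hn) (fun x => RTN P x) x := by
  have h0 : ∑ x, tv (hF w n) (tF hP hn) (fun x => RTN P x) x = ∑ x : Fin (2 * n), gN w P x :=
    Finset.sum_congr rfl fun x _ => tv_eq w hP hn x
  rw [h0, sum_fin_two_mul]
  have h1 : pathW (mat w) P ≤ ∑ u ∈ Finset.range n, gN w P (2 * u) := by
    rw [← toFinset_P hP]
    refine pathW_le_out (mat w) (fun u => gN w P (2 * u)) P (nodup_P hP) fun i hi => ?_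
    exact (gN_out w hP hn hi).ge
  have h2 : pathW (mat w) P ≤ ∑ u ∈ Finset.range n, gN w P (2 * u + 1) := by
    have h3 := pathW_le_in (mat w) (fun u => gN w P (2 * u + 1)) P (nodup_P hP) fun i hi =>
      (gN_in w hP hn hi).ge
    refine h3.trans ?_
    rw [← toFinset_P hP]
    refine Finset.sum_le_sum_of_subset ?_
    intro u hu
    simp only [List.mem_toFinset] at hu ⊢
    exact List.mem_of_mem_tail hu
  omega

theorem ls_bound (R : ℕ) (w : List (List ℕ)) {P : List ℕ} (hP : P.Perm (range w.length)) :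
    (R - 5) * (2 * pathW (mat w) P) ≤ (R + 1) * val2 w (lsRun (2 * R + 2) w) := by
  classical
  rcases Nat.eq_zero_or_pos w.length with h0 | hn
  · rw [h0] at hP
    have hnil : P = [] := by simpa using hP
    subst hnil
    simp [pathW]
  have hV := lsRun_valid (2 * R + 2) w
  have hopt : ∀ s', ValidS (barF w.length) s' →
      (Finset.univ.filter (fun x => s' x ≠ stateF hV x)).card ≤ 2 * R + 2 →
      valS (hF w w.length) s' ≤ valS (hF w w.length) (stateF hV) := by
    intro s' hs' hc
    have hL := validL_of hs'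
    have e1 : val2 w (listOf s') = valS (hF w w.length) s' :=
      val2_eq w hL s' (fun x => (app_listOf s' x.2).symm)
    have e2 : val2 w (lsRun (2 * R + 2) w) = valS (hF w w.length) (stateF hV) :=
      val2_eq w hV (stateF hV) (fun _ => rfl)
    rw [← e1, ← e2]
    refine lsRun_opt (2 * R + 2) w hL ?_
    rw [len_filter_range]
    refine le_trans (le_of_eq ?_) hc
    congr 1
    ext x
    simp only [Finset.mem_filter, Finset.mem_univ, true_and, decide_eq_true_eq]
    rw [app_listOf s' x.2]
    constructor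
    · intro h e
      apply h
      have := congrArg Fin.val e
      simpa [stateF] using this
    · intro h e
      apply h
      apply Fin.ext
      simpa [stateF] using e
  have key := window_bound (slotSys w w.length) (validS_of hV) (compS hP hn) R hopt
  have e2 : val2 w (lsRun (2 * R + 2) w) = valS (hF w w.length) (stateF hV) :=
    val2_eq w hV (stateF hV) (fun _ => rfl)
  rw [e2]
  exact (Nat.mul_le_mul_left _ (two_pathW_le w hP hn)).trans key

end Vale.Agent.Lib.P333G
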