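import Vale.Agent.Lib.P333G.Basic

/-!
(part G-ORDER) The order of the nodes given by a path system.
-/

namespace Vale.Agent.Lib.P333G

open List (range)
open Vale.Agent.Lib.P333F

variable {n : ℕ} {p : List ℕ}

private theorem powL_lt' (h : PathSys n p) {u : ℕ} (hu : u < n) (k : ℕ) : powL p k u < n := by
  induction k with
  | zero => simpa [powL_zero] using hu
  | succ k ih => rw [powL_succ]; exact h.lt _ ih

private theorem powL_add' (p : List ℕ) (k l u : ℕ) : powL p (k + l) u = powL p k (powL p l u) := by
  induction k with
  | zero => simp [powL_zero]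
  | succ k ih =>
    rw [show k + 1 + l = (k + l) + 1 by omega, powL_succ, ih, powL_succ]

private theorem powL_succ' (p : List ℕ) (k u : ℕ) : powL p (k + 1) u = powL p k (app p u) := by
  rw [powL_add']
  congr 1

private theorem powL_fixed {y : ℕ} (hy : app p y = y) (k : ℕ) : powL p k y = y := by
  induction k with
  | zero => simp [powL_zero]
  | succ k ih => rw [powL_succ, ih, hy]

/-- equal values at two times make the earlier value a fixed point -/
private theorem fixed_of_eq (h : PathSys n p) {u i j : ℕ} (hu : u < n) (hij : i < j)
    (he : powL p i u = powL p j u) : app p (powL p i u) = powL p i u := by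
  obtain ⟨d, rfl⟩ : ∃ d, j = (d + 1) + i := ⟨j - i - 1, by omega⟩
  rw [powL_add'] at he
  exact h.acyc _ (powL_lt' h hu i) d he.symm

/-- a first fixed point on the orbit -/
private theorem walk_data (h : PathSys n p) {u : ℕ} (hu : u < n) :
    ∃ m, m < n ∧ lenS p u = m + 1 ∧ app p (powL p m u) = powL p m u ∧
      ∀ k < m, app p (powL p k u) ≠ powL p k u := by
  classical
  have hex : ∃ k, k < n ∧ app p (powL p k u) = powL p k u := by
    have hmaps : ∀ a ∈ Finset.range (n + 1), powL p a u ∈ Finset.range n := by
      intro a _
      exact Finset.mem_range.2 (powL_lt' h hu a)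
    obtain ⟨i, hi, j, hj, hij, he⟩ := Finset.exists_ne_map_eq_of_card_lt_of_maps_to
      (by simp) hmaps
    have hi' := Finset.mem_range.1 hi
    have hj' := Finset.mem_range.1 hj
    rcases lt_or_gt_of_ne hij with hlt | hlt
    · exact ⟨i, by omega, fixed_of_eq h hu hlt he⟩
    · exact ⟨j, by omega, fixed_of_eq h hu hlt he.symm⟩
  have hex' : ∃ k, app p (powL p k u) = powL p k u ∧ k < n := by
    obtain ⟨k, h1, h2⟩ := hex
    exact ⟨k, h2, h1⟩
  refine ⟨Nat.find hex', (Nat.find_spec hex').2, ?_, (Nat.find_spec hex').1, ?_⟩
  · set m := Nat.find hex' with hm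
    have hmlt : m < n := (Nat.find_spec hex').2
    have hmf : app p (powL p m u) = powL p m u := (Nat.find_spec hex').1
    have hfix : ∀ k, m ≤ k → powL p k u = powL p m u := by
      intro k hk
      obtain ⟨d, rfl⟩ : ∃ d, k = d + m := ⟨k - m, by omega⟩
      rw [powL_add', powL_fixed hmf]
    have hnf : ∀ k < m, app p (powL p k u) ≠ powL p k u := by
      intro k hk hf
      have hklt : k < n := by omega
      exact Nat.find_min hex' hk ⟨hf, hklt⟩
    have hperm : ((range p.length).filter
        (fun k => decide (powL p k u ≠ powL p (k + 1) u))).Perm (range m) := by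
      refine (List.perm_ext_iff_of_nodup (List.Nodup.filter _ List.nodup_range)
        List.nodup_range).2 ?_
      intro k
      simp only [List.mem_filter, List.mem_range, decide_eq_true_eq, h.len]
      constructor
      · rintro ⟨_, hk⟩
        by_contra hlt
        apply hk
        rw [hfix k (by omega), hfix (k + 1) (by omega)]
      · intro hk
        refine ⟨by omega, ?_⟩
        rw [powL_succ]
        exact (hnf k hk).symm
    unfold lenS
    rw [hperm.length_eq, List.length_range]
  · intro k hk hf
    have hm : Nat.find hex' < n := (Nat.find_spec hex').2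
    exact Nat.find_min hex' hk ⟨hf, by omega⟩

private theorem mem_startsS {u : ℕ} :
    u ∈ startsS p ↔ u < p.length ∧ ∀ v < p.length, v = u ∨ app p v ≠ u := by
  unfold startsS
  simp only [List.mem_filter, List.mem_range, List.all_eq_true, Bool.or_eq_true, decide_eq_true_eq]

private theorem distinct_of_nonfixed (h : PathSys n p) {u k : ℕ} (hu : u < n)
    (hk : ∀ i < k, app p (powL p i u) ≠ powL p i u) {a b : ℕ} (ha : a ≤ k) (hb : b ≤ k)
    (he : powL p a u = powL p b u) : a = b := by
  rcases lt_trichotomy a b with hlt | hlt | hlt
  · exact absurd (fixed_of_eq h hu hlt he) (hk a (by omega))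
  · exact hlt
  · exact absurd (fixed_of_eq h hu hlt he.symm) (hk b (by omega))

/-- every node is reached from a start along non fixed steps -/
private theorem exists_start (h : PathSys n p) {x : ℕ} :
    ∀ d k y, y < n → (∀ i < k, app p (powL p i y) ≠ powL p i y) → powL p k y = x → n ≤ k + d →
      ∃ s k', s ∈ startsS p ∧ powL p k' s = x ∧ ∀ i < k', app p (powL p i s) ≠ powL p i s := by
  intro d
  induction d with
  | zero =>
    intro k y hy hpath _ hnk
    exfalso
    have hcard : (Finset.range n).card < (Finset.range (k + 1)).card := by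
      simp only [Finset.card_range]; omega
    have hmaps : ∀ a ∈ Finset.range (k + 1), powL p a y ∈ Finset.range n := by
      intro a _
      exact Finset.mem_range.2 (powL_lt' h hy a)
    obtain ⟨i, hi, j, hj, hij, he⟩ := Finset.exists_ne_map_eq_of_card_lt_of_maps_to hcard hmaps
    have hi' := Finset.mem_range.1 hi
    have hj' := Finset.mem_range.1 hj
    exact hij (distinct_of_nonfixed h hy hpath (by omega) (by omega) he)
  | succ d ih =>
    intro k y hy hpath hx hnk
    by_cases hs : y ∈ startsS p
    · exact ⟨y, k, hs, hx, hpath⟩
    · rw [mem_startsS] at hs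
      push Not at hs
      have hyl : y < p.length := by rw [h.len]; exact hy
      obtain ⟨v, hv, hvy, hav⟩ := hs hyl
      have hvn : v < n := by rw [← h.len]; exact hv
      refine ih (k + 1) v hvn ?_ ?_ (by omega)
      · intro i hi
        cases i with
        | zero =>
          simp only [powL_zero, hav]
          exact fun he => hvy he.symm
        | succ i =>
          rw [powL_succ', hav]
          exact hpath i (by omega)
      · rw [powL_succ', hav]
        exact hx

private theorem start_not_succ (h : PathSys n p) {s v : ℕ} (hs : s ∈ startsS p) (hv : v < n)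
    (hnf : app p v ≠ v) : app p v ≠ s := by
  intro he
  have hv' : v < p.length := by rw [h.len]; exact hv
  rcases (mem_startsS.1 hs).2 v hv' with h1 | h1
  · subst h1
    exact hnf he
  · exact h1 he

/-- two walks from starts which meet have the same start -/
private theorem meet (h : PathSys n p) {s s' : ℕ} (hs : s ∈ startsS p) (hs' : s' ∈ startsS p) :
    ∀ i j, (∀ k < i, app p (powL p k s) ≠ powL p k s) →
      (∀ k < j, app p (powL p k s') ≠ powL p k s') → powL p i s = powL p j s' → s = s' := by
  have hsn : s < n := by rw [← h.len]; exact (mem_startsS.1 hs).1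
  have hsn' : s' < n := by rw [← h.len]; exact (mem_startsS.1 hs').1
  intro i
  induction i with
  | zero =>
    intro j _ hj he
    cases j with
    | zero => simpa [powL_zero] using he
    | succ j =>
      exfalso
      rw [powL_zero, powL_succ] at he
      exact start_not_succ h hs (powL_lt' h hsn' j) (hj j (by omega)) he.symm
  | succ i ih =>
    intro j hi hj he
    cases j with
    | zero =>
      exfalso
      rw [powL_zero, powL_succ] at he
      exact start_not_succ h hs' (powL_lt' h hsn i) (hi i (by omega)) he
    | succ j =>
      rw [powL_succ, powL_succ] at he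
      have := h.inj _ (powL_lt' h hsn i) _ (powL_lt' h hsn' j) he (hi i (by omega)) (hj j (by omega))
      exact ih j (fun k hk => hi k (by omega)) (fun k hk => hj k (by omega)) this

private theorem mem_walkS (h : PathSys n p) {s : ℕ} (hs : s < n) {x : ℕ} :
    x ∈ walkS p s ↔ ∃ k, (∀ i < k, app p (powL p i s) ≠ powL p i s) ∧ powL p k s = x := by
  obtain ⟨m, _, hlen, hm, hnf⟩ := walk_data h hs
  unfold walkS
  rw [hlen]
  simp only [List.mem_map, List.mem_range]
  constructor
  · rintro ⟨k, hk, rfl⟩
    exact ⟨k, fun i hi => hnf i (by omega), rfl⟩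
  · rintro ⟨k, hk, rfl⟩
    refine ⟨k, ?_, rfl⟩
    by_contra hlt
    exact hk m (by omega) hm

theorem orderS_perm (h : PathSys n p) : (orderS p).Perm (range n) := by
  have hsn : ∀ s ∈ startsS p, s < n := fun s hs => by rw [← h.len]; exact (mem_startsS.1 hs).1
  unfold orderS
  have hnd : ((startsS p).flatMap (walkS p)).Nodup := by
    refine List.nodup_flatMap.2 ⟨?_, ?_⟩
    · intro s hs
      have hsl := hsn s hs
      obtain ⟨m, _, hlen, _, hnf⟩ := walk_data h hsl
      unfold walkS
      rw [hlen]
      refine List.Nodup.map_on ?_ List.nodup_range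
      intro a ha b hb he
      have ha' := List.mem_range.1 ha
      have hb' := List.mem_range.1 hb
      exact distinct_of_nonfixed h hsl hnf (by omega) (by omega) he
    · have hnd0 : (startsS p).Nodup := List.Nodup.filter _ List.nodup_range
      refine List.Pairwise.imp_of_mem ?_
        (List.Nodup.pairwise_of_forall_ne hnd0 (fun _ _ _ _ hne => hne))
      intro a b ha hb hne x hxa hxb
      obtain ⟨i, hi, hix⟩ := (mem_walkS h (hsn a ha)).1 hxa
      obtain ⟨j, hj, hjx⟩ := (mem_walkS h (hsn b hb)).1 hxb
      exact hne (meet h ha hb i j hi hj (hix.trans hjx.symm))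
  refine (List.perm_ext_iff_of_nodup hnd List.nodup_range).2 ?_
  intro x
  rw [List.mem_range, List.mem_flatMap]
  constructor
  · rintro ⟨s, hs, hx⟩
    obtain ⟨k, _, rfl⟩ := (mem_walkS h (hsn s hs)).1 hx
    exact powL_lt' h (hsn s hs) k
  · intro hx
    obtain ⟨s, k, hs, hk, hpath⟩ := exists_start (x := x) h n 0 x hx (by simp) (by simp [powL_zero]) (by omega)
    exact ⟨s, hs, (mem_walkS h (hsn s hs)).2 ⟨k, hpath, hk⟩⟩

private theorem pathW_append_ge' {ι : Type} (w : ι → ι → ℕ) (A B : List ι) :
    pathW w A + pathW w B ≤ pathW w (A ++ B) := by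
  induction A with
  | nil => simp [pathW]
  | cons x A ih =>
    cases A with
    | nil =>
      cases B with
      | nil => simp [pathW]
      | cons y B => simp [pathW]
    | cons y A =>
      simp only [List.cons_append, pathW] at ih ⊢
      omega

private theorem sum_map_range_eq_pathW' {ι : Type} (w : ι → ι → ℕ) (f : ι → ℕ) (d : ℕ) (g : ℕ → ι)
    (hg : ∀ k < d, f (g k) = w (g k) (g (k + 1))) :
    ((range (d + 1)).map (fun k => f (g k))).sum = pathW w ((range (d + 1)).map g) + f (g d) := by
  induction d generalizing g with
  | zero => simp [pathW]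
  | succ d ih =>
    have h1 := ih (fun k => g (k + 1)) (fun k hk => hg (k + 1) (by omega))
    rw [List.range_succ_eq_map, List.map_cons, List.map_map, List.sum_cons, List.map_cons,
      List.map_map]
    have h2 : (List.map ((fun k => f (g k)) ∘ Nat.succ) (range (d + 1))) =
        (range (d + 1)).map (fun k => f (g (k + 1))) := rfl
    have h3 : (List.map (g ∘ Nat.succ) (range (d + 1))) = (range (d + 1)).map (fun k => g (k + 1)) := rfl
    rw [h2, h3, h1]
    have h4 : (range (d + 1)).map (fun k => g (k + 1)) =
        g 1 :: (range d).map (fun k => g (k + 1 + 1)) := by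
      rw [List.range_succ_eq_map, List.map_cons, List.map_map]
      rfl
    have h5 := hg 0 (by omega)
    simp only [Nat.zero_add] at h5
    simp only [h4, pathW] at h1 ⊢
    omega

theorem classW_le_pathW (h : PathSys n p) (w : List (List ℕ)) :
    classW w p ≤ pathW (mat w) (orderS p) := by
  have hperm := orderS_perm h
  set arc : ℕ → ℕ := fun u => if app p u = u then 0 else mat w u (app p u) with harc
  have hsn : ∀ s ∈ startsS p, s < n := fun s hs => by rw [← h.len]; exact (mem_startsS.1 hs).1
  unfold classW
  rw [h.len]
  change ((range n).map arc).sum ≤ _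
  rw [← (hperm.map arc).sum_eq]
  unfold orderS
  have hwalk : ∀ s ∈ startsS p, ((walkS p s).map arc).sum = pathW (mat w) (walkS p s) := by
    intro s hs
    obtain ⟨m, _, hlen, hm, hnf⟩ := walk_data h (hsn s hs)
    unfold walkS
    rw [hlen, List.map_map]
    have key := sum_map_range_eq_pathW' (mat w) arc m (fun k => powL p k s) (by
      intro k hk
      simp only [harc, if_neg (hnf k hk), powL_succ])
    have hz : arc (powL p m s) = 0 := by simp only [harc, if_pos hm]
    simp only [hz, add_zero] at key
    exact key
  have hgen : ∀ l : List ℕ, (∀ s ∈ l, s ∈ startsS p) →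
      ((l.flatMap (walkS p)).map arc).sum ≤ pathW (mat w) (l.flatMap (walkS p)) := by
    intro l
    induction l with
    | nil => simp [pathW]
    | cons s l ih =>
      intro hl
      have h1 := hwalk s (hl s List.mem_cons_self)
      have h2 := ih (fun t ht => hl t (List.mem_cons_of_mem _ ht))
      rw [List.flatMap_cons, List.map_append, List.sum_append]
      have h3 := pathW_append_ge' (mat w) (walkS p s) (l.flatMap (walkS p))
      omega
  exact hgen _ (fun _ ht => ht)

end Vale.Agent.Lib.P333G
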