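import Vale.Agent.Lib.P333G.Classes
import Vale.Agent.Lib.P333G.OrderS
import Vale.Agent.Lib.P333G.Bridge

/-!
(part G-ATSP) The approximation algorithm for maximum weight Hamiltonian paths.
-/

namespace Vale.Agent.Lib.P333G

open List (range)
open Vale.Agent.Lib.P333F

private theorem best_spec (K : ℕ) (w : List (List ℕ)) :
    let C := classesOf w.length (lsRun K w)
    let b := bestBy (classW w) (range w.length) C
    PathSys w.length b ∧ (C.map (classW w)).sum ≤ 3 * classW w b := by
  intro C b
  have hne : C ≠ [] := by simp [C, classesOf]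
  obtain ⟨hm, hmax⟩ := bestBy_spec (classW w) (range w.length) hne
  refine ⟨classes_pathSys (lsRun_valid K w) _ hm, ?_⟩
  have h1 := hmax ((range w.length).map (clK w.length (lsRun K w) false)) (by simp [C, classesOf])
  have h2 := hmax ((range w.length).map (clK w.length (lsRun K w) true)) (by simp [C, classesOf])
  have h3 := hmax ((range w.length).map (cl3 w.length (lsRun K w))) (by simp [C, classesOf])
  simp only [C, classesOf, List.map_cons, List.map_nil, List.sum_cons, List.sum_nil]
  change _ ≤ 3 * classW w b
  change classW w _ ≤ classW w b at h1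
  change classW w _ ≤ classW w b at h2
  change classW w _ ≤ classW w b at h3
  omega

theorem atspLS_perm (R : ℕ) (w : List (List ℕ)) : (atspLS R w).Perm (range w.length) :=
  orderS_perm (best_spec (2 * R + 2) w).1

theorem atspLS_spec (R : ℕ) (w : List (List ℕ)) {P : List ℕ} (hP : P.Perm (range w.length)) :
    2 * (R - 5) * pathW (mat w) P ≤ 3 * (R + 1) * pathW (mat w) (atspLS R w) := by
  obtain ⟨h1, h2⟩ := best_spec (2 * R + 2) w
  have h3 := ls_bound R w hP
  have h4 := classes_weight (lsRun_valid (2 * R + 2) w) w
  have h5 := classW_le_pathW h1 w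
  set b := bestBy (classW w) (range w.length) (classesOf w.length (lsRun (2 * R + 2) w)) with hb
  have h6 : pathW (mat w) (atspLS R w) = pathW (mat w) (orderS b) := rfl
  rw [h6]
  have h7 : val2 w (lsRun (2 * R + 2) w) ≤ 3 * pathW (mat w) (orderS b) := by
    rw [← h4]
    exact h2.trans (Nat.mul_le_mul_left 3 h5)
  calc 2 * (R - 5) * pathW (mat w) P = (R - 5) * (2 * pathW (mat w) P) := by ring
    _ ≤ (R + 1) * val2 w (lsRun (2 * R + 2) w) := h3
    _ ≤ (R + 1) * (3 * pathW (mat w) (orderS b)) := Nat.mul_le_mul_left _ h7
    _ = 3 * (R + 1) * pathW (mat w) (orderS b) := by ring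

end Vale.Agent.Lib.P333G
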