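import Vale.Agent.Lib.P333G.Defs
import Vale.Agent.Lib.P333F.Perm

/-!
(part G-BASIC) Elementary facts: validity, slot arithmetic, path systems.
-/

namespace Vale.Agent.Lib.P333G

open List (range)
open Vale.Agent.Lib.P333F

/-- A valid state on the slots of `n` nodes. -/
structure ValidL (n : ℕ) (s : List ℕ) : Prop where
  len : s.length = 2 * n
  lt : ∀ x < 2 * n, app s x < 2 * n
  inv : ∀ x < 2 * n, app s (app s x) = x
  nb : ∀ x < 2 * n, app s x ≠ x → vtx (app s x) ≠ vtx x
  tok : ∀ x < 2 * n, app s x ≠ x → app s (bar x) ≠ bar (app s x)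

theorem validB_iff (n : ℕ) (s : List ℕ) : validB n s = true ↔ ValidL n s := by
  unfold validB
  simp only [Bool.and_eq_true, decide_eq_true_eq, List.all_eq_true, List.mem_range,
    Bool.or_eq_true]
  constructor
  · rintro ⟨hl, h⟩
    refine ⟨hl, fun x hx => (h x hx).1.1, fun x hx => (h x hx).1.2, ?_, ?_⟩
    · intro x hx hne
      rcases (h x hx).2 with h1 | h1
      · exact absurd h1 hne
      · exact h1.1
    · intro x hx hne
      rcases (h x hx).2 with h1 | h1
      · exact absurd h1 hne
      · exact h1.2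
  · intro h
    refine ⟨h.len, fun x hx => ⟨⟨h.lt x hx, h.inv x hx⟩, ?_⟩⟩
    by_cases hne : app s x = x
    · exact Or.inl hne
    · exact Or.inr ⟨h.nb x hx hne, h.tok x hx hne⟩

theorem bar_bar (x : ℕ) : bar (bar x) = x := by
  unfold bar; split_ifs <;> omega

theorem bar_ne (x : ℕ) : bar x ≠ x := by
  unfold bar; split_ifs <;> omega

theorem bar_lt {n x : ℕ} (h : x < 2 * n) : bar x < 2 * n := by
  unfold bar; split_ifs <;> omega

theorem vtx_bar (x : ℕ) : vtx (bar x) = vtx x := by
  unfold vtx bar; split_ifs <;> omega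

/-- A successor list without cycles and without two arcs into one node. -/
structure PathSys (n : ℕ) (p : List ℕ) : Prop where
  len : p.length = n
  lt : ∀ u < n, app p u < n
  inj : ∀ u < n, ∀ v < n, app p u = app p v → app p u ≠ u → app p v ≠ v → u = v
  acyc : ∀ u < n, ∀ k, powL p (k + 1) u = u → app p u = u

end Vale.Agent.Lib.P333G
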