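import Vale.Agent.Lib.P333G.Color

/-!
(part G-C3) The third class is a path system.
-/

namespace Vale.Agent.Lib.P333G

open List (range)
open Vale.Agent.Lib.P333F

namespace C3

variable {n : ℕ} {s : List ℕ}

/-! ### Iteration on lists -/

theorem app_map_range (f : ℕ → ℕ) {n u : ℕ} (hu : u < n) : app ((range n).map f) u = f u := by
  simp [app, List.getD_eq_getElem?_getD, hu]

theorem powL_add (p : List ℕ) (a b x : ℕ) : powL p a (powL p b x) = powL p (a + b) x := by
  induction a with
  | zero => simp [powL_zero]
  | succ a ih =>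
    rw [powL_succ, ih, show a + 1 + b = (a + b) + 1 by omega, powL_succ]

theorem powL_one (p : List ℕ) (x : ℕ) : powL p 1 x = app p x := by
  rw [powL_succ, powL_zero]

/-- `u` is on a proper cycle of period dividing `k + 1`. -/
def Cy (p : List ℕ) (u k : ℕ) : Prop := app p u ≠ u ∧ powL p (k + 1) u = u

theorem Cy.next {p : List ℕ} {u k : ℕ} (h : Cy p u k) : Cy p (app p u) k := by
  constructor
  · intro hfix
    have hall : ∀ j, powL p (j + 1) u = app p u := by
      intro j
      induction j with
      | zero => rw [powL_succ, powL_zero]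
      | succ j ih => rw [powL_succ, ih, hfix]
    exact h.1 ((hall k).symm.trans h.2)
  · have e : powL p (k + 1) (app p u) = powL p (k + 1 + 1) u := by
      rw [← powL_one p u, powL_add]
    rw [e, powL_succ, h.2]

theorem Cy.iter {p : List ℕ} {u k : ℕ} (h : Cy p u k) (j : ℕ) : Cy p (powL p j u) k := by
  induction j with
  | zero => simpa [powL_zero] using h
  | succ j ih => rw [powL_succ]; exact ih.next

theorem powL_lt {p : List ℕ} {n : ℕ} (hlt : ∀ u < n, app p u < n) {u : ℕ} (hu : u < n) (j : ℕ) :
    powL p j u < n := by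
  induction j with
  | zero => simpa [powL_zero] using hu
  | succ j ih => rw [powL_succ]; exact hlt _ ih

theorem exists_small_period {p : List ℕ} {n : ℕ} (hlt : ∀ u < n, app p u < n) {u : ℕ}
    (hu : u < n) {m : ℕ} (hm : powL p (m + 1) u = u) : ∃ k < n, powL p (k + 1) u = u := by
  classical
  have hex : ∃ m, powL p (m + 1) u = u := ⟨m, hm⟩
  have hk : powL p (Nat.find hex + 1) u = u := Nat.find_spec hex
  have hmin : ∀ j < Nat.find hex, powL p (j + 1) u ≠ u := fun j hj => Nat.find_min hex hj
  generalize Nat.find hex = k at hk hmin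
  refine ⟨k, ?_, hk⟩
  have key : ∀ i j, i < j → j ≤ k → powL p i u ≠ powL p j u := by
    intro i j hij hjk e
    have e1 : powL p (k + 1 - j) (powL p j u) = u := by
      rw [powL_add, show k + 1 - j + j = k + 1 by omega, hk]
    rw [← e, powL_add] at e1
    have := hmin (k - j + i) (by omega)
    apply this
    rw [show k - j + i + 1 = k + 1 - j + i by omega]
    exact e1
  have hinj : Set.InjOn (fun j => powL p j u) (↑(Finset.range (k + 1)) : Set ℕ) := by
    intro i hi j hj hij
    simp only [Finset.coe_range, Set.mem_Iio] at hi hj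
    rcases lt_trichotomy i j with hl | hl | hl
    · exact absurd hij (key i j hl (by omega))
    · exact hl
    · exact absurd hij.symm (key j i hl (by omega))
  have hcard := Finset.card_le_card_of_injOn (s := Finset.range (k + 1)) (t := Finset.range n)
    (fun j => powL p j u) (by
      intro j _
      simpa using powL_lt hlt hu j) hinj
  simp only [Finset.card_range] at hcard
  omega

theorem onCyc_spec {p : List ℕ} {u : ℕ} :
    onCyc p u = true ↔ app p u ≠ u ∧ ∃ k < p.length, powL p (k + 1) u = u := by
  simp [onCyc]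

theorem Cy_of_onCyc {p : List ℕ} {u : ℕ} (h : onCyc p u = true) :
    ∃ k < p.length, Cy p u k := by
  obtain ⟨h1, k, hk, h2⟩ := onCyc_spec.mp h
  exact ⟨k, hk, h1, h2⟩

theorem onCyc_of_Cy {p : List ℕ} {u k : ℕ} (h : Cy p u k) (hk : k < p.length) :
    onCyc p u = true := onCyc_spec.mpr ⟨h.1, k, hk, h.2⟩

/-! ### Slots -/

theorem bar_even (u : ℕ) : bar (2 * u) = 2 * u + 1 := by
  unfold bar; rw [if_pos (by omega)]

theorem bar_odd (u : ℕ) : bar (2 * u + 1) = 2 * u := by
  unfold bar; rw [if_neg (by omega)]; omega

theorem vtx_even (u : ℕ) : vtx (2 * u) = u := by unfold vtx; omega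

theorem vtx_odd (u : ℕ) : vtx (2 * u + 1) = u := by unfold vtx; omega

theorem s_inj (h : ValidL n s) {x y : ℕ} (hx : x < 2 * n) (hy : y < 2 * n)
    (e : app s x = app s y) : x = y := by
  have h1 := h.inv x hx
  have h2 := h.inv y hy
  rw [e] at h1
  exact h1.symm.trans h2

theorem col_succ (h : ValidL n s) {u : ℕ} (hu : u < n) : colB s (2 * u + 1) = !colB s (2 * u) := by
  have := colB_bar h (x := 2 * u) (by omega)
  rwa [bar_even] at this

theorem tailS_eq (k : Bool) (u : ℕ) :
    tailS s k u = if colB s (2 * u) = k then 2 * u else 2 * u + 1 := rfl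

theorem tailS_lt {u : ℕ} (hu : u < n) (k : Bool) : tailS s k u < 2 * n := by
  rw [tailS_eq]; split_ifs <;> omega

theorem vtx_tailS (k : Bool) (u : ℕ) : vtx (tailS s k u) = u := by
  rw [tailS_eq]; split_ifs
  · exact vtx_even u
  · exact vtx_odd u

theorem colB_tailS (h : ValidL n s) {u : ℕ} (hu : u < n) (k : Bool) :
    colB s (tailS s k u) = k := by
  rw [tailS_eq]
  by_cases hc : colB s (2 * u) = k
  · rw [if_pos hc, hc]
  · rw [if_neg hc, col_succ h hu]
    revert hc; cases colB s (2 * u) <;> cases k <;> simp

theorem rawC_lt (h : ValidL n s) {u : ℕ} (hu : u < n) (k : Bool) : rawC s k u < n := by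
  unfold rawC
  split_ifs
  · unfold phi vtx
    have := h.lt _ (tailS_lt (s := s) hu k)
    omega
  · exact hu

theorem wh_lt (h : ValidL n s) {u : ℕ} (hu : u < n) : wh s u < n := by
  unfold wh
  split_ifs
  · unfold vtx
    have := h.lt (2 * u) (by omega)
    omega
  · exact hu

theorem rawL_length (k : Bool) : (rawL n s k).length = n := by simp [rawL]

theorem whL_length : (whL n s).length = n := by simp [whL]

theorem app_rawL {u : ℕ} (hu : u < n) (k : Bool) : app (rawL n s k) u = rawC s k u := by
  unfold rawL; exact app_map_range _ hu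

theorem app_whL {u : ℕ} (hu : u < n) : app (whL n s) u = wh s u := by
  unfold whL; exact app_map_range _ hu

theorem rawL_lt (h : ValidL n s) (k : Bool) : ∀ u < n, app (rawL n s k) u < n := by
  intro u hu; rw [app_rawL hu]; exact rawC_lt h hu k

theorem whL_lt (h : ValidL n s) : ∀ u < n, app (whL n s) u < n := by
  intro u hu; rw [app_whL hu]; exact wh_lt h hu

/-- A real arc of a raw class. -/
theorem rawC_real (h : ValidL n s) {u : ℕ} (hu : u < n) {k : Bool} (hne : rawC s k u ≠ u) :
    rawC s k u = vtx (app s (tailS s k u)) ∧ app s (tailS s k u) ≠ tailS s k u ∧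
      ¬ (tailS s k u % 2 = 1 ∧ app s (tailS s k u) % 2 = 0) := by
  unfold rawC at hne ⊢
  by_cases hr : realB s k u = true
  · rw [if_pos hr] at hne ⊢
    refine ⟨rfl, ?_, ?_⟩
    · intro e
      apply hne
      unfold phi
      rw [e]
      exact vtx_tailS k u
    · unfold realB at hr
      simp only [Bool.and_eq_true, decide_eq_true_eq, Bool.not_eq_true', Bool.and_eq_false_iff,
        decide_eq_false_iff_not] at hr
      tauto
  · rw [if_neg hr] at hne
    exact absurd rfl hne

theorem slot_cases {x : ℕ} : x = 2 * vtx x ∨ x = 2 * vtx x + 1 := by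
  unfold vtx; omega

theorem slot_tail (h : ValidL n s) {x : ℕ} (hx : x < 2 * n) {c : Bool} (hc : colB s x = c) :
    tailS s c (vtx x) = x := by
  have hv : vtx x < n := by unfold vtx; omega
  rcases slot_cases (x := x) with e | e
  · have hc' : colB s (2 * vtx x) = c := by rw [← e]; exact hc
    rw [tailS_eq, if_pos hc']; exact e.symm
  · have hc' : colB s (2 * vtx x) ≠ c := by
      intro hc'
      rw [e, col_succ h hv, hc'] at hc
      cases c <;> simp at hc
    rw [tailS_eq, if_neg hc']; exact e.symm

/-- The partner of the tail of a real arc of class `k` is the slot of colour `!k` of the head. -/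
theorem rawC_partner (h : ValidL n s) {u : ℕ} (hu : u < n) {k : Bool} (hne : rawC s k u ≠ u) :
    app s (tailS s k u) = tailS s (!k) (rawC s k u) := by
  obtain ⟨h1, h2, _⟩ := rawC_real h hu hne
  have hlt := tailS_lt (s := s) hu k
  have hc : colB s (app s (tailS s k u)) = !k := by
    rw [colB_edge h hlt h2, colB_tailS h hu]
  rw [h1]
  exact (slot_tail h (h.lt _ hlt) hc).symm

theorem tail_eq_of_rawC (h : ValidL n s) {u : ℕ} (hu : u < n) {k : Bool} (hne : rawC s k u ≠ u) :
    tailS s k u = app s (tailS s (!k) (rawC s k u)) := by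
  rw [← rawC_partner h hu hne]
  exact (h.inv _ (tailS_lt hu k)).symm

/-! ### Unfolding the Boolean tests -/

theorem cand_spec {k : Bool} {u : ℕ} :
    cand s k u = true ↔ colB s (2 * u) = k ∧ app s (2 * u) ≠ 2 * u ∧ app s (2 * u) % 2 = 0 := by
  simp [cand, and_assoc]

theorem closedK_spec {k : Bool} {u : ℕ} :
    closedK n s k u = true ↔ onCyc (rawL n s k) u = true ∧ wCyc n s u = false := by
  simp [closedK]

theorem selB_false_spec {u : ℕ} (hs : selB n s false u = true) :
    closedK n s false u = true ∧ cand s false u = true ∧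
      ∀ v ∈ iterL (rawL n s false) u, cand s false v = true → repE s u ≤ repE s v := by
  unfold selB at hs
  simp only [Bool.and_eq_true, List.all_eq_true, Bool.or_eq_true, Bool.not_eq_true',
    Bool.false_eq_true, if_false, decide_eq_true_eq] at hs
  refine ⟨hs.1.1, hs.1.2, ?_⟩
  intro v hv hc
  rcases hs.2 v hv with h1 | h1
  · rw [hc] at h1; cases h1
  · exact h1

theorem selB_true_spec {u : ℕ} (hs : selB n s true u = true) :
    closedK n s true u = true ∧ cand s true u = true ∧
      ∀ v ∈ iterL (rawL n s true) u, cand s true v = true → repE s v ≤ repE s u := by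
  unfold selB at hs
  simp only [Bool.and_eq_true, List.all_eq_true, Bool.or_eq_true, Bool.not_eq_true',
    if_true, decide_eq_true_eq] at hs
  refine ⟨hs.1.1, hs.1.2, ?_⟩
  intro v hv hc
  rcases hs.2 v hv with h1 | h1
  · rw [hc] at h1; cases h1
  · exact h1

theorem selB_closed {k : Bool} {u : ℕ} (hs : selB n s k u = true) : closedK n s k u = true := by
  cases k
  · exact (selB_false_spec hs).1
  · exact (selB_true_spec hs).1

theorem selB_cand {k : Bool} {u : ℕ} (hs : selB n s k u = true) : cand s k u = true := by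
  cases k
  · exact (selB_false_spec hs).2.1
  · exact (selB_true_spec hs).2.1

theorem isRoot_iff {u : ℕ} :
    isRoot n s u = true ↔ wCyc n s u = true ∧ ∀ v ∈ iterL (whL n s) u, u ≤ v := by
  simp [isRoot]

/-- The arc of a candidate. -/
theorem rawC_of_cand (h : ValidL n s) {k : Bool} {u : ℕ} (hu : u < n) (hc : cand s k u = true) :
    rawC s k u = vtx (app s (2 * u)) ∧ app s (2 * u) = 2 * rawC s k u := by
  obtain ⟨h1, h2, h3⟩ := cand_spec.mp hc
  have ht : tailS s k u = 2 * u := by rw [tailS_eq, if_pos h1]
  have hr : realB s k u = true := by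
    unfold realB phi
    rw [ht]
    have := h.nb (2 * u) (by omega) h2
    rw [vtx_even] at this
    simp [this]
  have e : rawC s k u = vtx (app s (2 * u)) := by
    unfold rawC phi
    rw [if_pos hr, ht]
  refine ⟨e, ?_⟩
  rw [e]
  unfold vtx
  omega

theorem wh_spec {u : ℕ} (hne : wh s u ≠ u) : app s (2 * u) = 2 * wh s u + 1 := by
  unfold wh at hne ⊢
  by_cases hc : app s (2 * u) % 2 = 1
  · rw [if_pos hc]; unfold vtx; omega
  · rw [if_neg hc] at hne; exact absurd rfl hne

theorem wh_of_even {u : ℕ} (he : app s (2 * u) % 2 = 0) : wh s u = u := by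
  unfold wh; rw [if_neg (by omega)]

/-! ### The third class -/

theorem cl3_lt (h : ValidL n s) {u : ℕ} (hu : u < n) : cl3 n s u < n := by
  unfold cl3
  split_ifs
  · exact hu
  · exact wh_lt h hu
  · exact rawC_lt h hu _
  · exact rawC_lt h hu _
  · exact wh_lt h hu

theorem cl3_cases (h : ValidL n s) {u : ℕ} (hu : u < n) (hne : cl3 n s u ≠ u) :
    app s (2 * u) = 2 * cl3 n s u + 1 ∨
      ∃ k, selB n s k u = true ∧ app s (2 * u) = 2 * cl3 n s u := by
  by_cases hw : wCyc n s u = true
  · by_cases hr : isRoot n s u = true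
    · unfold cl3 at hne
      rw [if_pos hw, if_pos hr] at hne
      exact absurd rfl hne
    · have e : cl3 n s u = wh s u := by
        unfold cl3; rw [if_pos hw, if_neg hr]
      rw [e] at hne ⊢
      exact Or.inl (wh_spec hne)
  · by_cases h0 : selB n s false u = true
    · have e : cl3 n s u = rawC s false u := by
        unfold cl3; rw [if_neg hw, if_pos h0]
      rw [e]
      exact Or.inr ⟨false, h0, (rawC_of_cand h hu (selB_cand h0)).2⟩
    · by_cases h1 : selB n s true u = true
      · have e : cl3 n s u = rawC s true u := by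
          unfold cl3; rw [if_neg hw, if_neg h0, if_pos h1]
        rw [e]
        exact Or.inr ⟨true, h1, (rawC_of_cand h hu (selB_cand h1)).2⟩
      · have e : cl3 n s u = wh s u := by
          unfold cl3; rw [if_neg hw, if_neg h0, if_neg h1]
        rw [e] at hne ⊢
        exact Or.inl (wh_spec hne)

/-- A whole arc and a selected arc do not have the same head. -/
theorem no_whole_into_selected (h : ValidL n s) {u u' b : ℕ} (hu : u < n) (hu' : u' < n)
    (hb : b < n) {k : Bool} (hW : app s (2 * u) = 2 * b + 1) (hsel : selB n s k u' = true)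
    (hS : app s (2 * u') = 2 * b) : False := by
  obtain ⟨m, -, hcy⟩ := Cy_of_onCyc (closedK_spec.mp (selB_closed hsel)).1
  have hnext := hcy.next
  have hcand := cand_spec.mp (selB_cand hsel)
  have hv : rawC s k u' = b := by
    have := (rawC_of_cand h hu' (selB_cand hsel)).2
    omega
  rw [app_rawL hu', hv] at hnext
  have hne : rawC s k b ≠ b := by
    have := hnext.1
    rwa [app_rawL hb] at this
  have hcb : colB s (2 * b) = !k := by
    have := colB_edge h (x := 2 * u') (by omega) hcand.2.1
    rw [hS, hcand.1] at this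
    exact this
  have ht : tailS s k b = 2 * b + 1 := by
    rw [tailS_eq, if_neg]
    rw [hcb]; cases k <;> simp
  obtain ⟨_, _, h3⟩ := rawC_real h hb hne
  rw [ht] at h3
  have hinv := h.inv (2 * u) (by omega)
  rw [hW] at hinv
  apply h3
  rw [hinv]
  omega

/-- Two selected arcs in opposite classes do not form a cycle of length two. -/
theorem no_two (h : ValidL n s) {a b : ℕ} (ha : a < n) (hb : b < n)
    (hab : app s (2 * a) = 2 * b) (hsa : selB n s false a = true) (hsb : selB n s true b = true) :
    False := by
  obtain ⟨hcla, hcanda, halla⟩ := selB_false_spec hsa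
  obtain ⟨hclb, hcandb, hallb⟩ := selB_true_spec hsb
  obtain ⟨hca, hfa, -⟩ := cand_spec.mp hcanda
  obtain ⟨hcb, hfb, -⟩ := cand_spec.mp hcandb
  have hba : app s (2 * b) = 2 * a := by
    have := h.inv (2 * a) (by omega)
    rwa [hab] at this
  have hab_ne : a ≠ b := by
    rintro rfl
    rw [hca] at hcb
    cases hcb
  -- the class `false` at `b`
  obtain ⟨mf, -, hcyf⟩ := Cy_of_onCyc (closedK_spec.mp hcla).1
  have hva : rawC s false a = b := by
    have := (rawC_of_cand h ha hcanda).2
    omega
  have hnextf := hcyf.next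
  rw [app_rawL ha, hva] at hnextf
  have hneb : rawC s false b ≠ b := by
    have := hnextf.1
    rwa [app_rawL hb] at this
  have htb : tailS s false b = 2 * b + 1 := by
    rw [tailS_eq, if_neg]
    rw [hcb]; simp
  obtain ⟨hc1, hc2, hc3⟩ := rawC_real h hb hneb
  rw [htb] at hc1 hc2 hc3
  generalize hcdef : rawC s false b = c at hc1 hneb
  have hc_lt : c < n := by
    rw [← hcdef]; exact rawC_lt h hb false
  have hsb1 : app s (2 * b + 1) = 2 * c + 1 := by
    have : app s (2 * b + 1) % 2 = 1 := by
      by_contra hcon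
      exact hc3 ⟨by omega, by omega⟩
    rw [hc1]; unfold vtx; omega
  have hsc1 : app s (2 * c + 1) = 2 * b + 1 := by
    have := h.inv (2 * b + 1) (by omega)
    rwa [hsb1] at this
  -- the contradiction in the case `c = a`
  have hca_ne : c ≠ a := by
    rintro rfl
    have hne : app s (2 * c) ≠ 2 * c := hfa
    have := h.tok (2 * c) (by omega) hne
    rw [bar_even, hsc1, hab, bar_even] at this
    exact this rfl
  -- the class `true`: two steps back from `b`
  obtain ⟨mt, hmt, hcyt⟩ := Cy_of_onCyc (closedK_spec.mp hclb).1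
  have hrt := rawL_length (n := n) (s := s) true
  obtain ⟨m', rfl⟩ : ∃ m', mt = m' + 1 := by
    cases mt with
    | zero =>
      exfalso
      have := hcyt.2
      rw [powL_one] at this
      exact hcyt.1 this
    | succ m => exact ⟨m, rfl⟩
  set P := rawL n s true with hP
  have hy2cy : Cy P (powL P m' b) (m' + 1) := hcyt.iter m'
  have hy1cy : Cy P (powL P (m' + 1) b) (m' + 1) := hcyt.iter (m' + 1)
  have hy2lt : powL P m' b < n := powL_lt (rawL_lt h true) hb m'
  have hy1lt : powL P (m' + 1) b < n := powL_lt (rawL_lt h true) hb (m' + 1)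
  have hy21 : rawC s true (powL P m' b) = powL P (m' + 1) b := by
    rw [powL_succ P m' b, hP, app_rawL hy2lt]
  have hy1b : rawC s true (powL P (m' + 1) b) = b := by
    have := hcyt.2
    rw [powL_succ P (m' + 1) b, hP, app_rawL hy1lt] at this
    exact this
  have hy2mem : powL P m' b ∈ iterL P b := by
    unfold iterL
    simp only [List.mem_map, List.mem_range]
    exact ⟨m', by omega, rfl⟩
  generalize powL P m' b = y2 at hy2cy hy2lt hy21 hy2mem
  generalize powL P (m' + 1) b = y1 at hy1cy hy1lt hy21 hy1b
  have hney1 : rawC s true y1 ≠ y1 := by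
    have := hy1cy.1
    rwa [hP, app_rawL hy1lt] at this
  have hney2 : rawC s true y2 ≠ y2 := by
    have := hy2cy.1
    rwa [hP, app_rawL hy2lt] at this
  -- `y1 = c`
  have ht1 : tailS s true y1 = 2 * c + 1 := by
    have := tail_eq_of_rawC h hy1lt hney1
    rw [hy1b] at this
    simp only [Bool.not_true] at this
    rw [this, htb, hsb1]
  have hy1c : y1 = c ∧ colB s (2 * y1) = false := by
    rw [tailS_eq] at ht1
    by_cases hcc : colB s (2 * y1) = true
    · rw [if_pos hcc] at ht1
      omega
    · rw [if_neg hcc] at ht1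
      refine ⟨by omega, ?_⟩
      revert hcc; cases colB s (2 * y1) <;> simp
  obtain ⟨rfl, hcolc⟩ := hy1c
  -- `y2` is the out-partner of `c`
  have ht2 : tailS s true y2 = app s (2 * y1) := by
    have := tail_eq_of_rawC h hy2lt hney2
    rw [hy21] at this
    simp only [Bool.not_true] at this
    rw [this, tailS_eq, if_pos hcolc]
  obtain ⟨_, hr2, hr3⟩ := rawC_real h hy2lt hney2
  have hs2 : app s (tailS s true y2) = 2 * y1 := by
    rw [ht2]
    exact h.inv (2 * y1) (by omega)
  rw [hs2] at hr2 hr3
  have hy2even : tailS s true y2 = 2 * y2 ∧ colB s (2 * y2) = true := by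
    have hpar : tailS s true y2 % 2 = 0 := by
      by_contra hcon
      exact hr3 ⟨by omega, by omega⟩
    rw [tailS_eq] at hpar ⊢
    by_cases hcc : colB s (2 * y2) = true
    · rw [if_pos hcc]; exact ⟨rfl, hcc⟩
    · rw [if_neg hcc] at hpar; omega
  obtain ⟨ht2', hcoly2⟩ := hy2even
  have hsy2 : app s (2 * y2) = 2 * y1 := by rw [← ht2']; exact hs2
  have hsc : app s (2 * y1) = 2 * y2 := by
    rw [← ht2, ht2']
  have hyne : y2 ≠ y1 := by
    intro e
    apply hney2
    rw [hy21, e]
  have hcandc : cand s false y1 = true :=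
    cand_spec.mpr ⟨hcolc, by rw [hsc]; omega, by rw [hsc]; omega⟩
  have hcandy2 : cand s true y2 = true :=
    cand_spec.mpr ⟨hcoly2, by rw [hsy2]; omega, by rw [hsy2]; omega⟩
  have hle2 : repE s y2 ≤ repE s b := hallb y2 hy2mem hcandy2
  -- `c` is two steps after `a` in the class `false`
  have hn3 : 2 < n := by omega
  have hmemc : y1 ∈ iterL (rawL n s false) a := by
    unfold iterL
    simp only [List.mem_map, List.mem_range]
    refine ⟨2, by rw [rawL_length]; exact hn3, ?_⟩
    rw [powL_succ, powL_one, app_rawL ha, hva, app_rawL hb, hcdef]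
  have hle1 : repE s a ≤ repE s y1 := halla y1 hmemc hcandc
  have eA : repE s a = if a ≤ b then a else b := by
    unfold repE; rw [hab, vtx_even]
  have eB : repE s b = if b ≤ a then b else a := by
    unfold repE; rw [hba, vtx_even]
  have eC : repE s y1 = if y1 ≤ y2 then y1 else y2 := by
    unfold repE; rw [hsc, vtx_even]
  have eY : repE s y2 = if y2 ≤ y1 then y2 else y1 := by
    unfold repE; rw [hsy2, vtx_even]
  rw [eA, eC] at hle1
  rw [eB, eY] at hle2
  have hcases : a = y1 ∨ a = y2 ∨ b = y1 ∨ b = y2 := by
    split_ifs at hle1 hle2 <;> omega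
  rcases hcases with e | e | e | e
  · exact hca_ne e.symm
  · rw [e, hcoly2] at hca; cases hca
  · rw [e, hcolc] at hcb; cases hcb
  · rw [e, hsy2] at hba
    exact hca_ne (by omega)

theorem cl3_inj (h : ValidL n s) {u v : ℕ} (hu : u < n) (hv : v < n)
    (e : cl3 n s u = cl3 n s v) (hu' : cl3 n s u ≠ u) (hv' : cl3 n s v ≠ v) : u = v := by
  have key : app s (2 * u) = app s (2 * v) → u = v := by
    intro he
    have := s_inj h (x := 2 * u) (y := 2 * v) (by omega) (by omega) he
    omega
  have hb := cl3_lt h hv
  rcases cl3_cases h hu hu' with h1 | ⟨k1, hs1, h1⟩ <;>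
    rcases cl3_cases h hv hv' with h2 | ⟨k2, hs2, h2⟩
  · exact key (by rw [h1, h2, e])
  · rw [e] at h1
    exact (no_whole_into_selected h hu hv hb h1 hs2 h2).elim
  · rw [e] at h1
    exact (no_whole_into_selected h hv hu hb h2 hs1 h1).elim
  · exact key (by rw [h1, h2, e])

/-- No node of a cycle of the third class lies on a cycle of whole arcs. -/
theorem no_wCyc (h : ValidL n s) {x k : ℕ} (hx : x < n)
    (hcy : Cy ((range n).map (cl3 n s)) x k) (hw : wCyc n s x = true) : False := by
  set p := (range n).map (cl3 n s) with hp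
  have hplt : ∀ u < n, app p u < n := by
    intro u hu
    rw [hp, app_map_range _ hu]
    exact cl3_lt h hu
  have happ : ∀ u < n, app p u = cl3 n s u := fun u hu => by
    rw [hp, app_map_range _ hu]
  set W := whL n s with hW
  have hstep : ∀ i, powL p i x = powL W i x ∧ wCyc n s (powL W i x) = true := by
    intro i
    induction i with
    | zero => exact ⟨rfl, hw⟩
    | succ i ih =>
      obtain ⟨e, hwi⟩ := ih
      have hlt : powL W i x < n := powL_lt (whL_lt h) hx i
      have hne : app p (powL W i x) ≠ powL W i x := by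
        have := (hcy.iter i).1
        rwa [e] at this
      rw [happ _ hlt] at hne
      have hroot : isRoot n s (powL W i x) ≠ true := by
        intro hr
        apply hne
        unfold cl3
        rw [if_pos hwi, if_pos hr]
      have hcl : cl3 n s (powL W i x) = wh s (powL W i x) := by
        unfold cl3
        rw [if_pos hwi, if_neg hroot]
      constructor
      · rw [powL_succ, powL_succ, e, happ _ hlt, hcl, hW, app_whL hlt]
      · rw [powL_succ]
        obtain ⟨m, hm, hcyw⟩ := Cy_of_onCyc (p := W) hwi
        exact onCyc_of_Cy hcyw.next hm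
  have hnotroot : ∀ i, isRoot n s (powL W i x) ≠ true := by
    intro i hr
    obtain ⟨e, hwi⟩ := hstep i
    have hlt : powL W i x < n := powL_lt (whL_lt h) hx i
    have hne : app p (powL W i x) ≠ powL W i x := by
      have := (hcy.iter i).1
      rwa [e] at this
    rw [happ _ hlt] at hne
    apply hne
    unfold cl3
    rw [if_pos hwi, if_pos hr]
  classical
  have hex : ∃ v, ∃ i, powL W i x = v := ⟨x, 0, rfl⟩
  obtain ⟨i, hi⟩ := Nat.find_spec hex
  have hmin : ∀ j, Nat.find hex ≤ powL W j x := by
    intro j
    by_contra hcon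
    exact Nat.find_min hex (not_le.mp hcon) ⟨j, rfl⟩
  generalize Nat.find hex = r at hi hmin
  apply hnotroot i
  rw [hi]
  refine isRoot_iff.mpr ⟨?_, ?_⟩
  · rw [← hi]; exact (hstep i).2
  · intro v hv
    unfold iterL at hv
    simp only [List.mem_map, List.mem_range] at hv
    obtain ⟨t, _, rfl⟩ := hv
    rw [← hi, powL_add, hi]
    exact hmin _

theorem cl3_acyc (h : ValidL n s) (u : ℕ) (hu : u < n) (k : ℕ)
    (hk : powL ((range n).map (cl3 n s)) (k + 1) u = u) : app ((range n).map (cl3 n s)) u = u := by
  by_contra hne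
  set p := (range n).map (cl3 n s) with hp
  have hcy : Cy p u k := ⟨hne, hk⟩
  have hplt : ∀ u < n, app p u < n := by
    intro u hu
    rw [hp, app_map_range _ hu]
    exact cl3_lt h hu
  have happ : ∀ u < n, app p u = cl3 n s u := fun u hu => by
    rw [hp, app_map_range _ hu]
  have horb : ∀ j, powL p j u < n := fun j => powL_lt hplt hu j
  have hnw : ∀ j, wCyc n s (powL p j u) ≠ true := fun j hw =>
    no_wCyc h (horb j) (hcy.iter j) hw
  by_cases hsel : ∃ j k0, selB n s k0 (powL p j u) = true
  · obtain ⟨j, k0, hs0⟩ := hsel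
    have ha := horb j
    have hcya := hcy.iter j
    generalize powL p j u = a at ha hcya hs0
    have hbcy := hcya.next
    rw [happ a ha] at hbcy
    have hb := cl3_lt h ha
    have hca := cand_spec.mp (selB_cand hs0)
    have hab : app s (2 * a) = 2 * cl3 n s a := by
      have hne' : cl3 n s a ≠ a := by
        have := hcya.1
        rwa [happ a ha] at this
      rcases cl3_cases h ha hne' with h1 | ⟨_, _, h1⟩
      · have := hca.2.2; omega
      · exact h1
    generalize cl3 n s a = b at hbcy hb hab
    have hba : app s (2 * b) = 2 * a := by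
      have := h.inv (2 * a) (by omega)
      rwa [hab] at this
    have hne' : cl3 n s b ≠ b := by
      have := hbcy.1
      rwa [happ b hb] at this
    have hs1 : ∃ k1, selB n s k1 b = true := by
      rcases cl3_cases h hb hne' with h1 | ⟨k1, hk1, _⟩
      · omega
      · exact ⟨k1, hk1⟩
    obtain ⟨k1, hs1⟩ := hs1
    have hcb := cand_spec.mp (selB_cand hs1)
    have hedge := colB_edge h (x := 2 * a) (by omega) hca.2.1
    rw [hab, hcb.1, hca.1] at hedge
    subst hedge
    cases k0
    · exact no_two h ha hb hab hs0 hs1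
    · exact no_two h hb ha hba hs1 hs0
  · have hnone : ∀ j k0, selB n s k0 (powL p j u) ≠ true := fun j k0 hs => hsel ⟨j, k0, hs⟩
    have hwh : ∀ j, cl3 n s (powL p j u) = wh s (powL p j u) := by
      intro j
      unfold cl3
      rw [if_neg (hnw j), if_neg (hnone j false), if_neg (hnone j true)]
    have heq : ∀ j, powL p j u = powL (whL n s) j u := by
      intro j
      induction j with
      | zero => rfl
      | succ j ih =>
        rw [powL_succ, powL_succ, happ _ (horb j), hwh j, ih, app_whL]
        rw [← ih]; exact horb j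
    have hk' : powL (whL n s) (k + 1) u = u := by rw [← heq]; exact hk
    obtain ⟨k', hk'lt, hk''⟩ := exists_small_period (whL_lt h) hu hk'
    apply hnw 0
    have hu0 : powL p 0 u = u := rfl
    rw [hu0]
    refine onCyc_spec.mpr ⟨?_, k', by rw [whL_length]; exact hk'lt, hk''⟩
    rw [app_whL hu]
    have := hwh 0
    rw [hu0] at this
    rw [← this, ← happ u hu]
    exact hne

end C3


/-- (part G-C3) -/
theorem cl3_pathSys {n : ℕ} {s : List ℕ} (h : ValidL n s) :
    PathSys n ((range n).map (cl3 n s)) := by
  refine ⟨by simp, ?_, ?_, ?_⟩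
  · intro u hu
    rw [C3.app_map_range _ hu]
    exact C3.cl3_lt h hu
  · intro u hu v hv e h1 h2
    rw [C3.app_map_range _ hu] at e h1
    rw [C3.app_map_range _ hv] at e h2
    exact C3.cl3_inj h hu hv e h1 h2
  · intro u hu k hk
    exact C3.cl3_acyc h u hu k hk

end Vale.Agent.Lib.P333G
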