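import Vale.Agent.Lib.P333G.Color

/-!
(part G-CK) The final class `k` is a path system.
-/

namespace Vale.Agent.Lib.P333G

open List (range)
open Vale.Agent.Lib.P333F

/-! ### Successor lists given by a function -/

section Fun

variable {n : ℕ} {f : ℕ → ℕ}

private theorem ck_app_map (f : ℕ → ℕ) {n u : ℕ} (hu : u < n) :
    app ((range n).map f) u = f u := by
  simp [app, hu]

private theorem ck_iter_lt (hf : ∀ u < n, f u < n) {u : ℕ} (hu : u < n) (t : ℕ) : f^[t] u < n := by
  induction t with
  | zero => exact hu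
  | succ t ih =>
    rw [Function.iterate_succ_apply']
    exact hf _ ih

private theorem ck_powL_map (hf : ∀ u < n, f u < n) {u : ℕ} (hu : u < n) (t : ℕ) :
    powL ((range n).map f) t u = f^[t] u := by
  induction t with
  | zero => rfl
  | succ t ih =>
    rw [powL_succ, ih, Function.iterate_succ_apply', ck_app_map _ (ck_iter_lt hf hu t)]

private theorem ck_small_period (hf : ∀ u < n, f u < n) {u : ℕ} (hu : u < n) {m : ℕ}
    (hm : f^[m + 1] u = u) : ∃ k, k < n ∧ f^[k + 1] u = u := by
  have hper : Function.IsPeriodicPt f (m + 1) u := hm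
  have hpos : 0 < Function.minimalPeriod f u :=
    hper.minimalPeriod_pos (Nat.succ_pos m)
  have hle : Function.minimalPeriod f u ≤ n := by
    have hinj := Function.iterate_injOn_Iio_minimalPeriod (f := f) (x := u)
    have hcard : (Finset.range (Function.minimalPeriod f u)).card ≤ (Finset.range n).card := by
      apply Finset.card_le_card_of_injOn (fun i => f^[i] u)
      · intro i _
        exact Finset.mem_coe.2 (Finset.mem_range.2 (ck_iter_lt hf hu i))
      · intro a ha b hb hab
        apply hinj
        · simpa using ha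
        · simpa using hb
        · exact hab
    simpa using hcard
  refine ⟨Function.minimalPeriod f u - 1, by omega, ?_⟩
  have e : Function.minimalPeriod f u - 1 + 1 = Function.minimalPeriod f u := by omega
  rw [e]
  exact Function.iterate_minimalPeriod

private theorem ck_onCyc_map (hf : ∀ u < n, f u < n) {u : ℕ} (hu : u < n) :
    onCyc ((range n).map f) u = true ↔ f u ≠ u ∧ ∃ m, f^[m + 1] u = u := by
  unfold onCyc
  simp only [Bool.and_eq_true, decide_eq_true_eq, List.any_eq_true, List.mem_range, List.length_map,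
    List.length_range]
  rw [ck_app_map _ hu]
  constructor
  · rintro ⟨h1, k, _, h2⟩
    refine ⟨h1, k, ?_⟩
    rwa [ck_powL_map hf hu] at h2
  · rintro ⟨h1, m, h2⟩
    obtain ⟨k, hk, hk2⟩ := ck_small_period hf hu h2
    refine ⟨h1, k, hk, ?_⟩
    rwa [ck_powL_map hf hu]

private theorem ck_iter_mem (hf : ∀ u < n, f u < n) {u : ℕ} (hu : u < n) {m : ℕ}
    (hm : f^[m + 1] u = u) (t : ℕ) : f^[t] u ∈ iterL ((range n).map f) u := by
  obtain ⟨k, hk, hk2⟩ := ck_small_period hf hu hm
  have hper : Function.IsPeriodicPt f (k + 1) u := hk2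
  unfold iterL
  simp only [List.length_map, List.length_range, List.mem_map, List.mem_range]
  refine ⟨t % (k + 1), lt_of_lt_of_le (Nat.mod_lt _ (Nat.succ_pos k)) hk, ?_⟩
  rw [ck_powL_map hf hu]
  exact hper.iterate_mod_apply t

private theorem ck_mem_iter (hf : ∀ u < n, f u < n) {u v : ℕ} (hu : u < n)
    (h : v ∈ iterL ((range n).map f) u) : ∃ t, f^[t] u = v := by
  unfold iterL at h
  simp only [List.length_map, List.length_range, List.mem_map, List.mem_range] at h
  obtain ⟨t, _, ht⟩ := h
  rw [ck_powL_map hf hu] at ht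
  exact ⟨t, ht⟩

/-- On a cycle, everything reached from a node can reach it again. -/
private theorem ck_back {u : ℕ} {m : ℕ} (hm : f^[m + 1] u = u) (t : ℕ) :
    ∃ r, f^[r] (f^[t] u) = u := by
  have hper : Function.IsPeriodicPt f (m + 1) u := hm
  have hper2 : f^[(m + 1) * (t + 1)] u = u := by
    have := hper.const_mul (t + 1)
    have e : (t + 1) * (m + 1) = (m + 1) * (t + 1) := Nat.mul_comm _ _
    rw [e] at this
    exact this
  have hle : t ≤ (m + 1) * (t + 1) := by nlinarith
  refine ⟨(m + 1) * (t + 1) - t, ?_⟩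
  rw [← Function.iterate_add_apply, Nat.sub_add_cancel hle]
  exact hper2

end Fun

/-! ### Slots -/

section Slots

variable {n : ℕ} {s : List ℕ}

private theorem ck_bar_even (u : ℕ) : bar (2 * u) = 2 * u + 1 := by
  unfold bar; simp

private theorem ck_bar_odd (u : ℕ) : bar (2 * u + 1) = 2 * u := by
  unfold bar; split_ifs <;> omega

private theorem ck_vtx_even (u : ℕ) : vtx (2 * u) = u := by
  unfold vtx; omega

private theorem ck_vtx_odd (u : ℕ) : vtx (2 * u + 1) = u := by
  unfold vtx; omega

private theorem ck_col_odd (h : ValidL n s) {u : ℕ} (hu : u < n) :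
    colB s (2 * u + 1) = !colB s (2 * u) := by
  have := colB_bar h (x := 2 * u) (by omega)
  rwa [ck_bar_even] at this

private theorem ck_tail_lt {u : ℕ} (hu : u < n) (k : Bool) : tailS s k u < 2 * n := by
  unfold tailS; split_ifs <;> omega

private theorem ck_tail_vtx (k : Bool) (u : ℕ) : vtx (tailS s k u) = u := by
  unfold tailS; split_ifs
  · exact ck_vtx_even u
  · exact ck_vtx_odd u

private theorem ck_tail_col (h : ValidL n s) {u : ℕ} (hu : u < n) (k : Bool) :
    colB s (tailS s k u) = k := by
  unfold tailS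
  split_ifs with hc
  · exact hc
  · rw [ck_col_odd h hu]
    cases hk : colB s (2 * u) <;> cases k <;> simp_all

private theorem ck_slot_of_col (h : ValidL n s) {y : ℕ} (hy : y < 2 * n) :
    y = tailS s (colB s y) (vtx y) := by
  have hv : vtx y < n := by unfold vtx; omega
  rcases Nat.even_or_odd' y with ⟨v, rfl | rfl⟩
  · rw [ck_vtx_even]; unfold tailS; simp
  · rw [ck_vtx_odd]
    have hv' : v < n := by omega
    have := ck_col_odd h hv'
    unfold tailS
    rw [this]
    cases hk : colB s (2 * v) <;> simp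

private theorem ck_phi_lt (h : ValidL n s) {u : ℕ} (hu : u < n) (k : Bool) : phi s k u < n := by
  have := h.lt _ (ck_tail_lt (s := s) hu k)
  unfold phi vtx
  omega

private theorem ck_tail_ne {k : Bool} {u : ℕ} (hne : phi s k u ≠ u) : app s (tailS s k u) ≠ tailS s k u := by
  intro he
  apply hne
  unfold phi
  rw [he, ck_tail_vtx]

private theorem ck_edge (h : ValidL n s) {u : ℕ} (hu : u < n) {k : Bool} (hne : phi s k u ≠ u) :
    app s (tailS s k u) = tailS s (!k) (phi s k u) := by
  have hlt := h.lt _ (ck_tail_lt (s := s) hu k)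
  have hc := colB_edge h (ck_tail_lt (s := s) hu k) (ck_tail_ne hne)
  rw [ck_tail_col h hu] at hc
  have := ck_slot_of_col h hlt
  rw [hc] at this
  exact this

private theorem ck_phi_phi (h : ValidL n s) {u : ℕ} (hu : u < n) {k : Bool} (hne : phi s k u ≠ u) :
    phi s (!k) (phi s k u) = u := by
  have e := ck_edge h hu hne
  have hinv := h.inv _ (ck_tail_lt (s := s) hu k)
  conv_lhs => unfold phi
  show vtx (app s (tailS s (!k) (phi s k u))) = u
  rw [← e, hinv, ck_tail_vtx]

private theorem ck_wh_lt (h : ValidL n s) {u : ℕ} (hu : u < n) : wh s u < n := by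
  unfold wh
  split_ifs
  · have := h.lt (2 * u) (by omega)
    unfold vtx; omega
  · exact hu

private theorem ck_wh_spec {u : ℕ} (hne : wh s u ≠ u) : app s (2 * u) = 2 * wh s u + 1 := by
  unfold wh at hne ⊢
  split_ifs at hne ⊢ with hodd
  · unfold vtx; omega
  · exact absurd rfl hne

private theorem ck_wh_inj (h : ValidL n s) {u v : ℕ} (hu : u < n) (hv : v < n) (he : wh s u = wh s v)
    (h1 : wh s u ≠ u) (h2 : wh s v ≠ v) : u = v := by
  have e1 := ck_wh_spec h1
  have e2 := ck_wh_spec h2
  have i1 := h.inv (2 * u) (by omega)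
  have i2 := h.inv (2 * v) (by omega)
  rw [e1, he, ← e2, i2] at i1
  omega

private theorem ck_col_wh (h : ValidL n s) {u : ℕ} (hu : u < n) (hne : wh s u ≠ u) :
    colB s (2 * wh s u) = colB s (2 * u) := by
  have e := ck_wh_spec hne
  have hne2 : app s (2 * u) ≠ 2 * u := by omega
  have hc := colB_edge h (x := 2 * u) (by omega) hne2
  rw [e, ck_col_odd h (ck_wh_lt h hu)] at hc
  cases h1 : colB s (2 * wh s u) <;> cases h2 : colB s (2 * u) <;> simp_all

private theorem ck_raw_ne {k : Bool} {u : ℕ} (hne : rawC s k u ≠ u) :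
    realB s k u = true ∧ rawC s k u = phi s k u := by
  unfold rawC at hne ⊢
  split_ifs at hne ⊢ with hr
  · exact ⟨hr, rfl⟩
  · exact absurd rfl hne

private theorem ck_raw_phi_ne {k : Bool} {u : ℕ} (hr : realB s k u = true) : phi s k u ≠ u := by
  unfold realB at hr
  simp only [Bool.and_eq_true, decide_eq_true_eq] at hr
  exact hr.1

private theorem ck_raw_lt (h : ValidL n s) {u : ℕ} (hu : u < n) (k : Bool) : rawC s k u < n := by
  unfold rawC
  split_ifs
  · exact ck_phi_lt h hu k
  · exact hu

private theorem ck_raw_inj (h : ValidL n s) {k : Bool} {u v : ℕ} (hu : u < n) (hv : v < n)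
    (he : rawC s k u = rawC s k v) (h1 : rawC s k u ≠ u) (h2 : rawC s k v ≠ v) : u = v := by
  obtain ⟨r1, e1⟩ := ck_raw_ne h1
  obtain ⟨r2, e2⟩ := ck_raw_ne h2
  have p1 := ck_phi_phi h hu (ck_raw_phi_ne r1)
  have p2 := ck_phi_phi h hv (ck_raw_phi_ne r2)
  rw [e1, e2] at he
  rw [he, p2] at p1
  exact p1.symm

/-- A whole arc of the colour `k` is an arc of the raw class `k`. -/
private theorem ck_raw_of_wh {k : Bool} {u : ℕ} (hc : colB s (2 * u) = k) (hne : wh s u ≠ u) :
    rawC s k u = wh s u := by
  have e := ck_wh_spec hne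
  have ht : tailS s k u = 2 * u := by unfold tailS; simp [hc]
  have hphi : phi s k u = wh s u := by
    unfold phi
    rw [ht, e, ck_vtx_odd]
  have hr : realB s k u = true := by
    unfold realB
    simp only [Bool.and_eq_true, decide_eq_true_eq, Bool.not_eq_true', Bool.and_eq_false_iff,
      decide_eq_false_iff_not]
    refine ⟨by rw [hphi]; exact hne, Or.inl ?_⟩
    rw [ht]; omega
  unfold rawC
  rw [if_pos hr, hphi]

/-- An arc of class `k` into a node whose even slot has colour `!k` starts at an even slot. -/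
private theorem ck_tail_even (h : ValidL n s) {k : Bool} {u b : ℕ} (hu : u < n)
    (hr : realB s k u = true) (hb : phi s k u = b) (hcb : colB s (2 * b) = !k) :
    tailS s k u = 2 * u ∧ colB s (2 * u) = k ∧ app s (2 * u) = 2 * b := by
  have hne := ck_raw_phi_ne hr
  have e := ck_edge h hu hne
  have ht : tailS s (!k) b = 2 * b := by unfold tailS; simp [hcb]
  rw [hb, ht] at e
  unfold realB at hr
  simp only [Bool.and_eq_true, decide_eq_true_eq, Bool.not_eq_true', Bool.and_eq_false_iff,
    decide_eq_false_iff_not] at hr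
  have hev : tailS s k u % 2 ≠ 1 := by
    rcases hr.2 with h1 | h1
    · exact h1
    · rw [e] at h1; omega
  have hc2 : colB s (2 * u) = k := by
    unfold tailS at hev
    split_ifs at hev with hc
    · exact hc
    · omega
  have ht2 : tailS s k u = 2 * u := by unfold tailS; simp [hc2]
  rw [ht2] at e
  exact ⟨ht2, hc2, e⟩

end Slots

/-! ### Whole cycles -/

section Whole

variable {n : ℕ} {s : List ℕ}

private theorem ck_whL (n : ℕ) (s : List ℕ) : whL n s = (range n).map (wh s) := rfl

private theorem ck_rawL (n : ℕ) (s : List ℕ) (k : Bool) : rawL n s k = (range n).map (rawC s k) := rfl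

private theorem ck_wCyc_iff (h : ValidL n s) {u : ℕ} (hu : u < n) :
    wCyc n s u = true ↔ wh s u ≠ u ∧ ∃ m, (wh s)^[m + 1] u = u := by
  unfold wCyc
  rw [ck_whL]
  exact ck_onCyc_map (fun _ hv => ck_wh_lt h hv) hu

private theorem ck_wCyc_next (h : ValidL n s) {u : ℕ} (hu : u < n) (hc : wCyc n s u = true) :
    wCyc n s (wh s u) = true := by
  obtain ⟨h1, m, hm⟩ := (ck_wCyc_iff h hu).1 hc
  rw [ck_wCyc_iff h (ck_wh_lt h hu)]
  constructor
  · intro hfix
    have hall : ∀ t, (wh s)^[t] (wh s u) = wh s u := by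
      intro t
      induction t with
      | zero => rfl
      | succ t ih => rw [Function.iterate_succ_apply', ih, hfix]
    have := hall m
    rw [← Function.iterate_succ_apply, hm] at this
    exact h1 this.symm
  · refine ⟨m, ?_⟩
    rw [← Function.iterate_succ_apply (wh s) (m + 1) u, Function.iterate_succ_apply', hm]

private theorem ck_wCyc_iter (h : ValidL n s) {u : ℕ} (hu : u < n) (hc : wCyc n s u = true) (t : ℕ) :
    wCyc n s ((wh s)^[t] u) = true := by
  induction t with
  | zero => exact hc
  | succ t ih =>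
    rw [Function.iterate_succ_apply']
    exact ck_wCyc_next h (ck_iter_lt (fun _ hv => ck_wh_lt h hv) hu t) ih

private theorem ck_col_iter (h : ValidL n s) {u : ℕ} (hu : u < n) (hc : wCyc n s u = true) (t : ℕ) :
    colB s (2 * (wh s)^[t] u) = colB s (2 * u) := by
  induction t with
  | zero => rfl
  | succ t ih =>
    rw [Function.iterate_succ_apply']
    have hlt := ck_iter_lt (fun _ hv => ck_wh_lt h hv) hu t
    have hcy := ck_wCyc_iter h hu hc t
    have hne := ((ck_wCyc_iff h hlt).1 hcy).1
    rw [ck_col_wh h hlt hne, ih]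

/-- Every iterate of a node on a whole cycle is in its list of iterates. -/
private theorem ck_iter_whL (h : ValidL n s) {u : ℕ} (hu : u < n) (hc : wCyc n s u = true) (t : ℕ) :
    (wh s)^[t] u ∈ iterL (whL n s) u := by
  obtain ⟨_, m, hm⟩ := (ck_wCyc_iff h hu).1 hc
  rw [ck_whL]
  exact ck_iter_mem (fun _ hv => ck_wh_lt h hv) hu hm t

private theorem ck_root_le {u v : ℕ} (hr : isRoot n s u = true) (hv : v ∈ iterL (whL n s) u) :
    u ≤ v := by
  unfold isRoot at hr
  simp only [Bool.and_eq_true, List.all_eq_true, decide_eq_true_eq] at hr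
  exact hr.2 v hv

private theorem ck_second_le {u v : ℕ} (hr : isSecond n s u = true) (hv : v ∈ iterL (whL n s) u)
    (hv2 : isRoot n s v = false) : u ≤ v := by
  unfold isSecond at hr
  simp only [Bool.and_eq_true, List.all_eq_true, Bool.or_eq_true, decide_eq_true_eq] at hr
  rcases hr.2 v hv with h1 | h1
  · rw [hv2] at h1; exact absurd h1 (by simp)
  · exact h1

private theorem ck_second_not_root {u : ℕ} (hr : isSecond n s u = true) :
    isRoot n s u = false := by
  unfold isSecond at hr
  simp only [Bool.and_eq_true, Bool.not_eq_true'] at hr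
  exact hr.1.2

/-- No whole cycle of length two. -/
private theorem ck_no_two (h : ValidL n s) {a b : ℕ} (ha : a < n) (hb : b < n) (hab : wh s a = b)
    (hba : wh s b = a) (hne : b ≠ a) : False := by
  have e1 := ck_wh_spec (s := s) (u := a) (by rw [hab]; exact hne)
  have e2 := ck_wh_spec (s := s) (u := b) (by rw [hba]; exact hne.symm)
  rw [hab] at e1
  rw [hba] at e2
  have hf : app s (2 * a) ≠ 2 * a := by omega
  have htok := h.tok (2 * a) (by omega) hf
  apply htok
  have hi := h.inv (2 * b) (by omega)
  rw [e2] at hi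
  rw [ck_bar_even, hi, e1, ck_bar_odd]

/-- Every whole cycle has a second smallest node. -/
private theorem ck_exists_second (h : ValidL n s) {u : ℕ} (hu : u < n) (hc : wCyc n s u = true) :
    ∃ t, isSecond n s ((wh s)^[t] u) = true := by
  classical
  have hf : ∀ v < n, wh s v < n := fun _ hv => ck_wh_lt h hv
  obtain ⟨h1, m, hm⟩ := (ck_wCyc_iff h hu).1 hc
  set C : Finset ℕ := (Finset.range n).filter (fun y => ∃ t, (wh s)^[t] u = y) with hC
  have hmemC : ∀ t, (wh s)^[t] u ∈ C := fun t =>
    Finset.mem_filter.2 ⟨Finset.mem_range.2 (ck_iter_lt hf hu t), t, rfl⟩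
  have hCne : C.Nonempty := ⟨u, hmemC 0⟩
  set r := C.min' hCne with hr
  have hrC : r ∈ C := Finset.min'_mem _ _
  have hrle : ∀ y ∈ C, r ≤ y := fun y hy => Finset.min'_le _ _ hy
  -- from any node of `C` every node of `C` can be reached
  have hreach : ∀ y ∈ C, ∀ z ∈ C, z ∈ iterL (whL n s) y := by
    intro y hy z hz
    obtain ⟨_, a, rfl⟩ := Finset.mem_filter.1 hy
    obtain ⟨_, b, rfl⟩ := Finset.mem_filter.1 hz
    obtain ⟨e, he⟩ := ck_back hm a
    have hyc := ck_wCyc_iter h hu hc a
    have := ck_iter_whL h (ck_iter_lt hf hu a) hyc (b + e)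
    rwa [Function.iterate_add_apply, he] at this
  have hsub : ∀ y ∈ C, y ∈ iterL (whL n s) u := fun y hy => hreach u (hmemC 0) y hy
  have hiter : ∀ y ∈ C, ∀ z ∈ iterL (whL n s) y, z ∈ C := by
    intro y hy z hz
    obtain ⟨_, a, rfl⟩ := Finset.mem_filter.1 hy
    rw [ck_whL] at hz
    obtain ⟨t, rfl⟩ := ck_mem_iter hf (ck_iter_lt hf hu a) hz
    rw [← Function.iterate_add_apply]
    exact hmemC _
  have hwc : ∀ y ∈ C, wCyc n s y = true := by
    intro y hy
    obtain ⟨_, a, rfl⟩ := Finset.mem_filter.1 hy
    exact ck_wCyc_iter h hu hc a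
  have hrootr : isRoot n s r = true := by
    unfold isRoot
    simp only [Bool.and_eq_true, List.all_eq_true, decide_eq_true_eq]
    exact ⟨hwc r hrC, fun v hv => hrle v (hiter r hrC v hv)⟩
  have hC2 : (C.erase r).Nonempty := by
    by_contra hemp
    rw [Finset.not_nonempty_iff_eq_empty, Finset.erase_eq_empty_iff] at hemp
    have h2 : u ∈ C := hmemC 0
    have h3 : wh s u ∈ C := hmemC 1
    rcases hemp with hemp | hemp
    · rw [hemp] at h2; simp at h2
    · rw [hemp] at h2 h3
      simp only [Finset.mem_singleton] at h2 h3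
      exact h1 (h3.trans h2.symm)
  set y := (C.erase r).min' hC2 with hy
  have hyE : y ∈ C.erase r := Finset.min'_mem _ _
  have hyC : y ∈ C := Finset.mem_of_mem_erase hyE
  have hyr : y ≠ r := Finset.ne_of_mem_erase hyE
  obtain ⟨_, t, ht⟩ := Finset.mem_filter.1 hyC
  refine ⟨t, ?_⟩
  rw [ht]
  unfold isSecond
  simp only [Bool.and_eq_true, List.all_eq_true, Bool.or_eq_true, decide_eq_true_eq,
    Bool.not_eq_true']
  refine ⟨⟨hwc y hyC, ?_⟩, ?_⟩
  · by_contra hroot
    have hroot' : isRoot n s y = true := by simpa using hroot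
    have h4 := ck_root_le hroot' (hreach y hyC r hrC)
    have h5 := hrle y hyC
    exact hyr (le_antisymm h4 h5)
  · intro v hv
    have hvC := hiter y hyC v hv
    by_cases hvr : v = r
    · left; rw [hvr]; exact hrootr
    · right
      exact Finset.min'_le _ _ (Finset.mem_erase.2 ⟨hvr, hvC⟩)

end Whole

/-! ### The class -/

section Main

variable {n : ℕ} {s : List ℕ}

private theorem ck_clK_lt (h : ValidL n s) (k : Bool) {u : ℕ} (hu : u < n) : clK n s k u < n := by
  unfold clK
  split_ifs
  all_goals first | exact hu | exact ck_wh_lt h hu | exact ck_raw_lt h hu k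

/-- The two kinds of arcs of the class `k`. -/
private theorem ck_class (k : Bool) {x : ℕ} (hne : clK n s k x ≠ x) :
    (rawC s k x = clK n s k x ∧ rawC s k x ≠ x) ∨
      (wh s x = clK n s k x ∧ wh s x ≠ x ∧ colB s (2 * x) ≠ k ∧ wCyc n s x = true) := by
  unfold clK at hne ⊢
  by_cases hw : wCyc n s x = true
  · rw [if_pos hw] at hne ⊢
    by_cases hc : colB s (2 * x) = k
    · rw [if_pos hc] at hne ⊢
      left
      by_cases hs : isSecond n s x = true
      · rw [if_pos hs] at hne
        exact absurd rfl hne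
      · rw [if_neg hs] at hne ⊢
        exact ⟨ck_raw_of_wh hc hne, by rw [ck_raw_of_wh hc hne]; exact hne⟩
    · rw [if_neg hc] at hne ⊢
      right
      by_cases hs : (isRoot n s x || isSecond n s x) = true
      · rw [if_pos hs] at hne ⊢
        exact ⟨rfl, hne, hc, hw⟩
      · rw [if_neg hs] at hne
        exact absurd rfl hne
  · rw [if_neg hw] at hne ⊢
    left
    by_cases hs : selB n s k x = true
    · rw [if_pos hs] at hne
      exact absurd rfl hne
    · rw [if_neg hs] at hne ⊢
      exact ⟨rfl, hne⟩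

/-- A raw arc and a whole arc of the other colour have different heads. -/
private theorem ck_raw_whole (h : ValidL n s) {k : Bool} {x y : ℕ} (hx : x < n) (hy : y < n)
    (hxr : rawC s k x ≠ x) (he : rawC s k x = wh s y) (hyw : wh s y ≠ y)
    (hyc : colB s (2 * y) ≠ k) (hyC : wCyc n s y = true) : False := by
  obtain ⟨r1, e1⟩ := ck_raw_ne hxr
  set b := wh s y with hb
  have hcb : colB s (2 * b) = !k := by
    rw [hb, ck_col_wh h hy hyw]
    cases h1 : colB s (2 * y) <;> cases k <;> simp_all
  have hbC : wCyc n s b = true := ck_wCyc_next h hy hyC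
  have hblt : b < n := ck_wh_lt h hy
  obtain ⟨_, _, e3⟩ := ck_tail_even h hx r1 (e1.symm.trans he) hcb
  have hbne := ((ck_wCyc_iff h hblt).1 hbC).1
  have e4 := ck_wh_spec hbne
  have i1 := h.inv (2 * x) (by omega)
  rw [e3, e4] at i1
  omega

private theorem ck_inj (h : ValidL n s) (k : Bool) {u v : ℕ} (hu : u < n) (hv : v < n)
    (he : clK n s k u = clK n s k v) (h1 : clK n s k u ≠ u) (h2 : clK n s k v ≠ v) : u = v := by
  rcases ck_class k h1 with ⟨a1, a2⟩ | ⟨a1, a2, a3, a4⟩ <;>
    rcases ck_class k h2 with ⟨b1, b2⟩ | ⟨b1, b2, b3, b4⟩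
  · exact ck_raw_inj h hu hv (by rw [a1, b1, he]) a2 b2
  · exact (ck_raw_whole h hu hv a2 (by rw [a1, b1, he]) b2 b3 b4).elim
  · exact (ck_raw_whole h hv hu b2 (by rw [a1, b1, he]) a2 a3 a4).elim
  · exact ck_wh_inj h hu hv (by rw [a1, b1, he]) a2 b2

private theorem ck_clK_wCyc {k : Bool} {x : ℕ} (hw : wCyc n s x = true) (hne : clK n s k x ≠ x) :
    clK n s k x = wh s x := by
  unfold clK at hne ⊢
  rw [if_pos hw] at hne ⊢
  split_ifs at hne ⊢ <;> first | rfl | exact absurd rfl hne

private theorem ck_wCyc_f (h : ValidL n s) {k : Bool} {x : ℕ} (hx : x < n)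
    (hw : wCyc n s x = true) : wCyc n s (clK n s k x) = true := by
  by_cases hne : clK n s k x = x
  · rw [hne]; exact hw
  · rw [ck_clK_wCyc hw hne]
    exact ck_wCyc_next h hx hw

private theorem ck_mem_orbit (h : ValidL n s) {u : ℕ} (hu : u < n) (hc : wCyc n s u = true)
    (a b : ℕ) : (wh s)^[b] u ∈ iterL (whL n s) ((wh s)^[a] u) := by
  have hf : ∀ v < n, wh s v < n := fun _ hv => ck_wh_lt h hv
  obtain ⟨_, m, hm⟩ := (ck_wCyc_iff h hu).1 hc
  obtain ⟨e, he⟩ := ck_back hm a
  have hyc := ck_wCyc_iter h hu hc a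
  have := ck_iter_whL h (ck_iter_lt hf hu a) hyc (b + e)
  rwa [Function.iterate_add_apply, he] at this

private theorem ck_root_uniq (h : ValidL n s) {u : ℕ} (hu : u < n) (hc : wCyc n s u = true)
    {a b : ℕ} (h1 : isRoot n s ((wh s)^[a] u) = true) (h2 : isRoot n s ((wh s)^[b] u) = true) :
    (wh s)^[a] u = (wh s)^[b] u :=
  le_antisymm (ck_root_le h1 (ck_mem_orbit h hu hc a b)) (ck_root_le h2 (ck_mem_orbit h hu hc b a))

private theorem ck_second_uniq (h : ValidL n s) {u : ℕ} (hu : u < n) (hc : wCyc n s u = true)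
    {a b : ℕ} (h1 : isSecond n s ((wh s)^[a] u) = true)
    (h2 : isSecond n s ((wh s)^[b] u) = true) : (wh s)^[a] u = (wh s)^[b] u :=
  le_antisymm (ck_second_le h1 (ck_mem_orbit h hu hc a b) (ck_second_not_root h2))
    (ck_second_le h2 (ck_mem_orbit h hu hc b a) (ck_second_not_root h1))

private theorem ck_acyc_whole (h : ValidL n s) (k : Bool) {u : ℕ} (hu : u < n)
    (hw : wCyc n s u = true)
    (hmove : ∀ t, clK n s k ((clK n s k)^[t] u) ≠ (clK n s k)^[t] u) : False := by
  have hf : ∀ v < n, wh s v < n := fun _ hv => ck_wh_lt h hv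
  have hsame : ∀ t, (clK n s k)^[t] u = (wh s)^[t] u := by
    intro t
    induction t with
    | zero => rfl
    | succ t ih =>
      rw [Function.iterate_succ_apply', Function.iterate_succ_apply', ih]
      have hm := hmove t
      rw [ih] at hm
      exact ck_clK_wCyc (ck_wCyc_iter h hu hw t) hm
  have hmove' : ∀ t, clK n s k ((wh s)^[t] u) ≠ (wh s)^[t] u := by
    intro t
    have := hmove t
    rwa [hsame] at this
  by_cases hc : colB s (2 * u) = k
  · obtain ⟨t, ht⟩ := ck_exists_second h hu hw
    apply hmove' t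
    unfold clK
    rw [if_pos (ck_wCyc_iter h hu hw t), if_pos ((ck_col_iter h hu hw t).trans hc), if_pos ht]
  · have hrs : ∀ t, isRoot n s ((wh s)^[t] u) = true ∨ isSecond n s ((wh s)^[t] u) = true := by
      intro t
      have hm := hmove' t
      unfold clK at hm
      rw [if_pos (ck_wCyc_iter h hu hw t),
        if_neg (fun hh => hc ((ck_col_iter h hu hw t).symm.trans hh))] at hm
      by_cases hh : (isRoot n s ((wh s)^[t] u) || isSecond n s ((wh s)^[t] u)) = true
      · simpa using hh
      · rw [if_neg hh] at hm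
        exact absurd rfl hm
    have hne : ∀ t, (wh s)^[t + 1] u ≠ (wh s)^[t] u := by
      intro t
      rw [Function.iterate_succ_apply']
      exact ((ck_wCyc_iff h (ck_iter_lt hf hu t)).1 (ck_wCyc_iter h hu hw t)).1
    have hne0 := hne 0
    have hne1 := hne 1
    have hca : (wh s)^[2] u = (wh s)^[0] u := by
      rcases hrs 0 with a | a <;> rcases hrs 1 with b | b <;> rcases hrs 2 with c | c
      · exact absurd (ck_root_uniq h hu hw b a) hne0
      · exact absurd (ck_root_uniq h hu hw b a) hne0
      · exact ck_root_uniq h hu hw c a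
      · exact absurd (ck_second_uniq h hu hw c b) hne1
      · exact absurd (ck_root_uniq h hu hw c b) hne1
      · exact ck_second_uniq h hu hw c a
      · exact absurd (ck_second_uniq h hu hw b a) hne0
      · exact absurd (ck_second_uniq h hu hw b a) hne0
    have hab : wh s u = (wh s)^[1] u := rfl
    have hba : wh s ((wh s)^[1] u) = u := hca
    exact ck_no_two h hu (ck_iter_lt hf hu 1) hab.symm.symm hba hne0

private theorem ck_acyc_raw (h : ValidL n s) (k : Bool) {u : ℕ} {j : ℕ} (hu : u < n)
    (hw : wCyc n s u ≠ true) (hper : (clK n s k)^[j + 1] u = u)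
    (hmove : ∀ t, clK n s k ((clK n s k)^[t] u) ≠ (clK n s k)^[t] u) : False := by
  classical
  set f := clK n s k with hfdef
  have hf : ∀ v < n, f v < n := fun _ hv => ck_clK_lt h k hv
  have hr : ∀ v < n, rawC s k v < n := fun _ hv => ck_raw_lt h hv k
  have hnw : ∀ t, wCyc n s (f^[t] u) ≠ true := by
    intro t hc
    apply hw
    obtain ⟨r, hr'⟩ := ck_back (f := f) hper t
    have hall : ∀ (r : ℕ) (x : ℕ), x < n → wCyc n s x = true → wCyc n s (f^[r] x) = true := by
      intro r
      induction r with
      | zero => intro x _ hx; exact hx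
      | succ r ih =>
        intro x hx hxc
        rw [Function.iterate_succ_apply]
        exact ih _ (hf x hx) (ck_wCyc_f h hx hxc)
    have := hall r _ (ck_iter_lt hf hu t) hc
    rwa [hr'] at this
  -- the nodes of the orbit
  have hO : ∀ t, rawC s k (f^[t] u) = f (f^[t] u) ∧ rawC s k (f^[t] u) ≠ f^[t] u ∧
      selB n s k (f^[t] u) ≠ true := by
    intro t
    have hm := hmove t
    have hn := hnw t
    have e : f (f^[t] u) = if selB n s k (f^[t] u) = true then f^[t] u else rawC s k (f^[t] u) := by
      show clK n s k (f^[t] u) = _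
      unfold clK
      rw [if_neg hn]
    by_cases hs : selB n s k (f^[t] u) = true
    · rw [if_pos hs] at e
      exact absurd e hm
    · rw [if_neg hs] at e
      exact ⟨e.symm, by rw [← e]; exact hm, hs⟩
  have hrawiter : ∀ (i t : ℕ), (rawC s k)^[i] (f^[t] u) = f^[i] (f^[t] u) := by
    intro i
    induction i with
    | zero => intro t; rfl
    | succ i ih =>
      intro t
      rw [Function.iterate_succ_apply, Function.iterate_succ_apply, (hO t).1,
        ← Function.iterate_succ_apply' f t u, ih (t + 1), Function.iterate_succ_apply' f t u]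
  have hperO : ∀ t, f^[j + 1] (f^[t] u) = f^[t] u := by
    intro t
    rw [← Function.iterate_add_apply, Nat.add_comm, Function.iterate_add_apply, hper]
  have hclosed : ∀ t, closedK n s k (f^[t] u) = true := by
    intro t
    unfold closedK
    simp only [Bool.and_eq_true, Bool.not_eq_true']
    refine ⟨?_, by simpa using hnw t⟩
    rw [ck_rawL, ck_onCyc_map hr (ck_iter_lt hf hu t)]
    refine ⟨(hO t).2.1, j, ?_⟩
    rw [hrawiter, hperO]
  -- a candidate exists
  have hcand : ∃ t, cand s k (f^[t] u) = true := by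
    by_contra hnone
    have hall : ∀ t, colB s (2 * f^[t] u) = k := by
      by_contra hall
      push Not at hall
      obtain ⟨b, hb⟩ := hall
      have hb2 : colB s (2 * f^[b] u) = !k := by
        cases h1 : colB s (2 * f^[b] u) <;> cases k <;> simp_all
      apply hnone
      refine ⟨j + b, ?_⟩
      have hnext : f (f^[j + b] u) = f^[b] u := by
        rw [← Function.iterate_succ_apply' f (j + b) u]
        have e : (j + b).succ = (j + 1) + b := by omega
        rw [e, Function.iterate_add_apply, hperO]
      have hbig := hO (j + b)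
      obtain ⟨r1, r2⟩ := ck_raw_ne hbig.2.1
      have hphi : phi s k (f^[j + b] u) = f^[b] u := by
        rw [← r2, hbig.1, hnext]
      obtain ⟨_, t2, t3⟩ := ck_tail_even h (ck_iter_lt hf hu (j + b)) r1 hphi hb2
      have hne : f^[b] u ≠ f^[j + b] u := by
        rw [← hnext, ← hbig.1]
        exact hbig.2.1
      unfold cand
      simp only [Bool.and_eq_true, decide_eq_true_eq]
      refine ⟨⟨t2, ?_⟩, ?_⟩
      · rw [t3]; omega
      · rw [t3]; omega
    apply hw
    have hstep : ∀ t, wh s (f^[t] u) = f (f^[t] u) := by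
      intro t
      have hbig := hO t
      obtain ⟨r1, r2⟩ := ck_raw_ne hbig.2.1
      have hv : phi s k (f^[t] u) = f (f^[t] u) := by rw [← r2, hbig.1]
      have hcv : colB s (2 * f (f^[t] u)) = k := by
        rw [← Function.iterate_succ_apply' f t u]
        exact hall (t + 1)
      have he := ck_edge h (ck_iter_lt hf hu t) (ck_raw_phi_ne r1)
      have ht1 : tailS s k (f^[t] u) = 2 * f^[t] u := by
        unfold tailS
        simp [hall t]
      have ht2 : tailS s (!k) (phi s k (f^[t] u)) = 2 * f (f^[t] u) + 1 := by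
        rw [hv]
        unfold tailS
        cases k <;> simp [hcv]
      rw [ht1, ht2] at he
      unfold wh
      rw [he, if_pos (by omega), ck_vtx_odd]
    have hsame : ∀ t, (wh s)^[t] u = f^[t] u := by
      intro t
      induction t with
      | zero => rfl
      | succ t ih =>
        rw [Function.iterate_succ_apply', Function.iterate_succ_apply', ih, hstep]
    rw [ck_wCyc_iff h hu]
    refine ⟨?_, j, by rw [hsame, hper]⟩
    have := hstep 0
    simp only [Function.iterate_zero, id_eq] at this
    rw [this]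
    exact hmove 0
  -- an extremal candidate is selected
  set T : Finset ℕ := (Finset.range n).filter (fun x => (∃ t, f^[t] u = x) ∧ cand s k x = true)
    with hT
  have hTne : T.Nonempty := by
    obtain ⟨t, ht⟩ := hcand
    exact ⟨f^[t] u, Finset.mem_filter.2 ⟨Finset.mem_range.2 (ck_iter_lt hf hu t), ⟨t, rfl⟩, ht⟩⟩
  have hext : ∃ a ∈ T, ∀ v ∈ T, (if k = true then repE s v ≤ repE s a else repE s a ≤ repE s v) := by
    cases k with
    | true =>
      obtain ⟨a, ha, hmax⟩ := Finset.exists_max_image T (repE s) hTne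
      exact ⟨a, ha, fun v hv => by simpa using hmax v hv⟩
    | false =>
      obtain ⟨a, ha, hmin⟩ := Finset.exists_min_image T (repE s) hTne
      exact ⟨a, ha, fun v hv => by simpa using hmin v hv⟩
  obtain ⟨a, haT, haext⟩ := hext
  obtain ⟨_, ⟨t, rfl⟩, hac⟩ := Finset.mem_filter.1 haT
  apply (hO t).2.2
  unfold selB
  simp only [Bool.and_eq_true, List.all_eq_true]
  refine ⟨⟨hclosed t, hac⟩, ?_⟩
  intro v hv
  rw [ck_rawL] at hv
  obtain ⟨i, rfl⟩ := ck_mem_iter hr (ck_iter_lt hf hu t) hv
  by_cases hcv : cand s k ((rawC s k)^[i] (f^[t] u)) = true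
  · have hmemv : (rawC s k)^[i] (f^[t] u) ∈ T := by
      rw [hrawiter, ← Function.iterate_add_apply]
      rw [hrawiter, ← Function.iterate_add_apply] at hcv
      exact Finset.mem_filter.2 ⟨Finset.mem_range.2 (ck_iter_lt hf hu _), ⟨_, rfl⟩, hcv⟩
    have := haext _ hmemv
    cases k <;> simp at this ⊢ <;> exact Or.inr this
  · simp [hcv]

/-- (part G-CK) -/
theorem clK_pathSys_aux (h : ValidL n s) (k : Bool) : PathSys n ((range n).map (clK n s k)) := by
  refine ⟨by simp, ?_, ?_, ?_⟩
  · intro u hu
    rw [ck_app_map _ hu]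
    exact ck_clK_lt h k hu
  · intro u hu v hv he h1 h2
    rw [ck_app_map _ hu] at he h1
    rw [ck_app_map _ hv] at he h2
    exact ck_inj h k hu hv he h1 h2
  · intro u hu j hj
    have hf : ∀ v < n, clK n s k v < n := fun _ hv => ck_clK_lt h k hv
    rw [ck_powL_map hf hu] at hj
    rw [ck_app_map _ hu]
    by_contra hne
    have hmove : ∀ t, clK n s k ((clK n s k)^[t] u) ≠ (clK n s k)^[t] u := by
      intro t hfix
      obtain ⟨r, hr⟩ := ck_back (f := clK n s k) hj t
      have hall : ∀ r, (clK n s k)^[r] ((clK n s k)^[t] u) = (clK n s k)^[t] u := by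
        intro r
        induction r with
        | zero => rfl
        | succ r ih => rw [Function.iterate_succ_apply', ih, hfix]
      have e := hall r
      rw [hr] at e
      rw [← e] at hfix
      exact hne hfix
    by_cases hw : wCyc n s u = true
    · exact ck_acyc_whole h k hu hw hmove
    · exact ck_acyc_raw h k hu hw hj hmove

end Main

end Vale.Agent.Lib.P333G
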