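import Vale.Agent.Lib.P333G.Basic

/-!
(part G-CWEIGHT) The weights of the three classes add up to the value of the state.
Per node the three classes together carry the arcs of the two raw classes and the whole arc, and
the sum of these over all nodes is the value of the state (swap along edges between two in-slots,
and along whole arcs).
-/

namespace Vale.Agent.Lib.P333G

open List (range)
open Vale.Agent.Lib.P333F

variable {n : ℕ} {s : List ℕ}

private theorem sum_map_range (f : ℕ → ℕ) (m : ℕ) :
    ((range m).map f).sum = ∑ i ∈ Finset.range m, f i := by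
  induction m with
  | zero => simp
  | succ m ih =>
    rw [List.range_succ, List.map_append, List.sum_append, ih, Finset.sum_range_succ]
    simp

private theorem app_map_range (f : ℕ → ℕ) {m i : ℕ} (h : i < m) :
    app ((range m).map f) i = f i := by
  unfold app
  rw [List.getD_eq_getElem _ _ (by simpa using h)]
  simp

private theorem sum_two (F : ℕ → ℕ) (m : ℕ) :
    ∑ x ∈ Finset.range (2 * m), F x = ∑ u ∈ Finset.range m, (F (2 * u) + F (2 * u + 1)) := by
  induction m with
  | zero => simp
  | succ m ih =>
    rw [show 2 * (m + 1) = 2 * m + 1 + 1 by ring, Finset.sum_range_succ, Finset.sum_range_succ, ih,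
      Finset.sum_range_succ]
    ring

/-- The weight of the arc from `u` to `v`, no arc if `v = u`. -/
private def arcV (w : List (List ℕ)) (u v : ℕ) : ℕ := if v = u then 0 else mat w u v

private theorem classW_map (w : List (List ℕ)) (m : ℕ) (f : ℕ → ℕ) :
    classW w ((range m).map f) = ∑ u ∈ Finset.range m, arcV w u (f u) := by
  unfold classW
  rw [List.length_map, List.length_range, sum_map_range]
  refine Finset.sum_congr rfl fun u hu => ?_
  rw [app_map_range f (Finset.mem_range.1 hu)]
  rfl

private theorem wh_lt (h : ValidL n s) {v : ℕ} (hv : v < n) : wh s v < n := by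
  unfold wh
  split_ifs
  · have := h.lt (2 * v) (by omega)
    unfold vtx
    omega
  · exact hv

private theorem powL_whL_lt (h : ValidL n s) {u : ℕ} (hu : u < n) (k : ℕ) :
    powL (whL n s) k u < n := by
  induction k with
  | zero => simpa [powL_zero] using hu
  | succ k ih =>
    rw [powL_succ]
    have e : app (whL n s) (powL (whL n s) k u) = wh s (powL (whL n s) k u) :=
      app_map_range _ ih
    rw [e]
    exact wh_lt h ih

/-- The structure at a node on a cycle of whole arcs. -/
private theorem wCyc_facts (h : ValidL n s) {u : ℕ} (hu : u < n) (hc : wCyc n s u = true) :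
    wh s u ≠ u ∧ app s (2 * u) % 2 = 1 ∧ ∃ v, app s (2 * u + 1) = 2 * v ∧ v ≠ u := by
  unfold wCyc onCyc at hc
  simp only [Bool.and_eq_true, decide_eq_true_eq, List.any_eq_true, List.mem_range] at hc
  obtain ⟨h1, k, -, h2⟩ := hc
  have h1' : wh s u ≠ u := by
    unfold whL at h1
    rwa [app_map_range _ hu] at h1
  have hodd : app s (2 * u) % 2 = 1 := by
    by_contra hne
    apply h1'
    unfold wh
    rw [if_neg hne]
  refine ⟨h1', hodd, ?_⟩
  rw [powL_succ] at h2
  set v := powL (whL n s) k u with hv
  have hvlt : v < n := powL_whL_lt h hu k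
  have h3 : wh s v = u := by
    unfold whL at h2
    rwa [app_map_range _ hvlt] at h2
  have hvu : v ≠ u := by
    intro e
    rw [e] at h3
    exact h1' h3
  have hodd' : app s (2 * v) % 2 = 1 := by
    by_contra hne
    apply hvu
    unfold wh at h3
    rwa [if_neg hne] at h3
  have h4 : vtx (app s (2 * v)) = u := by
    unfold wh at h3
    rwa [if_pos hodd'] at h3
  have h5 : app s (2 * v) = 2 * u + 1 := by
    unfold vtx at h4
    omega
  refine ⟨v, ?_, hvu⟩
  rw [← h5]
  exact h.inv _ (by omega)

private theorem selB_cand {k : Bool} {u : ℕ} (hs : selB n s k u = true) :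
    colB s (2 * u) = k ∧ app s (2 * u) ≠ 2 * u ∧ app s (2 * u) % 2 = 0 := by
  unfold selB cand at hs
  simp only [Bool.and_eq_true, decide_eq_true_eq] at hs
  exact ⟨hs.1.2.1.1, hs.1.2.1.2, hs.1.2.2⟩

/-- Per node, the three classes carry the arcs of the raw classes and the whole arc. -/
private theorem per_node (h : ValidL n s) (w : List (List ℕ)) {u : ℕ} (hu : u < n) :
    arcV w u (clK n s false u) + arcV w u (clK n s true u) + arcV w u (cl3 n s u) =
      arcV w u (rawC s false u) + arcV w u (rawC s true u) + arcV w u (wh s u) := by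
  have hself : arcV w u u = 0 := by simp [arcV]
  by_cases hc : wCyc n s u = true
  · obtain ⟨h1, hodd, v, hv, hvu⟩ := wCyc_facts h hu hc
    have hA : ∀ k, colB s (2 * u) = k → rawC s k u = wh s u := by
      intro k hk
      have ht : tailS s k u = 2 * u := by
        unfold tailS
        rw [if_pos hk]
      have hp : phi s k u = wh s u := by
        unfold phi wh
        rw [ht, if_pos hodd]
      unfold rawC
      rw [if_pos, hp]
      unfold realB
      rw [hp, ht]
      simp [h1]
    have hB : ∀ k, colB s (2 * u) ≠ k → rawC s k u = u := by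
      intro k hk
      have ht : tailS s k u = 2 * u + 1 := by
        unfold tailS
        rw [if_neg hk]
      unfold rawC realB
      rw [if_neg]
      rw [ht, hv]
      simp
    have hK : ∀ k, clK n s k u = if colB s (2 * u) = k then
        (if isSecond n s u = true then u else wh s u)
        else (if (isRoot n s u || isSecond n s u) = true then wh s u else u) := by
      intro k
      unfold clK
      rw [if_pos hc]
    have h3 : cl3 n s u = if isRoot n s u = true then u else wh s u := by
      unfold cl3
      rw [if_pos hc]
    have hns : isRoot n s u = true → isSecond n s u = false := by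
      intro hr
      unfold isSecond
      simp [hr]
    rw [hK, hK, h3]
    cases hcol : colB s (2 * u) with
    | false =>
      rw [hA false hcol, hB true (by rw [hcol]; simp)]
      cases hr : isRoot n s u with
      | true =>
        simp [hns hr, hself]
      | false =>
        cases hs : isSecond n s u <;> simp [hself]
    | true =>
      rw [hA true hcol, hB false (by rw [hcol]; simp)]
      cases hr : isRoot n s u with
      | true =>
        simp [hns hr, hself]
      | false =>
        cases hs : isSecond n s u <;> simp [hself]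
  · have hK : ∀ k, clK n s k u = if selB n s k u = true then u else rawC s k u := by
      intro k
      unfold clK
      rw [if_neg hc]
    have h3 : cl3 n s u = if selB n s false u = true then rawC s false u
        else if selB n s true u = true then rawC s true u else wh s u := by
      unfold cl3
      rw [if_neg hc]
    rw [hK, hK, h3]
    by_cases hf : selB n s false u = true
    · have hcand := selB_cand hf
      have hnt : ¬ selB n s true u = true := by
        intro ht
        have := (selB_cand ht).1
        rw [hcand.1] at this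
        cases this
      have hw : wh s u = u := by
        unfold wh
        rw [if_neg (by rw [hcand.2.2]; norm_num)]
      rw [if_pos hf, if_neg hnt, if_pos hf, hw, hself]
      omega
    · rw [if_neg hf, if_neg hf]
      by_cases ht : selB n s true u = true
      · have hcand := selB_cand ht
        have hw : wh s u = u := by
          unfold wh
          rw [if_neg (by rw [hcand.2.2]; norm_num)]
        rw [if_pos ht, if_pos ht, hw, hself]
        omega
      · rw [if_neg ht, if_neg ht]

/-- The raw arc at the slot `x`. -/
private def gS (w : List (List ℕ)) (s : List ℕ) (x : ℕ) : ℕ :=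
  if vtx (app s x) ≠ vtx x ∧ ¬ (x % 2 = 1 ∧ app s x % 2 = 0) then
    mat w (vtx x) (vtx (app s x)) else 0

/-- The whole arc at the out-slot `x`. -/
private def eS (w : List (List ℕ)) (s : List ℕ) (x : ℕ) : ℕ :=
  if x % 2 = 0 ∧ app s x % 2 = 1 then mat w (vtx x) (vtx (app s x)) else 0

private theorem vtx_two (u : ℕ) : vtx (2 * u) = u := by unfold vtx; omega
private theorem vtx_two1 (u : ℕ) : vtx (2 * u + 1) = u := by unfold vtx; omega

private theorem raw_eq (w : List (List ℕ)) (k : Bool) (u : ℕ) :
    arcV w u (rawC s k u) = gS w s (tailS s k u) := by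
  have hv : vtx (tailS s k u) = u := by
    unfold tailS
    split_ifs
    · exact vtx_two u
    · exact vtx_two1 u
  have hr : realB s k u = true ↔ (vtx (app s (tailS s k u)) ≠ u ∧
      ¬ (tailS s k u % 2 = 1 ∧ app s (tailS s k u) % 2 = 0)) := by
    unfold realB phi
    simp only [Bool.and_eq_true, decide_eq_true_eq, Bool.not_eq_true', Bool.and_eq_false_iff,
      decide_eq_false_iff_not]
    constructor
    · rintro ⟨h1, h2⟩
      refine ⟨h1, ?_⟩
      rintro ⟨h3, h4⟩
      rcases h2 with h2 | h2
      · exact h2 h3
      · exact h2 h4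
    · rintro ⟨h1, h2⟩
      refine ⟨h1, ?_⟩
      by_cases h3 : tailS s k u % 2 = 1
      · right
        exact fun h4 => h2 ⟨h3, h4⟩
      · left
        exact h3
  unfold rawC arcV gS
  rw [hv]
  by_cases hP : vtx (app s (tailS s k u)) ≠ u ∧
      ¬ (tailS s k u % 2 = 1 ∧ app s (tailS s k u) % 2 = 0)
  · rw [if_pos (hr.2 hP), if_pos hP]
    unfold phi
    rw [if_neg hP.1]
  · rw [if_neg (fun e => hP (hr.1 e)), if_neg hP, if_pos rfl]

private theorem raw_sum (w : List (List ℕ)) (u : ℕ) :
    arcV w u (rawC s false u) + arcV w u (rawC s true u) = gS w s (2 * u) + gS w s (2 * u + 1) := by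
  rw [raw_eq, raw_eq]
  unfold tailS
  cases colB s (2 * u) <;> simp <;> omega

private theorem wh_eq (h : ValidL n s) (w : List (List ℕ)) {u : ℕ} (hu : u < n) :
    arcV w u (wh s u) = eS w s (2 * u) := by
  unfold eS arcV wh
  by_cases hodd : app s (2 * u) % 2 = 1
  · have hne : app s (2 * u) ≠ 2 * u := by
      intro e
      rw [e] at hodd
      omega
    have := h.nb (2 * u) (by omega) hne
    rw [vtx_two] at this
    simp [hodd, this, vtx_two]
  · simp [hodd]

/-- Involutions preserve sums. -/
private theorem sum_invol (h : ValidL n s) (f : ℕ → ℕ) :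
    ∑ x ∈ Finset.range (2 * n), f (app s x) = ∑ x ∈ Finset.range (2 * n), f x := by
  refine Finset.sum_nbij' (app s) (app s) ?_ ?_ ?_ ?_ ?_
  · intro x hx
    exact Finset.mem_range.2 (h.lt x (Finset.mem_range.1 hx))
  · intro x hx
    exact Finset.mem_range.2 (h.lt x (Finset.mem_range.1 hx))
  · intro x hx
    exact h.inv x (Finset.mem_range.1 hx)
  · intro x hx
    exact h.inv x (Finset.mem_range.1 hx)
  · intro x hx
    rfl

private def dS (w : List (List ℕ)) (s : List ℕ) (x : ℕ) : ℕ :=
  if x % 2 = 0 then gS w s x else 0

private def aS (w : List (List ℕ)) (s : List ℕ) (x : ℕ) : ℕ :=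
  if x % 2 = 1 ∧ app s x % 2 = 1 ∧ app s x ≠ x then mat w (vtx x) (vtx (app s x)) else 0

private def bS (w : List (List ℕ)) (s : List ℕ) (x : ℕ) : ℕ :=
  if x % 2 = 1 ∧ app s x % 2 = 1 ∧ app s x ≠ x then mat w (vtx (app s x)) (vtx x) else 0

private def cS (w : List (List ℕ)) (s : List ℕ) (x : ℕ) : ℕ :=
  if x % 2 = 1 ∧ app s x % 2 = 0 then mat w (vtx (app s x)) (vtx x) else 0

private theorem hg_aux (h : ValidL n s) (w : List (List ℕ)) {x : ℕ} (hx : x < 2 * n) :
    gS w s x = dS w s x + aS w s x := by
  unfold dS aS
  by_cases hpar : x % 2 = 0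
  · rw [if_pos hpar, if_neg (by omega), add_zero]
  · have h1 : x % 2 = 1 := by omega
    rw [if_neg hpar, zero_add]
    by_cases hfree : app s x = x
    · have : gS w s x = 0 := by
        unfold gS
        rw [if_neg]
        rw [hfree]
        tauto
      rw [this, if_neg]
      tauto
    · have hnb := h.nb x hx hfree
      by_cases hp : app s x % 2 = 1
      · rw [if_pos ⟨h1, hp, hfree⟩]
        unfold gS
        rw [if_pos]
        refine ⟨hnb, ?_⟩
        omega
      · have hp' : app s x % 2 = 0 := by omega
        rw [if_neg (by tauto)]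
        unfold gS
        rw [if_neg]
        tauto

private theorem hhw_aux (h : ValidL n s) (w : List (List ℕ)) {x : ℕ} (hx : x < 2 * n) :
    hw w x (app s x) = dS w s x + bS w s x + cS w s x := by
  by_cases hpar : x % 2 = 0
  · have hb : bS w s x = 0 := by
      unfold bS
      rw [if_neg]
      omega
    have hc : cS w s x = 0 := by
      unfold cS
      rw [if_neg]
      omega
    have hd : dS w s x = gS w s x := by
      unfold dS
      rw [if_pos hpar]
    rw [hb, hc, hd]
    unfold hw gS
    by_cases hfree : app s x = x
    · rw [if_pos hfree, if_neg, add_zero, add_zero]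
      rw [hfree]
      tauto
    · have hnb := h.nb x hx hfree
      rw [if_neg hfree, if_pos hpar, if_pos, add_zero, add_zero]
      refine ⟨hnb, ?_⟩
      omega
  · have h1 : x % 2 = 1 := by omega
    have hd : dS w s x = 0 := by
      unfold dS
      rw [if_neg hpar]
    rw [hd, zero_add]
    unfold hw bS cS
    by_cases hfree : app s x = x
    · rw [if_pos hfree, if_neg (by tauto), if_neg]
      rw [hfree]
      omega
    · rw [if_neg hfree, if_neg hpar]
      by_cases hp : app s x % 2 = 1
      · rw [if_pos ⟨h1, hp, hfree⟩, if_neg (by omega), add_zero]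
      · have hp' : app s x % 2 = 0 := by omega
        rw [if_neg (by tauto), if_pos ⟨h1, hp'⟩, zero_add]

/-- The sum over all nodes is the value of the state. -/
private theorem sum_slots (h : ValidL n s) (w : List (List ℕ)) :
    ∑ x ∈ Finset.range (2 * n), (gS w s x + eS w s x) = val2 w s := by
  have hab : ∑ x ∈ Finset.range (2 * n), bS w s x = ∑ x ∈ Finset.range (2 * n), aS w s x := by
    rw [← sum_invol h (bS w s)]
    refine Finset.sum_congr rfl fun x hx => ?_
    have hx' := Finset.mem_range.1 hx
    unfold aS bS
    rw [h.inv x hx']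
    by_cases hc : x % 2 = 1 ∧ app s x % 2 = 1 ∧ app s x ≠ x
    · rw [if_pos hc, if_pos ⟨hc.2.1, hc.1, fun e => hc.2.2 e.symm⟩]
    · rw [if_neg hc, if_neg]
      rintro ⟨h1, h2, h3⟩
      exact hc ⟨h2, h1, fun e => h3 e.symm⟩
  have hce : ∑ x ∈ Finset.range (2 * n), cS w s x = ∑ x ∈ Finset.range (2 * n), eS w s x := by
    rw [← sum_invol h (cS w s)]
    refine Finset.sum_congr rfl fun x hx => ?_
    have hx' := Finset.mem_range.1 hx
    unfold cS eS
    rw [h.inv x hx']
    by_cases hc : x % 2 = 0 ∧ app s x % 2 = 1
    · rw [if_pos hc, if_pos ⟨hc.2, hc.1⟩]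
    · rw [if_neg hc, if_neg]
      rintro ⟨h1, h2⟩
      exact hc ⟨h2, h1⟩
  unfold val2
  rw [h.len, sum_map_range]
  calc ∑ x ∈ Finset.range (2 * n), (gS w s x + eS w s x)
      = ∑ x ∈ Finset.range (2 * n), (dS w s x + aS w s x + eS w s x) :=
        Finset.sum_congr rfl fun x hx => by rw [hg_aux h w (Finset.mem_range.1 hx)]
    _ = ∑ x ∈ Finset.range (2 * n), dS w s x + ∑ x ∈ Finset.range (2 * n), aS w s x
          + ∑ x ∈ Finset.range (2 * n), eS w s x := by
        rw [Finset.sum_add_distrib, Finset.sum_add_distrib]
    _ = ∑ x ∈ Finset.range (2 * n), dS w s x + ∑ x ∈ Finset.range (2 * n), bS w s x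
          + ∑ x ∈ Finset.range (2 * n), cS w s x := by rw [hab, hce]
    _ = ∑ x ∈ Finset.range (2 * n), (dS w s x + bS w s x + cS w s x) := by
        rw [Finset.sum_add_distrib, Finset.sum_add_distrib]
    _ = ∑ x ∈ Finset.range (2 * n), hw w x (app s x) :=
        Finset.sum_congr rfl fun x hx => (hhw_aux h w (Finset.mem_range.1 hx)).symm

/-- The weights of the three classes add up to the value of the state. -/
theorem classes_weight_aux (h : ValidL n s) (w : List (List ℕ)) :
    ((classesOf n s).map (classW w)).sum = val2 w s := by
  unfold classesOf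
  simp only [List.map_cons, List.map_nil, List.sum_cons, List.sum_nil, add_zero]
  rw [classW_map, classW_map, classW_map, ← add_assoc, ← Finset.sum_add_distrib,
    ← Finset.sum_add_distrib, ← sum_slots h w, sum_two]
  refine Finset.sum_congr rfl fun u hu => ?_
  have hu' := Finset.mem_range.1 hu
  have h1 := per_node h w hu'
  have h2 := raw_sum (s := s) w u
  have h3 := wh_eq h w hu'
  have h4 : eS w s (2 * u + 1) = 0 := by
    unfold eS
    simp
  omega

end Vale.Agent.Lib.P333G
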