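import Vale.Agent.Lib.P333G.Color
import Vale.Agent.Lib.P333G.ClassC3
import Vale.Agent.Lib.P333G.ClassW
import Vale.Agent.Lib.P333G.ClassCK

/-!
(parts G-CWEIGHT, G-CK, G-C3) The three classes are path systems and their weights add up to the
value of the state.
-/

namespace Vale.Agent.Lib.P333G

open List (range)
open Vale.Agent.Lib.P333F

variable {n : ℕ} {s : List ℕ}

/-- (part G-CWEIGHT) -/
theorem classes_weight (h : ValidL n s) (w : List (List ℕ)) :
    ((classesOf n s).map (classW w)).sum = val2 w s :=
  classes_weight_aux h w

/-- (part G-CK) -/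
theorem clK_pathSys (h : ValidL n s) (k : Bool) : PathSys n ((range n).map (clK n s k)) :=
  clK_pathSys_aux h k

theorem classes_pathSys (h : ValidL n s) : ∀ p ∈ classesOf n s, PathSys n p := by
  intro p hp
  simp only [classesOf, List.mem_cons, List.not_mem_nil, or_false] at hp
  rcases hp with rfl | rfl | rfl
  · exact clK_pathSys h false
  · exact clK_pathSys h true
  · exact cl3_pathSys h

end Vale.Agent.Lib.P333G
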