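import Vale.Agent.Lib.P333G.Basic
import Vale.Agent.Lib.P333G.Invol

/-!
(part G-COLOR) The colouring is proper for `bar` and for the edges of a valid state.
-/

namespace Vale.Agent.Lib.P333G

open List (range)
open Vale.Agent.Lib.P333F

variable {n : ℕ} {s : List ℕ}

private theorem bar2_div (p : ℕ) : bar2 p / 2 = bar (p / 2) := by
  unfold bar2; omega

private theorem bar2_mod (p : ℕ) : bar2 p % 2 = p % 2 := by
  unfold bar2; omega

private theorem bar2_bar2 (p : ℕ) : bar2 (bar2 p) = p := by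
  have h1 : bar2 (bar2 p) = 2 * bar (bar2 p / 2) + bar2 p % 2 := rfl
  rw [h1, bar2_div, bar2_mod, bar_bar]
  omega

private theorem bar2_ne (p : ℕ) : bar2 p ≠ p := by
  intro h
  have h1 := bar2_div p
  rw [h] at h1
  exact bar_ne _ h1.symm

private theorem bar2_lt {p : ℕ} (hp : p < 4 * n) : bar2 p < 4 * n := by
  have h1 : p / 2 < 2 * n := by omega
  have h2 := bar_lt h1
  unfold bar2
  omega

private theorem s2_free {p : ℕ} (hf : app s (p / 2) = p / 2) :
    s2 s p = 2 * (p / 2) + (1 - p % 2) := by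
  unfold s2; rw [if_pos hf]

private theorem s2_nonfree {p : ℕ} (hf : app s (p / 2) ≠ p / 2) :
    s2 s p = 2 * app s (p / 2) + p % 2 := by
  unfold s2; rw [if_neg hf]

private theorem s2_lt (h : ValidL n s) {p : ℕ} (hp : p < 4 * n) : s2 s p < 4 * n := by
  have h1 : p / 2 < 2 * n := by omega
  by_cases hf : app s (p / 2) = p / 2
  · rw [s2_free hf]; omega
  · rw [s2_nonfree hf]
    have h2 := h.lt _ h1
    omega

private theorem s2_s2 (h : ValidL n s) {p : ℕ} (hp : p < 4 * n) : s2 s (s2 s p) = p := by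
  have h1 : p / 2 < 2 * n := by omega
  by_cases hf : app s (p / 2) = p / 2
  · have e : s2 s p = 2 * (p / 2) + (1 - p % 2) := s2_free hf
    have e1 : s2 s p / 2 = p / 2 := by omega
    have e2 : s2 s p % 2 = 1 - p % 2 := by omega
    rw [s2_free (p := s2 s p) (by rw [e1]; exact hf), e1, e2]
    omega
  · have e : s2 s p = 2 * app s (p / 2) + p % 2 := s2_nonfree hf
    have e1 : s2 s p / 2 = app s (p / 2) := by omega
    have e2 : s2 s p % 2 = p % 2 := by omega
    have h3 : app s (app s (p / 2)) = p / 2 := h.inv _ h1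
    have hf' : app s (s2 s p / 2) ≠ s2 s p / 2 := by
      rw [e1, h3]
      exact fun h4 => hf h4.symm
    rw [s2_nonfree hf', e1, e2, h3]
    omega

private theorem s2_ne (p : ℕ) : s2 s p ≠ p := by
  by_cases hf : app s (p / 2) = p / 2
  · rw [s2_free hf]; omega
  · rw [s2_nonfree hf]
    intro h1
    have h2 : app s (p / 2) = p / 2 := by omega
    exact hf h2

private theorem length_psiL : (psiL s).length = 2 * s.length := by
  simp [psiL]

private theorem app_psiL {p : ℕ} (hp : p < 2 * s.length) : app (psiL s) p = s2 s (bar2 p) := by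
  unfold app psiL
  rw [List.getD_eq_getElem _ _ (by simpa using hp)]
  simp

private theorem psiL_perm (h : ValidL n s) : (psiL s).Perm (range (4 * n)) := by
  have hlen : 2 * s.length = 4 * n := by rw [h.len]; ring
  have hnd : ((range (4 * n)).map (fun p => s2 s (bar2 p))).Nodup := by
    refine List.Nodup.map_on ?_ List.nodup_range
    intro a ha b hb hab
    have ha' := List.mem_range.1 ha
    have hb' := List.mem_range.1 hb
    have h1 : s2 s (s2 s (bar2 a)) = s2 s (s2 s (bar2 b)) := by rw [hab]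
    rw [s2_s2 h (bar2_lt ha'), s2_s2 h (bar2_lt hb')] at h1
    have h2 := congrArg bar2 h1
    rwa [bar2_bar2, bar2_bar2] at h2
  unfold psiL
  rw [hlen]
  refine (List.subperm_of_subset hnd ?_).perm_of_length_le (by simp)
  intro y hy
  obtain ⟨a, ha, rfl⟩ := List.mem_map.1 hy
  exact List.mem_range.2 (s2_lt h (bar2_lt (List.mem_range.1 ha)))

/-- The minimum of a nonempty list. -/
private theorem minL_spec {l : List ℕ} (hl : l ≠ []) : minL l ∈ l ∧ ∀ y ∈ l, minL l ≤ y := by
  obtain ⟨m, hm, hmin⟩ : ∃ m ∈ l, ∀ y ∈ l, m ≤ y := by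
    refine ⟨l.minimum_of_length_pos (List.length_pos_iff.2 hl), ?_, ?_⟩
    · exact List.minimum_of_length_pos_mem _
    · intro y hy
      exact List.minimum_of_length_pos_le_of_mem hy _
  have hfil : l.filter (fun x => l.all (fun y => decide (x ≤ y))) ≠ [] := by
    intro h0
    have : m ∈ l.filter (fun x => l.all (fun y => decide (x ≤ y))) := by
      refine List.mem_filter.2 ⟨hm, ?_⟩
      rw [List.all_eq_true]
      intro y hy
      exact decide_eq_true (hmin y hy)
    rw [h0] at this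
    simp at this
  have hpos : 0 < (l.filter (fun x => l.all (fun y => decide (x ≤ y)))).length :=
    List.length_pos_iff.2 hfil
  have hmem : minL l ∈ l.filter (fun x => l.all (fun y => decide (x ≤ y))) := by
    unfold minL
    rw [List.getD_eq_getElem _ _ hpos]
    exact List.getElem_mem _
  have h2 := List.mem_filter.1 hmem
  refine ⟨h2.1, fun y hy => ?_⟩
  have h3 := List.all_eq_true.1 h2.2 y hy
  exact of_decide_eq_true h3

private theorem minL_congr {l l' : List ℕ} (hl : l ≠ []) (hl' : l' ≠ [])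
    (hmem : ∀ z, z ∈ l ↔ z ∈ l') : minL l = minL l' := by
  obtain ⟨h1, h2⟩ := minL_spec hl
  obtain ⟨h3, h4⟩ := minL_spec hl'
  exact le_antisymm (h2 _ ((hmem _).2 h3)) (h4 _ ((hmem _).1 h1))

private theorem iterL_ne (h : ValidL n s) {a : ℕ} (ha : a < 4 * n) : iterL (psiL s) a ≠ [] := by
  have hlen : (psiL s).length = 4 * n := by rw [length_psiL, h.len]; ring
  unfold iterL
  intro h0
  have := congrArg List.length h0
  simp [hlen] at this
  omega

private theorem mem_iter_iff (h : ValidL n s) {a z : ℕ} (ha : a < 4 * n) :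
    z ∈ iterL (psiL s) a ↔ ∃ hz : z < 4 * n,
      (permOfL (psiL_perm h)).SameCycle (⟨a, ha⟩ : Fin (4 * n)) ⟨z, hz⟩ := by
  constructor
  · intro hz
    have hz' := iterL_lt (psiL_perm h) ha hz
    exact ⟨hz', (mem_iterL (psiL_perm h) ⟨a, ha⟩ ⟨z, hz'⟩).1 hz⟩
  · rintro ⟨hz, hc⟩
    exact (mem_iterL (psiL_perm h) ⟨a, ha⟩ ⟨z, hz⟩).2 hc

private theorem minL_of_same (h : ValidL n s) {a b : ℕ} (ha : a < 4 * n) (hb : b < 4 * n)
    (hc : (permOfL (psiL_perm h)).SameCycle (⟨a, ha⟩ : Fin (4 * n)) ⟨b, hb⟩) :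
    minL (iterL (psiL s) a) = minL (iterL (psiL s) b) := by
  refine minL_congr (iterL_ne h ha) (iterL_ne h hb) fun z => ?_
  rw [mem_iter_iff h ha, mem_iter_iff h hb]
  constructor
  · rintro ⟨hz, hzc⟩
    exact ⟨hz, hc.symm.trans hzc⟩
  · rintro ⟨hz, hzc⟩
    exact ⟨hz, hc.trans hzc⟩

private theorem not_same (h : ValidL n s) {a : ℕ} (ha : a < 4 * n) :
    ¬ (permOfL (psiL_perm h)).SameCycle (⟨a, ha⟩ : Fin (4 * n)) ⟨bar2 a, bar2_lt ha⟩ := by
  intro hc
  let c : Fin (4 * n) → Fin (4 * n) := fun p => ⟨bar2 p, bar2_lt p.2⟩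
  let l : Fin (4 * n) → Fin (4 * n) := fun p => ⟨s2 s p, s2_lt h p.2⟩
  have hcI : Function.Involutive c := fun p => Fin.ext (bar2_bar2 _)
  have hlI : Function.Involutive l := fun p => Fin.ext (s2_s2 h p.2)
  have hc1 : ∀ y, c y ≠ y := fun p e => bar2_ne (p : ℕ) (congrArg Fin.val e)
  have hl1 : ∀ y, l y ≠ y := fun p e => s2_ne (s := s) (p : ℕ) (congrArg Fin.val e)
  have hinv : prodPerm c l hcI hlI = (permOfL (psiL_perm h))⁻¹ := by
    rw [eq_inv_iff_mul_eq_one]
    ext p
    have hlen : (p : ℕ) < 2 * s.length := by rw [h.len]; have := p.2; omega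
    simp only [Equiv.Perm.coe_mul, Function.comp_apply, prodPerm_apply,
      Equiv.Perm.coe_one, id_eq]
    show bar2 (s2 s (app (psiL s) p)) = p
    rw [app_psiL hlen, s2_s2 h (bar2_lt p.2), bar2_bar2]
  have hc' : ((permOfL (psiL_perm h))⁻¹).SameCycle (⟨a, ha⟩ : Fin (4 * n)) ⟨bar2 a, bar2_lt ha⟩ :=
    Equiv.Perm.sameCycle_inv.2 hc
  obtain ⟨k, -, hk⟩ := hc'.exists_pow_eq'
  rw [← hinv] at hk
  exact pow_ne_c hcI hlI hc1 hl1 k ⟨a, ha⟩ hk

private theorem minL_ne (h : ValidL n s) {a : ℕ} (ha : a < 4 * n) :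
    minL (iterL (psiL s) a) ≠ minL (iterL (psiL s) (bar2 a)) := by
  intro he
  have h1 := (minL_spec (iterL_ne h ha)).1
  have h2 := (minL_spec (iterL_ne h (bar2_lt ha))).1
  rw [← he] at h2
  obtain ⟨hz, hc1⟩ := (mem_iter_iff h ha).1 h1
  obtain ⟨hz', hc2⟩ := (mem_iter_iff h (bar2_lt ha)).1 h2
  exact not_same h ha (hc1.trans hc2.symm)

private theorem decide_lt_swap {A B : ℕ} (hne : A ≠ B) : decide (B < A) = !decide (A < B) := by
  rcases lt_or_gt_of_ne hne with h | h
  · simp [h, h.le]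
  · simp [h, h.le]

theorem colB_bar (h : ValidL n s) {x : ℕ} (hx : x < 2 * n) : colB s (bar x) = !colB s x := by
  have hx4 : 2 * x < 4 * n := by omega
  have e1 : 2 * bar x = bar2 (2 * x) := by
    unfold bar2
    have h1 : 2 * x / 2 = x := by omega
    have h2 : 2 * x % 2 = 0 := by omega
    rw [h1, h2]
    omega
  have e2 : bar2 (2 * bar x) = 2 * x := by
    rw [e1, bar2_bar2]
  unfold colB
  rw [e2, e1]
  exact decide_lt_swap (minL_ne h hx4)

theorem colB_edge (h : ValidL n s) {x : ℕ} (hx : x < 2 * n) (hf : app s x ≠ x) :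
    colB s (app s x) = !colB s x := by
  have hx4 : 2 * x < 4 * n := by omega
  have hlen4 : 2 * s.length = 4 * n := by rw [h.len]; ring
  obtain ⟨y, hy⟩ : ∃ y, y = app s x := ⟨_, rfl⟩
  have hyl : y < 2 * n := by rw [hy]; exact h.lt x hx
  have hy4 : 2 * y < 4 * n := by omega
  have hyx : y ≠ x := by rw [hy]; exact hf
  have hsy : app s y = x := by rw [hy]; exact h.inv x hx
  have hdx : 2 * x / 2 = x := by omega
  have hmx : 2 * x % 2 = 0 := by omega
  have hdy : 2 * y / 2 = y := by omega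
  have hmy : 2 * y % 2 = 0 := by omega
  have s2x : s2 s (2 * x) = 2 * y := by
    rw [s2_nonfree (by rw [hdx]; exact hf), hdx, hmx, ← hy, add_zero]
  have s2y : s2 s (2 * y) = 2 * x := by
    rw [s2_nonfree (by rw [hdy, hsy]; exact fun h0 => hyx h0.symm), hdy, hmy, hsy, add_zero]
  -- `2 * y` is in the orbit of `bar2 (2 * x)`; `bar2 (2 * y)` is in the orbit of `2 * x`
  have step : ∀ a (ha : a < 4 * n), (permOfL (psiL_perm h)).SameCycle
      (⟨a, ha⟩ : Fin (4 * n)) ⟨s2 s (bar2 a), s2_lt h (bar2_lt ha)⟩ := by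
    intro a ha
    refine ⟨1, ?_⟩
    apply Fin.ext
    simp only [zpow_one, permOfL_val]
    exact app_psiL (by omega)
  have o1 : minL (iterL (psiL s) (bar2 (2 * x))) = minL (iterL (psiL s) (2 * y)) := by
    have := step (bar2 (2 * x)) (bar2_lt hx4)
    have h2 := minL_of_same h (bar2_lt hx4) (s2_lt h (bar2_lt (bar2_lt hx4))) this
    rwa [bar2_bar2, s2x] at h2
  have o2 : minL (iterL (psiL s) (bar2 (2 * y))) = minL (iterL (psiL s) (2 * x)) := by
    have := step (bar2 (2 * y)) (bar2_lt hy4)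
    have h2 := minL_of_same h (bar2_lt hy4) (s2_lt h (bar2_lt (bar2_lt hy4))) this
    rwa [bar2_bar2, s2y] at h2
  rw [← hy]
  unfold colB
  rw [o2, ← o1]
  exact decide_lt_swap (minL_ne h hx4)

end Vale.Agent.Lib.P333G
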