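import Vale.Agent.Lib.P333F.Defs

/-!
P333G: an approximation algorithm for maximum weight Hamiltonian paths with ratio arbitrarily close
to `2/3`, by local search on half-edge states and a three-colouring of the result.
See notes/P333G_blueprint.md. Slot `2 * u` is the out-slot of the node `u`, slot `2 * u + 1` its
in-slot.
-/

namespace Vale.Agent.Lib.P333G

open List (range)
open Vale.Agent.Lib.P333F

/-- The node of a slot. -/
def vtx (x : ℕ) : ℕ := x / 2

/-- The other slot of the same node. -/
def bar (x : ℕ) : ℕ := if x % 2 = 0 then x + 1 else x - 1

/-- The weight of the half-edge at the slot `x` towards the node of the slot `y`. -/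
def hw (w : List (List ℕ)) (x y : ℕ) : ℕ :=
  if y = x then 0
  else if x % 2 = 0 then mat w (vtx x) (vtx y) else mat w (vtx y) (vtx x)

/-- The value of a state: the sum of the weights of all its half-edges (twice the usual value). -/
def val2 (w : List (List ℕ)) (s : List ℕ) : ℕ :=
  ((range s.length).map (fun x => hw w x (app s x))).sum

/-- Test of validity: an involution on the slots of `n` nodes, no edge inside a node, and no edge
together with its image under `bar`. -/
def validB (n : ℕ) (s : List ℕ) : Bool :=
  decide (s.length = 2 * n) && (range (2 * n)).all (fun x =>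
    decide (app s x < 2 * n) && decide (app s (app s x) = x) &&
      (decide (app s x = x) ||
        (decide (vtx (app s x) ≠ vtx x) && decide (app s (bar x) ≠ bar (app s x)))))

/-- Look up the key `x` in the list of assignments `A`. -/
def lookupD (A : List (ℕ × ℕ)) (x d : ℕ) : ℕ :=
  ((A.filter (fun e => decide (e.1 = x))).map Prod.snd).getD 0 d

/-- Overwrite the state on some slots. -/
def applyL (s : List ℕ) (A : List (ℕ × ℕ)) : List ℕ :=
  (range s.length).map (fun x => lookupD A x (app s x))

/-- All pairs of slots. -/
def pairsN (n : ℕ) : List (ℕ × ℕ) :=
  (range (2 * n)).flatMap (fun x => (range (2 * n)).map (fun y => (x, y)))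

/-- All lists of length at most `k` over `E`. -/
def tuplesL {β : Type} : ℕ → List β → List (List β)
  | 0, _ => [[]]
  | k + 1, E => tuplesL k E ++ E.flatMap (fun e => (tuplesL k E).map (fun l => e :: l))

/-- All valid states differing from `s` on at most `K` slots. -/
def lsCands (K : ℕ) (w : List (List ℕ)) (s : List ℕ) : List (List ℕ) :=
  ((tuplesL K (pairsN w.length)).map (applyL s)).filter (validB w.length)

/-- The best neighbour of `s`. -/
def lsBest (K : ℕ) (w : List (List ℕ)) (s : List ℕ) : List ℕ :=
  bestBy (val2 w) s (lsCands K w s)

/-- One step of local search. -/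
def stepLS (K : ℕ) (w : List (List ℕ)) (s : List ℕ) : List ℕ :=
  if val2 w s < val2 w (lsBest K w s) then lsBest K w s else s

/-- A bound for the number of rounds: larger than all values of states. -/
def lsBound (w : List (List ℕ)) : ℕ := 2 * w.length * bigM w + 1

/-- Local search from the empty state. -/
def lsRun (K : ℕ) (w : List (List ℕ)) : List ℕ :=
  (range (lsBound w)).foldr (fun _ s => stepLS K w s) (range (2 * w.length))

/-! ### Two-colouring of the state together with `bar`, by doubling the slots -/

/-- `bar` on doubled slots `2 * x + i`. -/
def bar2 (p : ℕ) : ℕ := 2 * bar (p / 2) + p % 2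

/-- The state on doubled slots: a free slot is joined to its other copy. -/
def s2 (s : List ℕ) (p : ℕ) : ℕ :=
  if app s (p / 2) = p / 2 then 2 * (p / 2) + (1 - p % 2) else 2 * app s (p / 2) + p % 2

/-- The product of the two involutions. -/
def psiL (s : List ℕ) : List ℕ := (range (2 * s.length)).map (fun p => s2 s (bar2 p))

/-- The minimum of a list, `0` on the empty list. -/
def minL (l : List ℕ) : ℕ := (l.filter (fun x => l.all (fun y => decide (x ≤ y)))).getD 0 0

/-- The colour of a slot: different at the two ends of each edge and on the two slots of a node. -/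
def colB (s : List ℕ) (x : ℕ) : Bool :=
  decide (minL (iterL (psiL s) (2 * x)) < minL (iterL (psiL s) (bar2 (2 * x))))

/-! ### The three classes -/

/-- The slot of `u` with colour `k`. -/
def tailS (s : List ℕ) (k : Bool) (u : ℕ) : ℕ := if colB s (2 * u) = k then 2 * u else 2 * u + 1

/-- The node joined to `u` through its slot of colour `k`; `u` itself if that slot is free. -/
def phi (s : List ℕ) (k : Bool) (u : ℕ) : ℕ := vtx (app s (tailS s k u))

/-- The arc from `u` to `phi s k u` is an arc of the state (not a reversed whole arc). -/
def realB (s : List ℕ) (k : Bool) (u : ℕ) : Bool :=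
  decide (phi s k u ≠ u) &&
    !(decide (tailS s k u % 2 = 1) && decide (app s (tailS s k u) % 2 = 0))

/-- The raw class `k`, as a successor function with fixed points for no arc. -/
def rawC (s : List ℕ) (k : Bool) (u : ℕ) : ℕ := if realB s k u = true then phi s k u else u

/-- The whole arc out of `u`, `u` itself if there is none. -/
def wh (s : List ℕ) (u : ℕ) : ℕ := if app s (2 * u) % 2 = 1 then vtx (app s (2 * u)) else u

/-- The successor lists. -/
def whL (n : ℕ) (s : List ℕ) : List ℕ := (range n).map (wh s)

def rawL (n : ℕ) (s : List ℕ) (k : Bool) : List ℕ := (range n).map (rawC s k)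

/-- `u` lies on a cycle of the successor list `p`. -/
def onCyc (p : List ℕ) (u : ℕ) : Bool :=
  decide (app p u ≠ u) && (range p.length).any (fun k => decide (powL p (k + 1) u = u))

/-- `u` lies on a cycle of whole arcs. -/
def wCyc (n : ℕ) (s : List ℕ) (u : ℕ) : Bool := onCyc (whL n s) u

/-- The smallest node of a cycle of whole arcs. -/
def isRoot (n : ℕ) (s : List ℕ) (u : ℕ) : Bool :=
  wCyc n s u && (iterL (whL n s) u).all (fun v => decide (u ≤ v))

/-- The second smallest node of a cycle of whole arcs. -/
def isSecond (n : ℕ) (s : List ℕ) (u : ℕ) : Bool :=
  wCyc n s u && !isRoot n s u &&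
    (iterL (whL n s) u).all (fun v => isRoot n s v || decide (u ≤ v))

/-- `u` lies on a cycle of the raw class `k` which is not a cycle of whole arcs. -/
def closedK (n : ℕ) (s : List ℕ) (k : Bool) (u : ℕ) : Bool :=
  onCyc (rawL n s k) u && !wCyc n s u

/-- The arc of class `k` out of `u` belongs to an edge between two out-slots. -/
def cand (s : List ℕ) (k : Bool) (u : ℕ) : Bool :=
  decide (colB s (2 * u) = k) && decide (app s (2 * u) ≠ 2 * u) && decide (app s (2 * u) % 2 = 0)

/-- A name of that edge. -/
def repE (s : List ℕ) (u : ℕ) : ℕ :=
  if u ≤ vtx (app s (2 * u)) then u else vtx (app s (2 * u))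

/-- The arc out of `u` is the arc selected on its cycle of the raw class `k`: smallest name in class
`false`, largest name in class `true`. -/
def selB (n : ℕ) (s : List ℕ) (k : Bool) (u : ℕ) : Bool :=
  closedK n s k u && cand s k u &&
    (iterL (rawL n s k) u).all (fun v => !cand s k v ||
      (if k = true then decide (repE s v ≤ repE s u) else decide (repE s u ≤ repE s v)))

/-- The final class `k`. -/
def clK (n : ℕ) (s : List ℕ) (k : Bool) (u : ℕ) : ℕ :=
  if wCyc n s u = true then
    (if colB s (2 * u) = k then (if isSecond n s u = true then u else wh s u)
     else (if (isRoot n s u || isSecond n s u) = true then wh s u else u))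
  else if selB n s k u = true then u else rawC s k u

/-- The third class. -/
def cl3 (n : ℕ) (s : List ℕ) (u : ℕ) : ℕ :=
  if wCyc n s u = true then (if isRoot n s u = true then u else wh s u)
  else if selB n s false u = true then rawC s false u
  else if selB n s true u = true then rawC s true u
  else wh s u

/-- The three classes as successor lists. -/
def classesOf (n : ℕ) (s : List ℕ) : List (List ℕ) :=
  [(range n).map (clK n s false), (range n).map (clK n s true), (range n).map (cl3 n s)]

/-- The weight of a successor list. -/
def classW (w : List (List ℕ)) (p : List ℕ) : ℕ :=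
  ((range p.length).map (fun u => if app p u = u then 0 else mat w u (app p u))).sum

/-! ### From a successor list to an order of the nodes -/

/-- The number of nodes on the path from `u`. -/
def lenS (p : List ℕ) (u : ℕ) : ℕ :=
  ((range p.length).filter (fun k => decide (powL p k u ≠ powL p (k + 1) u))).length + 1

/-- The path from `u`. -/
def walkS (p : List ℕ) (u : ℕ) : List ℕ := (range (lenS p u)).map (fun k => powL p k u)

/-- The nodes without an arc coming in. -/
def startsS (p : List ℕ) : List ℕ :=
  (range p.length).filter (fun u => (range p.length).all (fun v => decide (v = u) || decide (app p v ≠ u)))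

/-- All paths one after the other. -/
def orderS (p : List ℕ) : List ℕ := (startsS p).flatMap (walkS p)

/-- The approximation algorithm for maximum weight Hamiltonian paths, with parameter `R`. -/
def atspLS (R : ℕ) (w : List (List ℕ)) : List ℕ :=
  orderS (bestBy (classW w) (range w.length) (classesOf w.length (lsRun (2 * R + 2) w)))

end Vale.Agent.Lib.P333G
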