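import Vale.Agent.Lib.P333G.PT
import Vale.Agent.Lib.P333G.Atsp
import Vale.Agent.Lib.P333F.StrSpec

/-!
The algorithm for strings: polynomial time, and the guarantee.
-/

namespace Vale.Agent.Lib.P333G

open Vale.Agent.Lib.P310.M Vale.Agent.Lib.P333F

variable {γ : Type} [Enc γ] [DecidableEq γ]

/-- The algorithm for strings, with any polynomial time algorithm for Hamiltonian paths. -/
theorem scsWith_pt {alg : List (List ℕ) → List ℕ} (h : PT alg) :
    PT (scsWith alg : List (List γ) → List γ) := by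
  have h1 : ∀ {β : Type} [Enc β] {W : β → List (List ℕ)}, PT W → PT (fun a => alg (W a)) :=
    fun hW => h.comp hW
  unfold scsWith mergeWith
  refine PT.comp (g := fun S : List (List γ) => openAll (antichainL S))
    (f := fun M : List (List γ) => mergeL ((alg (ovMat M)).map (fun i => M.getD i []))) ?_ (by fun_prop)
  have h2 : PT (fun M : List (List γ) => alg (ovMat M)) := h1 (by fun_prop)
  fun_prop

/-- The guarantee: ratio `7/3 + 4/(R+1)`. -/
theorem scsLS_spec (R : ℕ) (hR : 5 ≤ R) (S : List (List γ)) :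
    (∀ s ∈ S, s <:+: scsWith (atspLS R) S) ∧
      ∀ Ω : List γ, (∀ s ∈ S, s <:+: Ω) →
        3 * (R + 1) * (scsWith (atspLS R) S).length ≤ (7 * R + 19) * Ω.length := by
  have h := scsWith_spec (atspLS R) (2 * (R - 5)) (3 * (R + 1)) (by omega) (by omega)
    (atspLS_perm R) (fun w P hP => atspLS_spec R w hP) S
  refine ⟨h.1, fun Ω hΩ => ?_⟩
  have h2 := h.2 Ω hΩ
  have h3 : 3 * (3 * (R + 1)) - 2 * (R - 5) = 7 * R + 19 := by omega
  rwa [h3] at h2

/-- Arithmetic of the ratio. -/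
theorem ratio_arith {L T R : ℕ} {ε : ℚ} (hε : 0 < ε) (hR : 4 / ε < (R : ℚ) + 1)
    (h : 3 * (R + 1) * L ≤ (7 * R + 19) * T) : (L : ℚ) ≤ (7 / 3 + ε) * T := by
  have h4 : ((3 * (R + 1) * L : ℕ) : ℚ) ≤ (((7 * R + 19) * T : ℕ) : ℚ) := by exact_mod_cast h
  push_cast at h4
  have hRq : (0 : ℚ) < (R : ℚ) + 1 := by positivity
  have h5 : (4 : ℚ) ≤ ε * ((R : ℚ) + 1) := by
    rw [div_lt_iff₀ hε] at hR
    linarith
  have hT0 : (0 : ℚ) ≤ (T : ℚ) := by positivity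
  have h7 : (7 * (R : ℚ) + 19) ≤ 3 * ((R : ℚ) + 1) * (7 / 3 + ε) := by nlinarith
  have h6 : (3 : ℚ) * ((R : ℚ) + 1) * (L : ℚ) ≤ 3 * ((R : ℚ) + 1) * ((7 / 3 + ε) * (T : ℚ)) := by
    calc _ ≤ (7 * (R : ℚ) + 19) * (T : ℚ) := h4
      _ ≤ 3 * ((R : ℚ) + 1) * (7 / 3 + ε) * (T : ℚ) := mul_le_mul_of_nonneg_right h7 hT0
      _ = _ := by ring
  have h8 : (0 : ℚ) < 3 * ((R : ℚ) + 1) := by positivity
  exact le_of_mul_le_mul_left h6 h8

/-- The algorithm for strings with ratio `7/3 + ε`. -/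
theorem exists_alg (ε : ℚ) (hε : 0 < ε) :
    ∃ A : List (List γ) → List γ, PT A ∧
      ∀ S : List (List γ), (∀ s ∈ S, s <:+: A S) ∧
        ∀ T : List γ, (∀ s ∈ S, s <:+: T) → ((A S).length : ℚ) ≤ (7 / 3 + ε) * T.length := by
  obtain ⟨m, hm⟩ := exists_nat_gt (4 / ε)
  have hR : 4 / ε < ((m + 5 : ℕ) : ℚ) + 1 := by
    push_cast
    linarith
  refine ⟨scsWith (atspLS (m + 5)), scsWith_pt (atspLS_pt (m + 5)), fun S => ?_⟩
  obtain ⟨h1, h2⟩ := scsLS_spec (γ := γ) (m + 5) (by omega) S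
  exact ⟨h1, fun T hT => ratio_arith hε hR (h2 T hT)⟩

end Vale.Agent.Lib.P333G
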