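import Mathlib

/-!
(part G-FLIP) The abstract model: slots `X` with a fixed point free involution `bar`, states,
comparators, and the flip of a state along a set of slots.
-/

namespace Vale.Agent.Lib.P333G

variable {X : Type} [Fintype X] [DecidableEq X]

/-- The slots and the weights of half-edges; the weight depends only on the node of the far end. -/
structure SlotSys (bar : X → X) (h : X → X → ℕ) : Prop where
  bb : ∀ x, bar (bar x) = x
  ne : ∀ x, bar x ≠ x
  hb : ∀ x y, h x (bar y) = h x y

/-- A state: an involution (fixed points are free slots), no edge `{x, bar x}`, no edge together with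
its image under `bar`. -/
structure ValidS (bar s : X → X) : Prop where
  inv : ∀ x, s (s x) = x
  nb : ∀ x, s x ≠ x → s x ≠ bar x
  tok : ∀ x, s x ≠ x → s (bar x) ≠ bar (s x)

/-- The weight at the slot `x` in the state `s`. -/
def sv (h : X → X → ℕ) (s : X → X) (x : X) : ℕ := if s x = x then 0 else h x (s x)

/-- The value of a state. -/
def valS (h : X → X → ℕ) (s : X → X) : ℕ := ∑ x, sv h s x

/-- A comparator: a fixed point free involution with real and virtual edges. -/
structure CompS (bar t : X → X) (RT : X → Prop) : Prop where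
  inv : ∀ x, t (t x) = x
  ne : ∀ x, t x ≠ x
  rt : ∀ x, RT (t x) ↔ RT x
  nb : ∀ x, RT x → t x ≠ bar x
  tok : ∀ x, RT x → RT (bar x) → t (bar x) ≠ bar (t x)

open Classical in
/-- The weight at the slot `x` in the comparator. -/
noncomputable def tv (h : X → X → ℕ) (t : X → X) (RT : X → Prop) (x : X) : ℕ :=
  if RT x then h x (t x) else 0

/-- The edge of `s` at `x` and the edge of `t` at `bar x` are images of each other under `bar`. -/
def MxS (bar s t : X → X) (RT : X → Prop) (x : X) : Prop :=
  s x ≠ x ∧ RT (bar x) ∧ t (bar x) = bar (s x)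

open Classical in
/-- The state after flipping: slots of `A` use the comparator, slots of `D` lose their old edge. -/
noncomputable def flip (bar s t : X → X) (RT : X → Prop) (D A : Finset X) (x : X) : X :=
  if x ∈ A then (if RT x then (if t x ∈ A then t x else bar (t x)) else x)
  else if x ∈ D then x
  else if s x = x then x
  else if s x ∈ D then bar (s x) else s x

/-- The conditions on a flip. -/
structure FlipOK (bar s t : X → X) (RT : X → Prop) (D A : Finset X) : Prop where
  sub : A ⊆ D
  f1 : ∀ x, s x ≠ x → ¬ MxS bar s t RT x → (x ∈ D ↔ s x ∈ D)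
  f2 : ∀ y, RT y → ¬ MxS bar s t RT (bar y) → (y ∈ A ↔ t y ∈ A)
  f3 : ∀ x, MxS bar s t RT x → (x ∈ D ↔ bar x ∈ A)

variable {bar s t : X → X} {h : X → X → ℕ} {RT : X → Prop} {D A : Finset X}

section cases

variable {x : X}

theorem flip_a (hx : x ∈ A) (hr : RT x) (hy : t x ∈ A) : flip bar s t RT D A x = t x := by
  simp [flip, hx, hr, hy]

theorem flip_b (hx : x ∈ A) (hr : RT x) (hy : t x ∉ A) : flip bar s t RT D A x = bar (t x) := by
  simp [flip, hx, hr, hy]

theorem flip_c (hx : x ∈ A) (hr : ¬ RT x) : flip bar s t RT D A x = x := by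
  simp [flip, hx, hr]

theorem flip_d (hx : x ∉ A) (hd : x ∈ D) : flip bar s t RT D A x = x := by
  simp [flip, hx, hd]

theorem flip_e (hx : x ∉ A) (hd : x ∉ D) (he : s x = x) : flip bar s t RT D A x = x := by
  simp [flip, hx, hd, he]

theorem flip_f (hx : x ∉ A) (hd : x ∉ D) (he : s x ≠ x) (hy : s x ∉ D) :
    flip bar s t RT D A x = s x := by
  simp [flip, hx, hd, he, hy]

theorem flip_g (hx : x ∉ A) (hd : x ∉ D) (he : s x ≠ x) (hy : s x ∈ D) :
    flip bar s t RT D A x = bar (s x) := by
  simp [flip, hx, hd, he, hy]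

/-- In the mixed case of a slot of `A`: the old edge at `bar x` is the `bar`-image of `t`. -/
theorem mixed_b (hb : SlotSys bar h) (hs : ValidS bar s) (ht : CompS bar t RT)
    (hf : FlipOK bar s t RT D A) (hx : x ∈ A) (hr : RT x) (hy : t x ∉ A) :
    s (bar x) = bar (t x) ∧ s (bar x) ≠ bar x ∧ bar x ∈ D := by
  have hm : MxS bar s t RT (bar x) := by
    by_contra hn
    have := hf.f2 x hr (by simpa [hb.bb] using hn)
    exact hy (this.1 hx)
  obtain ⟨h1, h2, h3⟩ := hm
  rw [hb.bb] at h3
  have h4 : s (bar x) = bar (t x) := by rw [h3, hb.bb]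
  refine ⟨h4, h1, ?_⟩
  have hm' : MxS bar s t RT (bar x) := ⟨h1, h2, by rw [hb.bb]; exact h3⟩
  have := hf.f3 _ hm'
  rw [hb.bb] at this
  exact this.2 hx

/-- In the mixed case of a slot outside `D`: the edge of `t` at `bar x` is the `bar`-image of `s`. -/
theorem mixed_g (hb : SlotSys bar h) (hs : ValidS bar s) (ht : CompS bar t RT)
    (hf : FlipOK bar s t RT D A) (hd : x ∉ D) (he : s x ≠ x) (hy : s x ∈ D) :
    MxS bar s t RT x ∧ bar x ∉ A ∧ bar (s x) ∈ A := by
  have hm : MxS bar s t RT x := by
    by_contra hn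
    exact hd ((hf.f1 x he hn).2 hy)
  have hbx : bar x ∉ A := fun hc => hd ((hf.f3 x hm).2 hc)
  refine ⟨hm, hbx, ?_⟩
  obtain ⟨h1, h2, h3⟩ := hm
  have hm2 : MxS bar s t RT (s x) := by
    refine ⟨by rw [hs.inv]; exact fun hc => he hc.symm, ?_, ?_⟩
    · rw [← h3, ht.rt]; exact h2
    · rw [hs.inv, ← h3, ht.inv]
  exact (hf.f3 _ hm2).1 hy

end cases

theorem flip_inv (hb : SlotSys bar h) (hs : ValidS bar s) (ht : CompS bar t RT)
    (hf : FlipOK bar s t RT D A) (x : X) :
    flip bar s t RT D A (flip bar s t RT D A x) = x := by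
  by_cases hx : x ∈ A
  · by_cases hr : RT x
    · by_cases hy : t x ∈ A
      · rw [flip_a hx hr hy, flip_a hy ((ht.rt x).2 hr) (by rw [ht.inv]; exact hx), ht.inv]
      · rw [flip_b hx hr hy]
        obtain ⟨h1, h2, h3⟩ := mixed_b hb hs ht hf hx hr hy
        have hyD : bar (t x) ∉ D := by
          intro hc
          have hm : MxS bar s t RT (bar (t x)) := by
            refine ⟨?_, ?_, ?_⟩
            · rw [← h1, hs.inv]; exact fun hc' => h2 hc'.symm
            · rw [hb.bb, ht.rt]; exact hr
            · rw [hb.bb, ht.inv, ← h1, hs.inv, hb.bb]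
          have := (hf.f3 _ hm).1 hc
          rw [hb.bb] at this
          exact hy this
        have hyA : bar (t x) ∉ A := fun hc => hyD (hf.sub hc)
        have hne : s (bar (t x)) ≠ bar (t x) := by
          rw [← h1, hs.inv]; exact fun hc' => h2 hc'.symm
        have hin : s (bar (t x)) ∈ D := by rw [← h1, hs.inv]; exact h3
        rw [flip_g hyA hyD hne hin, ← h1, hs.inv, hb.bb]
    · rw [flip_c hx hr, flip_c hx hr]
  · by_cases hd : x ∈ D
    · rw [flip_d hx hd, flip_d hx hd]
    · by_cases he : s x = x
      · rw [flip_e hx hd he, flip_e hx hd he]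
      · by_cases hy : s x ∈ D
        · rw [flip_g hx hd he hy]
          obtain ⟨hm, hbx, hbA⟩ := mixed_g hb hs ht hf hd he hy
          have hr : RT (bar (s x)) := by
            rw [← hm.2.2, ht.rt]; exact hm.2.1
          have htt : t (bar (s x)) = bar x := by rw [← hm.2.2, ht.inv]
          rw [flip_b hbA hr (by rw [htt]; exact hbx), htt, hb.bb]
        · have hyA : s x ∉ A := fun hc => hy (hf.sub hc)
          rw [flip_f hx hd he hy, flip_f hyA hy (by rw [hs.inv]; exact fun hc => he hc.symm)
            (by rw [hs.inv]; exact hd), hs.inv]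

/-- The four kinds of edges of a flip. -/
theorem flip_cases (hf : FlipOK bar s t RT D A) (x : X) (hne : flip bar s t RT D A x ≠ x) :
    (x ∈ A ∧ RT x ∧ t x ∈ A ∧ flip bar s t RT D A x = t x) ∨
    (x ∈ A ∧ RT x ∧ t x ∉ A ∧ flip bar s t RT D A x = bar (t x)) ∨
    (x ∉ D ∧ s x ≠ x ∧ s x ∉ D ∧ flip bar s t RT D A x = s x) ∨
    (x ∉ D ∧ s x ≠ x ∧ s x ∈ D ∧ flip bar s t RT D A x = bar (s x)) := by
  by_cases hx : x ∈ A
  · by_cases hr : RT x
    · by_cases hy : t x ∈ A
      · exact Or.inl ⟨hx, hr, hy, flip_a hx hr hy⟩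
      · exact Or.inr (Or.inl ⟨hx, hr, hy, flip_b hx hr hy⟩)
    · exact absurd (flip_c hx hr) hne
  · by_cases hd : x ∈ D
    · exact absurd (flip_d hx hd) hne
    · by_cases he : s x = x
      · exact absurd (flip_e hx hd he) hne
      · by_cases hy : s x ∈ D
        · exact Or.inr (Or.inr (Or.inr ⟨hd, he, hy, flip_g hx hd he hy⟩))
        · exact Or.inr (Or.inr (Or.inl ⟨hd, he, hy, flip_f hx hd he hy⟩))

theorem flip_nb (hb : SlotSys bar h) (hs : ValidS bar s) (ht : CompS bar t RT)
    (hf : FlipOK bar s t RT D A) (x : X) (hne : flip bar s t RT D A x ≠ x) :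
    flip bar s t RT D A x ≠ bar x := by
  have binj : ∀ a c, bar a = bar c → a = c := fun a c hac => by
    have := congrArg bar hac
    rwa [hb.bb, hb.bb] at this
  rcases flip_cases hf x hne with ⟨h1, h2, h3, h4⟩ | ⟨h1, h2, h3, h4⟩ | ⟨h1, h2, h3, h4⟩ |
      ⟨h1, h2, h3, h4⟩
  · rw [h4]; exact ht.nb x h2
  · rw [h4]; exact fun hc => ht.ne x (binj _ _ hc)
  · rw [h4]; exact hs.nb x h2
  · rw [h4]; exact fun hc => h2 (binj _ _ hc)

/-- The mixed edges can not occur together with their image. -/
theorem flip_no_b (hb : SlotSys bar h) (hs : ValidS bar s) (ht : CompS bar t RT)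
    (hf : FlipOK bar s t RT D A) (x : X) (hx : x ∈ A) (hr : RT x) (hy : t x ∉ A)
    (hc : flip bar s t RT D A (bar x) = bar (flip bar s t RT D A x)) : False := by
  have binj : ∀ a c, bar a = bar c → a = c := fun a c hac => by
    have := congrArg bar hac
    rwa [hb.bb, hb.bb] at this
  rw [flip_b hx hr hy, hb.bb] at hc
  by_cases hbx : bar x ∈ A
  · by_cases hr' : RT (bar x)
    · by_cases hy' : t (bar x) ∈ A
      · rw [flip_a hbx hr' hy'] at hc
        have : bar x = x := by
          have := congrArg t hc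
          rwa [ht.inv, ht.inv] at this
        exact hb.ne x this
      · rw [flip_b hbx hr' hy'] at hc
        have : t (bar x) = bar (t x) := by
          have := congrArg bar hc
          rwa [hb.bb] at this
        exact ht.tok x hr hr' this
    · rw [flip_c hbx hr'] at hc
      exact ht.nb x hr hc.symm
  · obtain ⟨_, _, h3⟩ := mixed_b hb hs ht hf hx hr hy
    rw [flip_d hbx h3] at hc
    exact ht.nb x hr hc.symm

theorem flip_no_g (hb : SlotSys bar h) (hs : ValidS bar s) (ht : CompS bar t RT)
    (hf : FlipOK bar s t RT D A) (x : X) (hd : x ∉ D) (he : s x ≠ x) (hy : s x ∈ D)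
    (hc : flip bar s t RT D A (bar x) = bar (flip bar s t RT D A x)) : False := by
  have hxA : x ∉ A := fun hc' => hd (hf.sub hc')
  rw [flip_g hxA hd he hy, hb.bb] at hc
  obtain ⟨_, hbx, _⟩ := mixed_g hb hs ht hf hd he hy
  by_cases hd' : bar x ∈ D
  · rw [flip_d hbx hd'] at hc
    exact hs.nb x he hc.symm
  · by_cases he' : s (bar x) = bar x
    · rw [flip_e hbx hd' he'] at hc
      exact hs.nb x he hc.symm
    · by_cases hy' : s (bar x) ∈ D
      · rw [flip_g hbx hd' he' hy'] at hc
        have : s (bar x) = bar (s x) := by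
          have := congrArg bar hc
          rwa [hb.bb] at this
        exact hs.tok x he this
      · rw [flip_f hbx hd' he' hy'] at hc
        have : bar x = x := by
          have := congrArg s hc
          rwa [hs.inv, hs.inv] at this
        exact hb.ne x this

theorem flip_no_af (hb : SlotSys bar h) (hs : ValidS bar s) (ht : CompS bar t RT)
    (hf : FlipOK bar s t RT D A) (x : X) (hx : x ∈ A) (hr : RT x) (hne : s (bar x) ≠ bar x)
    (hd : bar x ∉ D) (hc : s (bar x) = bar (t x)) : False := by
  have hm : MxS bar s t RT (bar x) := by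
    refine ⟨hne, by rw [hb.bb]; exact hr, ?_⟩
    rw [hb.bb, hc, hb.bb]
  have := hf.f3 _ hm
  rw [hb.bb] at this
  exact hd (this.2 hx)

theorem flip_tok (hb : SlotSys bar h) (hs : ValidS bar s) (ht : CompS bar t RT)
    (hf : FlipOK bar s t RT D A) (x : X) (hne : flip bar s t RT D A x ≠ x) :
    flip bar s t RT D A (bar x) ≠ bar (flip bar s t RT D A x) := by
  intro hc
  have binj : ∀ a c, bar a = bar c → a = c := fun a c hac => by
    have := congrArg bar hac
    rwa [hb.bb, hb.bb] at this
  have hc' : flip bar s t RT D A (bar (bar x)) = bar (flip bar s t RT D A (bar x)) := by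
    rw [hc, hb.bb, hb.bb]
  have hne' : flip bar s t RT D A (bar x) ≠ bar x := by
    rw [hc]; exact fun hh => hne (binj _ _ hh)
  rcases flip_cases hf x hne with ⟨h1, h2, h3, h4⟩ | ⟨h1, h2, h3, h4⟩ | ⟨h1, h2, h3, h4⟩ |
      ⟨h1, h2, h3, h4⟩
  · rcases flip_cases hf (bar x) hne' with ⟨i1, i2, i3, i4⟩ | ⟨i1, i2, i3, i4⟩ |
      ⟨i1, i2, i3, i4⟩ | ⟨i1, i2, i3, i4⟩
    · rw [h4, i4] at hc
      exact ht.tok x h2 i2 hc
    · exact flip_no_b hb hs ht hf _ i1 i2 i3 hc'
    · rw [h4, i4] at hc
      exact flip_no_af hb hs ht hf x h1 h2 i2 i1 hc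
    · exact flip_no_g hb hs ht hf _ i1 i2 i3 hc'
  · exact flip_no_b hb hs ht hf x h1 h2 h3 hc
  · rcases flip_cases hf (bar x) hne' with ⟨i1, i2, i3, i4⟩ | ⟨i1, i2, i3, i4⟩ |
      ⟨i1, i2, i3, i4⟩ | ⟨i1, i2, i3, i4⟩
    · rw [h4, i4] at hc
      have h5 : s (bar (bar x)) ≠ bar (bar x) := by rw [hb.bb]; exact h2
      have h6 : bar (bar x) ∉ D := by rw [hb.bb]; exact h1
      have h7 : s (bar (bar x)) = bar (t (bar x)) := by rw [hb.bb, hc, hb.bb]
      exact flip_no_af hb hs ht hf (bar x) i1 i2 h5 h6 h7
    · exact flip_no_b hb hs ht hf _ i1 i2 i3 hc'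
    · rw [h4, i4] at hc
      exact hs.tok x h2 hc
    · exact flip_no_g hb hs ht hf _ i1 i2 i3 hc'
  · exact flip_no_g hb hs ht hf x h1 h2 h3 hc

theorem flip_valid (hb : SlotSys bar h) (hs : ValidS bar s) (ht : CompS bar t RT)
    (hf : FlipOK bar s t RT D A) : ValidS bar (flip bar s t RT D A) :=
  ⟨flip_inv hb hs ht hf, flip_nb hb hs ht hf, flip_tok hb hs ht hf⟩

/-- The pointwise form of the value formula. -/
theorem flip_value_pt (hb : SlotSys bar h) (hs : ValidS bar s) (ht : CompS bar t RT)
    (hf : FlipOK bar s t RT D A) (x : X) :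
    sv h (flip bar s t RT D A) x + (if x ∈ D then sv h s x else 0) =
      sv h s x + (if x ∈ A then tv h t RT x else 0) := by
  have binj : ∀ a c, bar a = bar c → a = c := fun a c hac => by
    have := congrArg bar hac
    rwa [hb.bb, hb.bb] at this
  by_cases hx : x ∈ A
  · have hxD := hf.sub hx
    rw [if_pos hxD, if_pos hx]
    by_cases hr : RT x
    · have htv : tv h t RT x = h x (t x) := by simp [tv, hr]
      rw [htv]
      by_cases hy : t x ∈ A
      · have : sv h (flip bar s t RT D A) x = h x (t x) := by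
          unfold sv
          rw [flip_a hx hr hy, if_neg (ht.ne x)]
        rw [this, add_comm]
      · have : sv h (flip bar s t RT D A) x = h x (t x) := by
          unfold sv
          rw [flip_b hx hr hy, if_neg, hb.hb]
          intro hc
          have hc2 := congrArg bar hc
          rw [hb.bb] at hc2
          exact ht.nb x hr hc2
        rw [this, add_comm]
    · have htv : tv h t RT x = 0 := by simp [tv, hr]
      have : sv h (flip bar s t RT D A) x = 0 := by
        unfold sv
        rw [flip_c hx hr]; simp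
      rw [htv, this]; simp
  · rw [if_neg hx]
    by_cases hd : x ∈ D
    · have : sv h (flip bar s t RT D A) x = 0 := by
        unfold sv
        rw [flip_d hx hd]; simp
      rw [if_pos hd, this]; simp
    · rw [if_neg hd]
      by_cases he : s x = x
      · have h1 : sv h (flip bar s t RT D A) x = 0 := by
          unfold sv
          rw [flip_e hx hd he]; simp
        have h2 : sv h s x = 0 := by
          unfold sv
          rw [if_pos he]
        rw [h1, h2]
      · by_cases hy : s x ∈ D
        · have h1 : sv h (flip bar s t RT D A) x = h x (s x) := by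
            unfold sv
            rw [flip_g hx hd he hy, if_neg, hb.hb]
            intro hc
            have hc2 := congrArg bar hc
            rw [hb.bb] at hc2
            exact hs.nb x he hc2
          have h2 : sv h s x = h x (s x) := by
            unfold sv
            rw [if_neg he]
          rw [h1, h2]
        · have h1 : sv h (flip bar s t RT D A) x = h x (s x) := by
            unfold sv
            rw [flip_f hx hd he hy, if_neg he]
          have h2 : sv h s x = h x (s x) := by
            unfold sv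
            rw [if_neg he]
          rw [h1, h2]

theorem flip_value (hb : SlotSys bar h) (hs : ValidS bar s) (ht : CompS bar t RT)
    (hf : FlipOK bar s t RT D A) :
    valS h (flip bar s t RT D A) + ∑ x ∈ D, sv h s x = valS h s + ∑ x ∈ A, tv h t RT x := by
  unfold valS
  have h1 : ∑ x ∈ D, sv h s x = ∑ x, (if x ∈ D then sv h s x else 0) := by
    simp [Finset.sum_ite_mem]
  have h2 : ∑ x ∈ A, tv h t RT x = ∑ x, (if x ∈ A then tv h t RT x else 0) := by
    simp [Finset.sum_ite_mem]
  rw [h1, h2, ← Finset.sum_add_distrib, ← Finset.sum_add_distrib]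
  exact Finset.sum_congr rfl (fun x _ => flip_value_pt hb hs ht hf x)

/-- Only the slots of `D` and the partners of the slots of `D` change. -/
theorem flip_changed (hs : ValidS bar s) (hf : FlipOK bar s t RT D A) :
    (Finset.univ.filter (fun x => flip bar s t RT D A x ≠ s x)) ⊆ D ∪ D.image s := by
  intro x hx
  have hne : flip bar s t RT D A x ≠ s x := (Finset.mem_filter.1 hx).2
  by_cases hd : x ∈ D
  · exact Finset.mem_union_left _ hd
  · have hxA : x ∉ A := fun hc => hd (hf.sub hc)
    by_cases he : s x = x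
    · exact absurd (by rw [flip_e hxA hd he, he]) hne
    · by_cases hy : s x ∈ D
      · exact Finset.mem_union_right _ (Finset.mem_image.2 ⟨s x, hy, hs.inv x⟩)
      · exact absurd (flip_f hxA hd he hy) hne

end Vale.Agent.Lib.P333G
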