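import Vale.Agent.Lib.P333G.Basic

/-!
(part G-LS) Local search: the result is a valid state which no valid state differing on at most
`K` slots improves.
-/

namespace Vale.Agent.Lib.P333G

open List (range)
open Vale.Agent.Lib.P333F

theorem mem_tuplesL {β : Type} {E : List β} {k : ℕ} {l : List β} (hl : l.length ≤ k)
    (hE : ∀ e ∈ l, e ∈ E) : l ∈ tuplesL k E := by
  induction k generalizing l with
  | zero =>
    have : l = [] := List.length_eq_zero_iff.mp (by omega)
    subst this
    simp [tuplesL]
  | succ k ih =>
    simp only [tuplesL, List.mem_append, List.mem_flatMap, List.mem_map]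
    by_cases h : l.length ≤ k
    · exact Or.inl (ih h hE)
    · right
      cases l with
      | nil => simp at h
      | cons a t =>
        refine ⟨a, hE a (by simp), t, ih ?_ ?_, rfl⟩
        · simpa using hl
        · intro e he
          exact hE e (List.mem_cons_of_mem _ he)

private theorem mat_lt_bigM (W : List (List ℕ)) (i j : ℕ) : mat W i j < bigM W := by
  unfold mat bigM
  by_cases hi : i < W.length
  · rw [List.getD_eq_getElem _ _ hi]
    by_cases hj : j < (W[i]).length
    · rw [List.getD_eq_getElem _ _ hj]
      have h1 : (W[i])[j] ≤ (W[i]).sum := List.le_sum_of_mem (List.getElem_mem hj)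
      have h2 : (W[i]).sum ≤ (W.map List.sum).sum :=
        List.le_sum_of_mem (List.mem_map.mpr ⟨W[i], List.getElem_mem hi, rfl⟩)
      omega
    · rw [List.getD_eq_default _ _ (by omega)]
      omega
  · have h0 : W.getD i [] = [] := List.getD_eq_default _ _ (by omega)
    rw [h0]
    simp

private theorem hw_le (w : List (List ℕ)) (x y : ℕ) : hw w x y ≤ bigM w := by
  unfold hw
  split_ifs
  · exact Nat.zero_le _
  · exact (mat_lt_bigM w _ _).le
  · exact (mat_lt_bigM w _ _).le

theorem val2_lt (w : List (List ℕ)) {s : List ℕ} (hs : ValidL w.length s) : val2 w s < lsBound w := by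
  unfold val2 lsBound
  have h : ((range s.length).map (fun x => hw w x (app s x))).sum ≤ s.length * bigM w := by
    have := List.sum_le_card_nsmul ((range s.length).map (fun x => hw w x (app s x))) (bigM w)
      (by
        intro a ha
        obtain ⟨x, _, rfl⟩ := List.mem_map.mp ha
        exact hw_le w x _)
    simpa using this
  rw [hs.len] at h ⊢
  omega

private theorem app_range {m x : ℕ} (hx : x < m) : app (range m) x = x := by
  unfold app
  rw [List.getD_eq_getElem _ _ (by simpa using hx)]
  simp

private theorem valid_range (n : ℕ) : ValidL n (range (2 * n)) := by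
  refine ⟨by simp, ?_, ?_, ?_, ?_⟩
  · intro x hx
    rw [app_range hx]; exact hx
  · intro x hx
    rw [app_range hx, app_range hx]
  · intro x hx h
    exact absurd (app_range hx) h
  · intro x hx h
    exact absurd (app_range hx) h

private theorem lookupD_map (f : ℕ → ℕ) (L : List ℕ) (x d : ℕ) :
    lookupD (L.map (fun y => (y, f y))) x d = if x ∈ L then f x else d := by
  unfold lookupD
  induction L with
  | nil => simp
  | cons a t ih =>
    by_cases hax : a = x
    · subst hax
      simp
    · have hxa : ¬ x = a := fun h => hax h.symm
      simp only [List.map_cons, List.filter_cons, hax, decide_false, Bool.false_eq_true, if_false,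
        List.mem_cons, hxa, false_or]
      simpa using ih

private theorem list_ext_app {a b : List ℕ} (hl : a.length = b.length)
    (h : ∀ x < a.length, app a x = app b x) : a = b := by
  apply List.ext_getElem hl
  intro i h1 h2
  have := h i h1
  unfold app at this
  rwa [List.getD_eq_getElem _ _ h1, List.getD_eq_getElem _ _ h2] at this

private theorem app_applyL {s : List ℕ} {A : List (ℕ × ℕ)} {x : ℕ} (hx : x < s.length) :
    app (applyL s A) x = lookupD A x (app s x) := by
  unfold applyL
  show ((range s.length).map (fun x => lookupD A x (app s x))).getD x 0 = lookupD A x (app s x)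
  rw [List.getD_eq_getElem _ _ (by simpa using hx)]
  simp

private theorem mem_pairsN {n x y : ℕ} (hx : x < 2 * n) (hy : y < 2 * n) : (x, y) ∈ pairsN n := by
  unfold pairsN
  simp only [List.mem_flatMap, List.mem_map, List.mem_range]
  exact ⟨x, hx, y, hy, rfl⟩

/-- A valid state differing from the valid state `s` on at most `K` slots is a candidate. -/
private theorem mem_lsCands {K : ℕ} {w : List (List ℕ)} {s s' : List ℕ}
    (hs : ValidL w.length s) (hs' : ValidL w.length s')
    (hc : ((range (2 * w.length)).filter (fun x => decide (app s' x ≠ app s x))).length ≤ K) :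
    s' ∈ lsCands K w s := by
  unfold lsCands
  rw [List.mem_filter]
  refine ⟨?_, (validB_iff _ _).mpr hs'⟩
  rw [List.mem_map]
  refine ⟨((range (2 * w.length)).filter (fun x => decide (app s' x ≠ app s x))).map
    (fun y => (y, app s' y)), mem_tuplesL (by simpa using hc) ?_, ?_⟩
  · intro e he
    obtain ⟨y, hy, rfl⟩ := List.mem_map.mp he
    have hy' : y < 2 * w.length := by
      have := (List.mem_filter.mp hy).1
      simpa using this
    exact mem_pairsN hy' (hs'.lt y hy')
  · apply list_ext_app
    · simp [applyL, hs.len, hs'.len]
    · intro x hx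
      have hlen : (applyL s (((range (2 * w.length)).filter
          (fun x => decide (app s' x ≠ app s x))).map (fun y => (y, app s' y)))).length = s.length := by
        simp [applyL]
      rw [hlen] at hx
      rw [app_applyL hx, lookupD_map]
      have hx' : x < 2 * w.length := by rw [← hs.len]; exact hx
      split_ifs with hm
      · rfl
      · simp only [List.mem_filter, List.mem_range, hx', true_and, decide_eq_true_eq, not_not] at hm
        exact hm.symm

private theorem bestBy_mem_or {β : Type} (key : β → ℕ) (d : β) (l : List β) :
    bestBy key d l ∈ l ∨ bestBy key d l = d := by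
  by_cases hl : l = []
  · subst hl
    right
    simp [bestBy]
  · exact Or.inl (bestBy_spec key d hl).1

private theorem lsBest_valid {K : ℕ} {w : List (List ℕ)} {s : List ℕ} (hs : ValidL w.length s) :
    ValidL w.length (lsBest K w s) := by
  unfold lsBest
  rcases bestBy_mem_or (val2 w) s (lsCands K w s) with h | h
  · unfold lsCands at h
    exact (validB_iff _ _).mp (List.mem_filter.mp h).2
  · rw [h]; exact hs

private theorem stepLS_valid {K : ℕ} {w : List (List ℕ)} {s : List ℕ} (hs : ValidL w.length s) :
    ValidL w.length (stepLS K w s) := by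
  unfold stepLS
  split_ifs
  · exact lsBest_valid hs
  · exact hs

/-- The state after `t` rounds. -/
private theorem run_inv (K : ℕ) (w : List (List ℕ)) (t : ℕ) :
    ValidL w.length ((stepLS K w)^[t] (range (2 * w.length))) ∧
      (stepLS K w ((stepLS K w)^[t] (range (2 * w.length))) =
          (stepLS K w)^[t] (range (2 * w.length)) ∨
        t ≤ val2 w ((stepLS K w)^[t] (range (2 * w.length)))) := by
  induction t with
  | zero => exact ⟨valid_range _, Or.inr (Nat.zero_le _)⟩
  | succ t ih =>
    rw [Function.iterate_succ_apply']
    obtain ⟨hv, hfix⟩ := ih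
    set s := (stepLS K w)^[t] (range (2 * w.length)) with hs
    refine ⟨stepLS_valid hv, ?_⟩
    rcases hfix with hfix | hle
    · left
      rw [hfix, hfix]
    · by_cases hlt : val2 w s < val2 w (lsBest K w s)
      · right
        have : stepLS K w s = lsBest K w s := by
          unfold stepLS
          rw [if_pos hlt]
        rw [this]
        omega
      · left
        have : stepLS K w s = s := by
          unfold stepLS
          rw [if_neg hlt]
        rw [this, this]

private theorem lsRun_eq (K : ℕ) (w : List (List ℕ)) :
    lsRun K w = (stepLS K w)^[lsBound w] (range (2 * w.length)) := by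
  unfold lsRun
  rw [foldr_const]
  simp

theorem lsRun_valid (K : ℕ) (w : List (List ℕ)) : ValidL w.length (lsRun K w) := by
  rw [lsRun_eq]
  exact (run_inv K w _).1

private theorem lsRun_fixed (K : ℕ) (w : List (List ℕ)) :
    stepLS K w (lsRun K w) = lsRun K w := by
  rw [lsRun_eq]
  obtain ⟨hv, h⟩ := run_inv K w (lsBound w)
  rcases h with h | h
  · exact h
  · have := val2_lt w hv
    omega

theorem lsRun_opt (K : ℕ) (w : List (List ℕ)) {s' : List ℕ} (hs' : ValidL w.length s')
    (hc : ((range (2 * w.length)).filter (fun x => decide (app s' x ≠ app (lsRun K w) x))).length ≤ K) :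
    val2 w s' ≤ val2 w (lsRun K w) := by
  have hv := lsRun_valid K w
  have hm := mem_lsCands hv hs' hc
  have hne : lsCands K w (lsRun K w) ≠ [] := List.ne_nil_of_mem hm
  have hb := (bestBy_spec (val2 w) (lsRun K w) hne).2 s' hm
  have hfix := lsRun_fixed K w
  by_contra hcon
  have hlt : val2 w (lsRun K w) < val2 w (lsBest K w (lsRun K w)) := by
    unfold lsBest
    omega
  have h1 : stepLS K w (lsRun K w) = lsBest K w (lsRun K w) := by
    unfold stepLS
    rw [if_pos hlt]
  rw [h1] at hfix
  rw [hfix] at hlt
  exact lt_irrefl _ hlt

end Vale.Agent.Lib.P333G
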