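import Vale.Agent.Lib.P333G.Defs
import Vale.Agent.Lib.P333F.PTStr

/-!
(part G-PT) The algorithm is computed in polynomial time.
-/

namespace Vale.Agent.Lib.P333G

open Vale.Agent.Lib.P310.M Vale.Agent.Lib.P333F

variable {α β : Type} [Enc α] [Enc β]

lemma div2_eq (x : ℕ) : x / 2 = ((List.range x).filter (fun k => decide (2 * (k + 1) ≤ x))).length := by
  have h1 : ((List.range x).filter (fun k => decide (2 * (k + 1) ≤ x))).toFinset = Finset.range (x / 2) := by
    ext k
    simp only [List.mem_toFinset, List.mem_filter, List.mem_range, decide_eq_true_eq, Finset.mem_range]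
    omega
  have h2 : ((List.range x).filter (fun k => decide (2 * (k + 1) ≤ x))).Nodup :=
    (List.nodup_range).filter _
  rw [← List.toFinset_card_of_nodup h2, h1, Finset.card_range]

@[fun_prop] theorem div2_pt {f : α → ℕ} (hf : PT f) : PT (fun a => f a / 2) := by
  have h : PT (fun a => ((List.range (f a)).filter (fun k => decide (2 * (k + 1) ≤ f a))).length) := by
    fun_prop
  exact (funext fun a => div2_eq (f a) : (fun a => f a / 2) = _) ▸ h

@[fun_prop] theorem mod2_pt {f : α → ℕ} (hf : PT f) : PT (fun a => f a % 2) := by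
  have h : PT (fun a => f a - 2 * (f a / 2)) := by fun_prop
  refine (funext fun a => ?_ : (fun a => f a % 2) = _) ▸ h
  omega

@[fun_prop] theorem vtx_pt {f : α → ℕ} (hf : PT f) : PT (fun a => vtx (f a)) := by
  unfold vtx; fun_prop

@[fun_prop] theorem bar_pt {f : α → ℕ} (hf : PT f) : PT (fun a => bar (f a)) := by
  unfold bar; fun_prop

@[fun_prop] theorem hw_pt {w : α → List (List ℕ)} {x y : α → ℕ} (hw' : PT w) (hx : PT x) (hy : PT y) :
    PT (fun a => hw (w a) (x a) (y a)) := by
  unfold hw; fun_prop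

@[fun_prop] theorem val2_pt {w : α → List (List ℕ)} {s : α → List ℕ} (hw' : PT w) (hs : PT s) :
    PT (fun a => val2 (w a) (s a)) := by
  unfold val2; fun_prop

@[fun_prop] theorem validB_pt {n : α → ℕ} {s : α → List ℕ} (hn : PT n) (hs : PT s) :
    PT (fun a => validB (n a) (s a)) := by
  unfold validB; fun_prop

@[fun_prop] theorem lookupD_pt {A : α → List (ℕ × ℕ)} {x d : α → ℕ} (hA : PT A) (hx : PT x) (hd : PT d) :
    PT (fun a => lookupD (A a) (x a) (d a)) := by
  unfold lookupD; fun_prop

@[fun_prop] theorem applyL_pt {s : α → List ℕ} {A : α → List (ℕ × ℕ)} (hs : PT s) (hA : PT A) :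
    PT (fun a => applyL (s a) (A a)) := by
  unfold applyL; fun_prop

@[fun_prop] theorem pairsN_pt {n : α → ℕ} (hn : PT n) : PT (fun a => pairsN (n a)) := by
  unfold pairsN; fun_prop

theorem tuplesL_pt (k : ℕ) : ∀ {α : Type} [Enc α] {E : α → List β}, PT E →
    PT (fun a => tuplesL k (E a)) := by
  induction k with
  | zero =>
    intro α _ E _
    exact PT.const _
  | succ k ih =>
    intro α _ E hE
    have h1 : PT (fun a => tuplesL k (E a)) := ih hE
    have h2 : PT (fun x : α × β => tuplesL k (E x.1)) := ih (by fun_prop)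
    have h3 : PT (fun x : (α × β) × List β => x.1.2 :: x.2) := by fun_prop
    have h4 : PT (fun x : α × β => (tuplesL k (E x.1)).map (fun l => x.2 :: l)) :=
      PT.map' h2 h3
    show PT (fun a => tuplesL k (E a) ++ (E a).flatMap (fun e => (tuplesL k (E a)).map (fun l => e :: l)))
    exact PT.append' h1 (PT.flatMap' hE h4)

@[fun_prop] theorem lsCands_pt (K : ℕ) {w : α → List (List ℕ)} {s : α → List ℕ} (hw' : PT w)
    (hs : PT s) : PT (fun a => lsCands K (w a) (s a)) := by
  have h : PT (fun a => tuplesL K (pairsN (w a).length)) := tuplesL_pt K (by fun_prop)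
  unfold lsCands; fun_prop

@[fun_prop] theorem lsBest_pt (K : ℕ) {w : α → List (List ℕ)} {s : α → List ℕ} (hw' : PT w)
    (hs : PT s) : PT (fun a => lsBest K (w a) (s a)) := by
  unfold lsBest
  exact bestBy_pt (key := fun a l => val2 (w a) l) (by fun_prop) hs (by fun_prop)

@[fun_prop] theorem stepLS_pt (K : ℕ) {w : α → List (List ℕ)} {s : α → List ℕ} (hw' : PT w)
    (hs : PT s) : PT (fun a => stepLS K (w a) (s a)) := by
  unfold stepLS; fun_prop

@[fun_prop] theorem lsBound_pt {w : α → List (List ℕ)} (hw' : PT w) : PT (fun a => lsBound (w a)) := by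
  unfold lsBound; fun_prop

/-- States stay bounded. -/
lemma validB_bd {n : ℕ} {s : List ℕ} (h : validB n s = true) :
    s.length = 2 * n ∧ ∀ v ∈ s, v ≤ 2 * n := by
  simp only [validB, Bool.and_eq_true, decide_eq_true_eq, List.all_eq_true, List.mem_range] at h
  obtain ⟨h1, h2⟩ := h
  refine ⟨h1, fun v hv => ?_⟩
  obtain ⟨i, hi, rfl⟩ := List.getElem_of_mem hv
  have h3 := (h2 i (by omega)).1.1
  have h4 : app s i = s[i] := by
    unfold app
    exact List.getD_eq_getElem _ _ hi
  omega

lemma stepLS_bd (K : ℕ) (w : List (List ℕ)) {s : List ℕ}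
    (hs : s.length = 2 * w.length ∧ ∀ v ∈ s, v ≤ 2 * w.length) :
    (stepLS K w s).length = 2 * w.length ∧ ∀ v ∈ stepLS K w s, v ≤ 2 * w.length := by
  unfold stepLS
  split
  · unfold lsBest
    rcases bestBy_mem_or (val2 w) s (lsCands K w s) with h | h
    · have := (List.mem_filter.mp h).2
      exact validB_bd this
    · rw [h]; exact hs
  · exact hs

lemma lsIter_bd (K : ℕ) (w : List (List ℕ)) (m : List ℕ) :
    (m.foldr (fun _ s => stepLS K w s) (List.range (2 * w.length))).length = 2 * w.length ∧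
    ∀ v ∈ m.foldr (fun _ s => stepLS K w s) (List.range (2 * w.length)), v ≤ 2 * w.length := by
  induction m with
  | nil =>
    simp only [List.foldr_nil, List.length_range, true_and]
    intro v hv
    have := List.mem_range.mp hv
    omega
  | cons y m ih =>
    simp only [List.foldr_cons]
    exact stepLS_bd K w ih

@[fun_prop] theorem lsRun_pt (K : ℕ) {w : α → List (List ℕ)} (hw' : PT w) :
    PT (fun a => lsRun K (w a)) := by
  have hs : PT (fun z : α × List ℕ => stepLS K (w z.1) z.2) := by fun_prop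
  unfold lsRun
  refine iter_pt (s := fun z : α × List ℕ => stepLS K (w z.1) z.2) (by fun_prop) (by fun_prop) hs ?_
  have hn : PB (fun (a : α) (_ : ℕ) => (w a).length) :=
    (PB.of_sz (f := fun a => (w a).length) (by fun_prop)).mono (fun a t => by
      show (w a).length ≤ sz (enc (w a).length)
      rw [PT.sz_natEnc]; omega)
  have hn2 : PB (fun (a : α) (_ : ℕ) => 2 * (w a).length) := (PB.const 2).mul hn
  have hall : PB (fun (a : α) (_ : ℕ) => (2 * (2 * (w a).length) + 2) * (2 * (w a).length) + 1) :=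
    ((((PB.const 2).mul hn2).add (PB.const 2)).mul hn2).add (PB.const 1)
  obtain ⟨c, d, h⟩ := hall
  refine ⟨c, d, fun a t => ?_⟩
  obtain ⟨h1, h2⟩ := lsIter_bd K (w a) (List.range t)
  have h3 := sz_natList_le _ h2
  rw [h1] at h3
  exact h3.trans (h a t)

@[fun_prop] theorem bar2_pt {f : α → ℕ} (hf : PT f) : PT (fun a => bar2 (f a)) := by
  unfold bar2; fun_prop

@[fun_prop] theorem s2_pt {s : α → List ℕ} {f : α → ℕ} (hs : PT s) (hf : PT f) :
    PT (fun a => s2 (s a) (f a)) := by
  unfold s2; fun_prop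

@[fun_prop] theorem psiL_pt {s : α → List ℕ} (hs : PT s) : PT (fun a => psiL (s a)) := by
  unfold psiL; fun_prop

@[fun_prop] theorem minL_pt {l : α → List ℕ} (hl : PT l) : PT (fun a => minL (l a)) := by
  unfold minL; fun_prop

@[fun_prop] theorem colB_pt {s : α → List ℕ} {x : α → ℕ} (hs : PT s) (hx : PT x) :
    PT (fun a => colB (s a) (x a)) := by
  unfold colB; fun_prop

@[fun_prop] theorem tailS_pt {s : α → List ℕ} {k : α → Bool} {u : α → ℕ} (hs : PT s) (hk : PT k)
    (hu : PT u) : PT (fun a => tailS (s a) (k a) (u a)) := by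
  unfold tailS; fun_prop

@[fun_prop] theorem phi_pt {s : α → List ℕ} {k : α → Bool} {u : α → ℕ} (hs : PT s) (hk : PT k)
    (hu : PT u) : PT (fun a => phi (s a) (k a) (u a)) := by
  unfold phi; fun_prop

@[fun_prop] theorem realB_pt {s : α → List ℕ} {k : α → Bool} {u : α → ℕ} (hs : PT s) (hk : PT k)
    (hu : PT u) : PT (fun a => realB (s a) (k a) (u a)) := by
  unfold realB; fun_prop

@[fun_prop] theorem rawC_pt {s : α → List ℕ} {k : α → Bool} {u : α → ℕ} (hs : PT s) (hk : PT k)
    (hu : PT u) : PT (fun a => rawC (s a) (k a) (u a)) := by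
  unfold rawC; fun_prop

@[fun_prop] theorem wh_pt {s : α → List ℕ} {u : α → ℕ} (hs : PT s) (hu : PT u) :
    PT (fun a => wh (s a) (u a)) := by
  unfold wh; fun_prop

@[fun_prop] theorem whL_pt {n : α → ℕ} {s : α → List ℕ} (hn : PT n) (hs : PT s) :
    PT (fun a => whL (n a) (s a)) := by
  unfold whL; fun_prop

@[fun_prop] theorem rawL_pt {n : α → ℕ} {s : α → List ℕ} {k : α → Bool} (hn : PT n) (hs : PT s)
    (hk : PT k) : PT (fun a => rawL (n a) (s a) (k a)) := by
  unfold rawL; fun_prop

@[fun_prop] theorem onCyc_pt {p : α → List ℕ} {u : α → ℕ} (hp : PT p) (hu : PT u) :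
    PT (fun a => onCyc (p a) (u a)) := by
  unfold onCyc; fun_prop

@[fun_prop] theorem wCyc_pt {n : α → ℕ} {s : α → List ℕ} {u : α → ℕ} (hn : PT n) (hs : PT s)
    (hu : PT u) : PT (fun a => wCyc (n a) (s a) (u a)) := by
  unfold wCyc; fun_prop

@[fun_prop] theorem isRoot_pt {n : α → ℕ} {s : α → List ℕ} {u : α → ℕ} (hn : PT n) (hs : PT s)
    (hu : PT u) : PT (fun a => isRoot (n a) (s a) (u a)) := by
  unfold isRoot; fun_prop

@[fun_prop] theorem isSecond_pt {n : α → ℕ} {s : α → List ℕ} {u : α → ℕ} (hn : PT n) (hs : PT s)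
    (hu : PT u) : PT (fun a => isSecond (n a) (s a) (u a)) := by
  unfold isSecond; fun_prop

@[fun_prop] theorem closedK_pt {n : α → ℕ} {s : α → List ℕ} {k : α → Bool} {u : α → ℕ} (hn : PT n)
    (hs : PT s) (hk : PT k) (hu : PT u) : PT (fun a => closedK (n a) (s a) (k a) (u a)) := by
  unfold closedK; fun_prop

@[fun_prop] theorem cand_pt {s : α → List ℕ} {k : α → Bool} {u : α → ℕ} (hs : PT s) (hk : PT k)
    (hu : PT u) : PT (fun a => cand (s a) (k a) (u a)) := by
  unfold cand; fun_prop

@[fun_prop] theorem repE_pt {s : α → List ℕ} {u : α → ℕ} (hs : PT s) (hu : PT u) :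
    PT (fun a => repE (s a) (u a)) := by
  unfold repE; fun_prop

@[fun_prop] theorem selB_pt {n : α → ℕ} {s : α → List ℕ} {k : α → Bool} {u : α → ℕ} (hn : PT n)
    (hs : PT s) (hk : PT k) (hu : PT u) : PT (fun a => selB (n a) (s a) (k a) (u a)) := by
  unfold selB; fun_prop

@[fun_prop] theorem clK_pt {n : α → ℕ} {s : α → List ℕ} {k : α → Bool} {u : α → ℕ} (hn : PT n)
    (hs : PT s) (hk : PT k) (hu : PT u) : PT (fun a => clK (n a) (s a) (k a) (u a)) := by
  unfold clK; fun_prop

@[fun_prop] theorem cl3_pt {n : α → ℕ} {s : α → List ℕ} {u : α → ℕ} (hn : PT n) (hs : PT s)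
    (hu : PT u) : PT (fun a => cl3 (n a) (s a) (u a)) := by
  unfold cl3; fun_prop

@[fun_prop] theorem classesOf_pt {n : α → ℕ} {s : α → List ℕ} (hn : PT n) (hs : PT s) :
    PT (fun a => classesOf (n a) (s a)) := by
  unfold classesOf; fun_prop

@[fun_prop] theorem classW_pt {w : α → List (List ℕ)} {p : α → List ℕ} (hw' : PT w) (hp : PT p) :
    PT (fun a => classW (w a) (p a)) := by
  unfold classW; fun_prop

@[fun_prop] theorem lenS_pt {p : α → List ℕ} {u : α → ℕ} (hp : PT p) (hu : PT u) :
    PT (fun a => lenS (p a) (u a)) := by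
  unfold lenS; fun_prop

@[fun_prop] theorem walkS_pt {p : α → List ℕ} {u : α → ℕ} (hp : PT p) (hu : PT u) :
    PT (fun a => walkS (p a) (u a)) := by
  unfold walkS; fun_prop

@[fun_prop] theorem startsS_pt {p : α → List ℕ} (hp : PT p) : PT (fun a => startsS (p a)) := by
  unfold startsS; fun_prop

@[fun_prop] theorem orderS_pt {p : α → List ℕ} (hp : PT p) : PT (fun a => orderS (p a)) := by
  unfold orderS; fun_prop

/-- The approximation algorithm for Hamiltonian paths is computed in polynomial time, for each `R`. -/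
theorem atspLS_pt (R : ℕ) : PT (atspLS R) := by
  unfold atspLS
  refine orderS_pt ?_
  exact bestBy_pt (key := fun a p => classW a p) (by fun_prop) (by fun_prop) (by fun_prop)

end Vale.Agent.Lib.P333G
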